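import Vale.Agent.P162.Basic

/-! Part B, step 1: conditional expectations on labelled configurations. -/

set_option linter.unusedSectionVars false

namespace Vale.Agent.P162

open Finset

variable {d : ℕ} {Λ : Type*} [Fintype Λ] [DecidableEq Λ]

/-- keep the coordinates in `J` from `x`, take the others from `u` -/
def mix (J : Finset (Λ × Fin d)) (x u : Λ → X d) : Λ → X d :=
  fun i l => if (i, l) ∈ J then x i l else u i l

noncomputable def cnd (J : Finset (Λ × Fin d)) (f : (Λ → X d) → ℝ) (x : Λ → X d) : ℝ :=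
  av fun u => f (mix J x u)

/-- `φ` depends only on the coordinates in `J` -/
def Dep (J : Finset (Λ × Fin d)) (φ : (Λ → X d) → ℝ) : Prop :=
  ∀ x x', (∀ i l, (i, l) ∈ J → x i l = x' i l) → φ x = φ x'

lemma mix_mem {J : Finset (Λ × Fin d)} (x u : Λ → X d) {i : Λ} {l : Fin d} (h : (i, l) ∈ J) :
    mix J x u i l = x i l := by simp [mix, h]

lemma mix_notMem {J : Finset (Λ × Fin d)} (x u : Λ → X d) {i : Λ} {l : Fin d} (h : (i, l) ∉ J) :
    mix J x u i l = u i l := by simp [mix, h]

lemma Dep.mix {J : Finset (Λ × Fin d)} {φ : (Λ → X d) → ℝ} (h : Dep J φ) (x u : Λ → X d) :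
    φ (mix J x u) = φ x := h _ _ fun _ _ hl => mix_mem x u hl

lemma av_mix (J : Finset (Λ × Fin d)) (F : (Λ → X d) → ℝ) :
    av (fun x => av (fun u => F (mix J x u))) = av F := by
  let e : (Λ → X d) × (Λ → X d) ≃ (Λ → X d) × (Λ → X d) :=
    Function.Involutive.toPerm (fun z => (mix J z.1 z.2, mix J z.2 z.1))
      (fun z => by
        ext i l <;> by_cases hi : (i, l) ∈ J <;> simp [mix, hi])
  rw [← av_prod (fun z => F (mix J z.1 z.2))]
  have := av_equiv e (fun z => F z.1)
  rw [av_prod (fun z : (Λ → X d) × (Λ → X d) => F z.1)] at this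
  simp only [av_const] at this
  exact this

lemma cnd_dep (J : Finset (Λ × Fin d)) (f : (Λ → X d) → ℝ) : Dep J (cnd J f) := by
  intro x x' h
  refine av_congr fun u => congrArg f ?_
  funext i l
  by_cases hi : (i, l) ∈ J
  · rw [mix_mem _ _ hi, mix_mem _ _ hi, h i l hi]
  · rw [mix_notMem _ _ hi, mix_notMem _ _ hi]

lemma cnd_mul {J : Finset (Λ × Fin d)} {φ : (Λ → X d) → ℝ} (h : Dep J φ) (f : (Λ → X d) → ℝ) :
    cnd J (fun x => φ x * f x) = fun x => φ x * cnd J f x := by
  funext x
  simp only [cnd, h.mix, av_mul_left]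

lemma cnd_cnd {J J' : Finset (Λ × Fin d)} (h : J ⊆ J') (f : (Λ → X d) → ℝ) :
    cnd J (cnd J' f) = cnd J f := by
  funext x
  simp only [cnd]
  rw [← av_mix J' (fun u => f (mix J x u))]
  refine av_congr fun u => av_congr fun u' => congrArg f ?_
  funext i l
  by_cases h1 : (i, l) ∈ J
  · simp [mix, h1, h h1]
  · by_cases h2 : (i, l) ∈ J' <;> simp [mix, h1, h2]

/-- flip one coordinate -/
def fc (i : Λ) (l : Fin d) (x : Λ → X d) : Λ → X d := Function.update x i (flip l (x i))

lemma fc_fc (i : Λ) (l : Fin d) (x : Λ → X d) : fc i l (fc i l x) = x := by simp [fc]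

lemma fc_self (i : Λ) (l : Fin d) (x : Λ → X d) : fc i l x i l = !x i l := by simp [fc]

lemma fc_ne {i j : Λ} {l m : Fin d} (h : (j, m) ≠ (i, l)) (x : Λ → X d) : fc i l x j m = x j m := by
  by_cases hj : j = i
  · subst hj
    have : m ≠ l := fun e => h (by rw [e])
    simp [fc, flip_ne this]
  · simp [fc, hj]

lemma av_fc (i : Λ) (l : Fin d) (F : (Λ → X d) → ℝ) : av (fun x => F (fc i l x)) = av F :=
  av_bij (Function.Involutive.bijective (fc_fc i l)) F

lemma sg_not (b : Bool) : sg (!b) = -sg b := by cases b <;> simp [sg]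

lemma Dep.fc {J : Finset (Λ × Fin d)} {φ : (Λ → X d) → ℝ} (h : Dep J φ) {i : Λ} {l : Fin d}
    (hi : (i, l) ∉ J) (x : Λ → X d) : φ (fc i l x) = φ x :=
  h _ _ fun _ _ hm => fc_ne (fun e => hi (e ▸ hm)) x

lemma cnd_insert {J : Finset (Λ × Fin d)} {i : Λ} {l : Fin d} (hi : (i, l) ∉ J)
    (g : (Λ → X d) → ℝ) (x : Λ → X d) :
    cnd (insert (i, l) J) g x = cnd J g x + sg (x i l) * cnd J (fun z => sg (z i l) * g z) x := by
  have e1 : ∀ u, g (mix (insert (i, l) J) x u)
      = (1 + sg (x i l) * sg (u i l)) / 2 * g (mix J x u)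
        + (1 + sg (x i l) * sg (fc i l u i l)) / 2 * g (mix J x (fc i l u)) := by
    intro u
    rw [fc_self, sg_not]
    by_cases h : u i l = x i l
    · have : mix (insert (i, l) J) x u = mix J x u := by
        funext j m
        by_cases h1 : (j, m) = (i, l)
        · obtain ⟨rfl, rfl⟩ := Prod.mk.inj h1
          simp [mix, h]
        · simp [mix, h1]
      rw [this, h, mul_neg, sg_sq]; ring
    · have : mix (insert (i, l) J) x u = mix J x (fc i l u) := by
        funext j m
        by_cases h1 : (j, m) = (i, l)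
        · obtain ⟨rfl, rfl⟩ := Prod.mk.inj h1
          simp only [mix, Finset.mem_insert_self, if_true, hi, if_false, fc_self]
          revert h; cases u j m <;> cases x j m <;> simp
        · simp [mix, h1, fc_ne h1]
      have h2 : sg (u i l) = -sg (x i l) := by
        revert h; cases u i l <;> cases x i l <;> simp [sg]
      rw [this, h2, mul_neg, neg_neg, sg_sq]; ring
  simp only [cnd, e1]
  rw [av_add, av_fc i l (fun u => (1 + sg (x i l) * sg (u i l)) / 2 * g (mix J x u)),
    ← av_mul_left, ← av_add, ← av_add]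
  refine av_congr fun u => ?_
  rw [mix_notMem _ _ hi]; ring

/-- the sign character of the labels in `T` at bit `l` -/
noncomputable def chiT (l : Fin d) (T : Finset Λ) (x : Λ → X d) : ℝ := ∏ i ∈ T, sg (x i l)

lemma chiT_sq (l : Fin d) (T : Finset Λ) (x : Λ → X d) : chiT l T x ^ 2 = 1 := by
  rw [chiT, ← Finset.prod_pow]
  exact Finset.prod_eq_one fun i _ => by rw [sq, sg_sq]

lemma parseval_cnd (l : Fin d) (J : Finset (Λ × Fin d)) (w : (Λ → X d) → ℝ) (hw : Dep J w)
    (U : Finset Λ) (hU : ∀ i ∈ U, (i, l) ∉ J) : ∀ g : (Λ → X d) → ℝ,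
    av (fun x => w x * cnd (J ∪ U.image (fun i => (i, l))) g x ^ 2)
      = ∑ T ∈ U.powerset, av (fun x => w x * cnd J (fun z => chiT l T z * g z) x ^ 2) := by
  induction U using Finset.induction_on with
  | empty => intro g; simp [chiT]
  | insert i U hi ih =>
    intro g
    have hU' : ∀ j ∈ U, (j, l) ∉ J := fun j hj => hU j (Finset.mem_insert_of_mem hj)
    have hn : (i, l) ∉ J ∪ U.image (fun i => (i, l)) := by
      simp only [Finset.mem_union, Finset.mem_image, Prod.mk.injEq, and_true, exists_eq_right]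
      exact fun h => h.elim (hU i (Finset.mem_insert_self _ _)) hi
    rw [Finset.image_insert, Finset.union_insert, Finset.sum_powerset_insert hi, ← ih hU' g]
    have e : ∀ T ∈ U.powerset, (fun z => chiT l (insert i T) z * g z)
        = fun z => chiT l T z * (sg (z i l) * g z) := by
      intro T hT
      funext z
      rw [chiT, Finset.prod_insert (fun h => hi (Finset.mem_powerset.1 hT h)), chiT]; ring
    rw [Finset.sum_congr rfl fun T hT => by rw [e T hT], ← ih hU' (fun z => sg (z i l) * g z)]
    simp only [cnd_insert hn]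
    set J' := J ∪ U.image (fun i => (i, l))
    set α := cnd J' g
    set β := cnd J' (fun z => sg (z i l) * g z)
    have z : av (fun x => w x * α x * β x * sg (x i l)) = 0 := by
      have h := av_fc i l (fun x => w x * α x * β x * sg (x i l))
      simp only [(cnd_dep J' _).fc hn, α, β, hw.fc (hU i (Finset.mem_insert_self _ _)), fc_self,
        sg_not, mul_neg] at h
      have h2 := av_mul_left (-1) (fun x => w x * α x * β x * sg (x i l))
      simp only [neg_mul, one_mul] at h2
      simp only [α, β] at h2 ⊢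
      linarith
    have e2 : ∀ x, w x * (α x + sg (x i l) * β x) ^ 2
        = w x * α x ^ 2 + w x * β x ^ 2 + 2 * (w x * α x * β x * sg (x i l)) := by
      intro x
      have := sg_sq (x i l)
      linear_combination (w x * β x ^ 2) * this
    simp only [e2]
    rw [av_add, av_add, av_mul_left, z]; ring

/-- coordinates kept: all bits of the labels in `W`, and the bits `≥ s` of all labels -/
def JW (d : ℕ) (W : Finset Λ) (s : ℕ) : Finset (Λ × Fin d) :=
  Finset.univ.filter (fun q => q.1 ∈ W ∨ s ≤ q.2.val)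

lemma mem_JW {W : Finset Λ} {s : ℕ} {i : Λ} {l : Fin d} :
    (i, l) ∈ JW d W s ↔ i ∈ W ∨ s ≤ l.val := by simp [JW]

lemma mix_JW_mem {W : Finset Λ} {s : ℕ} (x u : Λ → X d) {i : Λ} (hi : i ∈ W) :
    mix (JW d W s) x u i = x i := funext fun _ => mix_mem x u (mem_JW.2 (Or.inl hi))

lemma JW_succ (W : Finset Λ) (l : Fin d) :
    JW d W l.val = JW d W (l.val + 1) ∪ Wᶜ.image (fun i => (i, l)) := by
  ext ⟨i, m⟩
  simp only [mem_JW, Finset.mem_union, Finset.mem_image, Finset.mem_compl, Prod.mk.injEq]
  constructor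
  · intro h
    by_cases hi : i ∈ W
    · exact Or.inl (Or.inl hi)
    · have h2 : l.val ≤ m.val := h.resolve_left hi
      rcases h2.eq_or_lt with h3 | h3
      · exact Or.inr ⟨i, hi, rfl, Fin.ext h3⟩
      · exact Or.inl (Or.inr h3)
  · rintro ((h | h) | ⟨j, _, rfl, rfl⟩)
    · exact Or.inl h
    · exact Or.inr (by omega)
    · exact Or.inr le_rfl

lemma smul_apply' (g : Equiv.Perm (X d)) (x : Λ → X d) (i : Λ) : (g • x) i = g (x i) := rfl

lemma av_smul (g : Equiv.Perm (X d)) (F : (Λ → X d) → ℝ) : av (fun x => F (g • x)) = av F :=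
  av_equiv (MulAction.toPerm g) F

lemma cnd_H (W : Finset Λ) (l : Fin d) (ε : X d → Bool) (F : (Λ → X d) → ℝ) (x : Λ → X d) :
    cnd (JW d W (l.val + 1)) F (H l ε • x)
      = cnd (JW d W (l.val + 1)) (fun z => F (H l ε • z)) x := by
  set J := JW d W (l.val + 1) with hJ
  let ι : (Λ → X d) → (Λ → X d) :=
    fun u i m => if (i, m) ∈ J then u i m else H l ε (mix J x u i) m
  have key : ∀ u, mix J (H l ε • x) (ι u) = H l ε • mix J x u := by
    intro u
    funext i m
    rw [smul_apply']
    by_cases h : (i, m) ∈ J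
    · rw [mix_mem _ _ h, smul_apply']
      rcases mem_JW.1 h with hi | hm
      · rw [mix_JW_mem _ _ hi]
      · have : m ≠ l := fun e => by rw [e] at hm; omega
        rw [H_ne this, H_ne this, mix_mem _ _ h]
    · rw [mix_notMem _ _ h]
      simp only [ι, h, if_false]
  have inv : Function.Involutive ι := by
    intro u
    funext i m
    by_cases h : (i, m) ∈ J
    · simp only [ι, h, if_true]
    · have hi : i ∉ W := fun hi => h (mem_JW.2 (Or.inl hi))
      have : mix J x (ι u) i = H l ε (mix J x u i) := by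
        funext m'
        by_cases h' : (i, m') ∈ J
        · have hm : l.val + 1 ≤ m'.val := (mem_JW.1 h').resolve_left hi
          have : m' ≠ l := fun e => by rw [e] at hm; omega
          rw [mix_mem _ _ h', H_ne this, mix_mem _ _ h']
        · rw [mix_notMem _ _ h']; simp only [ι, h', if_false]
      change (if (i, m) ∈ J then ι u i m else H l ε (mix J x (ι u) i) m) = u i m
      rw [if_neg h, this, H_H, mix_notMem _ _ h]
  simp only [cnd]
  rw [← av_bij inv.bijective (fun u => F (mix J (H l ε • x) u))]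
  simp only [key]

/-- hypercontractivity for signs -/
lemma hyper_sg {ι : Type*} [Fintype ι] [DecidableEq ι] (c : Finset ι → ℝ) :
    av (fun ε : ι → Bool => (∑ S : Finset ι, c S * ∏ y ∈ S, sg (ε y)) ^ 4)
      ≤ (∑ S : Finset ι, 4 ^ S.card * c S ^ 2) ^ 2 := by
  have h := P063.hyper (p := 1 / 2) (by norm_num) (by norm_num) (Finset.univ : Finset ι)
    (fun S => (-1) ^ S.card * c S)
  have hs : P063.sig (1 / 2) = 1 / 2 := by
    rw [P063.sig, show (1 / 2 : ℝ) * (1 - 1 / 2) = (1 / 2) ^ 2 by norm_num,
      Real.sqrt_sq (by norm_num)]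
  have hk : P063.kap (1 / 2) = 4 := by rw [P063.kap, hs]; norm_num
  have hp : ∀ b, P063.phi (1 / 2) b = -1 * sg b := by
    intro b; cases b <;> simp [P063.phi, sg] <;> rw [← one_div, hs] <;> norm_num
  rw [Ex_half, hk, Finset.powerset_univ] at h
  have e1 : ∀ (S : Finset ι) (ε : ι → Bool), (-1) ^ S.card * c S * P063.chi (1 / 2) S ε
      = c S * ∏ y ∈ S, sg (ε y) := by
    intro S ε
    simp only [P063.chi, hp, Finset.prod_mul_distrib, Finset.prod_const]
    have : ((-1 : ℝ) ^ S.card) ^ 2 = 1 := by rw [← pow_mul, mul_comm, pow_mul]; simp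
    linear_combination (c S * ∏ y ∈ S, sg (ε y)) * this
  have e2 : ∀ S : Finset ι, ((-1) ^ S.card * c S) ^ 2 = c S ^ 2 := by
    intro S
    have : ((-1 : ℝ) ^ S.card) ^ 2 = 1 := by rw [← pow_mul, mul_comm, pow_mul]; simp
    rw [mul_pow, this, one_mul]
  simpa only [e1, e2] using h

/-- independence of functions of disjoint blocks of coins -/
lemma av_prod_blocks {ι B : Type*} [Fintype ι] [DecidableEq ι] [DecidableEq B] (κ : ι → B)
    (F : B → (ι → Bool) → ℝ)
    (hF : ∀ c ε ε', (∀ y, κ y = c → ε y = ε' y) → F c ε = F c ε') (C : Finset B) :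
    av (fun ε => ∏ c ∈ C, F c ε) = ∏ c ∈ C, av (F c) := by
  induction C using Finset.induction_on with
  | empty => simp [av_const]
  | insert c C hc ih =>
    simp only [Finset.prod_insert hc]
    rw [av_pw (Finset.univ.filter (fun y => κ y = c)), ← ih, ← av_mul_right]
    refine av_congr fun ε => ?_
    rw [← av_mul_left]
    refine av_congr fun ε' => ?_
    congr 1
    · exact hF c _ _ fun y hy => Finset.piecewise_eq_of_mem _ _ _ (by simpa using hy)
    · refine Finset.prod_congr rfl fun c' hc' => hF c' _ _ fun y hy => ?_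
      refine Finset.piecewise_eq_of_notMem _ _ _ ?_
      simp only [Finset.mem_filter, Finset.mem_univ, true_and, hy]
      exact fun e => hc (e ▸ hc')

lemma sum_powerset_split (P : Λ → Prop) [DecidablePred P] (W : Finset Λ) (F G : Finset Λ → ℝ) :
    ∑ T ∈ W.powerset, F (T.filter P) * G (T.filter (fun i => ¬ P i))
      = (∑ T ∈ (W.filter P).powerset, F T) * ∑ T ∈ (W.filter (fun i => ¬ P i)).powerset, G T := by
  rw [Finset.sum_mul_sum, ← Finset.sum_product']
  refine Finset.sum_bij' (fun T _ => (T.filter P, T.filter (fun i => ¬ P i)))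
    (fun z _ => z.1 ∪ z.2) ?_ ?_ ?_ ?_ ?_
  · intro T hT
    simp only [Finset.mem_product, Finset.mem_powerset] at hT ⊢
    exact ⟨Finset.filter_subset_filter _ hT, Finset.filter_subset_filter _ hT⟩
  · intro z hz
    simp only [Finset.mem_product, Finset.mem_powerset] at hz ⊢
    exact Finset.union_subset (hz.1.trans (Finset.filter_subset _ _))
      (hz.2.trans (Finset.filter_subset _ _))
  · intro T _
    exact Finset.filter_union_filter_not_eq _ _
  · intro z hz
    simp only [Finset.mem_product, Finset.mem_powerset] at hz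
    have h1 : ∀ i ∈ z.1, P i := fun i hi => (Finset.mem_filter.1 (hz.1 hi)).2
    have h2 : ∀ i ∈ z.2, ¬ P i := fun i hi => (Finset.mem_filter.1 (hz.2 hi)).2
    ext i
    · simp only [Finset.mem_filter, Finset.mem_union]
      exact ⟨fun h => h.1.resolve_right fun h' => h2 i h' h.2, fun h => ⟨Or.inl h, h1 i h⟩⟩
    · simp only [Finset.mem_filter, Finset.mem_union]
      exact ⟨fun h => h.1.resolve_left fun h' => h.2 (h1 i h'), fun h => ⟨Or.inr h, h2 i h⟩⟩
  · intro T _; rfl

/-- a sum over subsets of a product over blocks factorises -/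
lemma sum_powerset_prod {B : Type*} [DecidableEq B] (κ : Λ → B) (φ : B → Finset Λ → ℝ)
    (C : Finset B) : ∀ W : Finset Λ, (∀ i ∈ W, κ i ∈ C) →
    ∑ T ∈ W.powerset, ∏ c ∈ C, φ c (T.filter (fun i => κ i = c))
      = ∏ c ∈ C, ∑ T ∈ (W.filter (fun i => κ i = c)).powerset, φ c T := by
  induction C using Finset.induction_on with
  | empty =>
    intro W hW
    have : W = ∅ := Finset.eq_empty_of_forall_notMem fun i hi => by simpa using hW i hi
    simp [this]
  | insert c C hc ih =>
    intro W hW
    simp only [Finset.prod_insert hc]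
    have e : ∀ (T : Finset Λ), ∀ c' ∈ C, T.filter (fun i => κ i = c')
        = (T.filter (fun i => ¬ κ i = c)).filter (fun i => κ i = c') := by
      intro T c' hc'
      ext i
      simp only [Finset.mem_filter]
      exact ⟨fun h => ⟨⟨h.1, fun e => hc (e ▸ h.2 ▸ hc')⟩, h.2⟩, fun h => ⟨h.1.1, h.2⟩⟩
    rw [Finset.sum_congr rfl fun T _ => by
      rw [Finset.prod_congr rfl fun c' hc' => by rw [e T c' hc']]]
    rw [sum_powerset_split (fun i => κ i = c) W (φ c)
      (fun T => ∏ c' ∈ C, φ c' (T.filter (fun i => κ i = c'))), ih]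
    · congr 1
      exact Finset.prod_congr rfl fun c' hc' => by rw [← e W c' hc']
    · intro i hi
      rw [Finset.mem_filter] at hi
      exact (Finset.mem_insert.1 (hW i hi.1)).resolve_left hi.2

lemma sum_reindex (F : Finset Λ → Finset Λ → ℝ) :
    ∑ W : Finset Λ, ∑ T ∈ Wᶜ.powerset, F W T
      = ∑ W : Finset Λ, ∑ T ∈ W.powerset, F (W \ T) T := by
  rw [Finset.sum_sigma', Finset.sum_sigma']
  refine Finset.sum_bij' (fun z _ => ⟨z.1 ∪ z.2, z.2⟩) (fun z _ => ⟨z.1 \ z.2, z.2⟩)
    ?_ ?_ ?_ ?_ ?_
  · intro z _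
    simp only [Finset.mem_sigma, Finset.mem_univ, Finset.mem_powerset, true_and]
    exact Finset.subset_union_right
  · intro z _
    simp only [Finset.mem_sigma, Finset.mem_univ, Finset.mem_powerset, true_and]
    intro i hi
    simp [hi]
  · rintro ⟨W, T⟩ hz
    simp only [Finset.mem_sigma, Finset.mem_univ, Finset.mem_powerset, true_and] at hz
    have : Disjoint W T := (Finset.subset_compl_iff_disjoint_right.1 hz).symm
    simp only [Finset.union_sdiff_cancel_right this]
  · rintro ⟨W, T⟩ hz
    simp only [Finset.mem_sigma, Finset.mem_univ, Finset.mem_powerset, true_and] at hz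
    simp only [Finset.sdiff_union_of_subset hz]
  · rintro ⟨W, T⟩ hz
    simp only [Finset.mem_sigma, Finset.mem_univ, Finset.mem_powerset, true_and] at hz
    have : Disjoint W T := (Finset.subset_compl_iff_disjoint_right.1 hz).symm
    simp only [Finset.union_sdiff_cancel_right this]

end Vale.Agent.P162
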