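import Vale.Agent.P162.B1

/-! Part B, step 2: the weights and their second moments. -/

set_option linter.unusedSectionVars false

namespace Vale.Agent.P162

open Finset

variable {d : ℕ} {Λ : Type*} [Fintype Λ] [DecidableEq Λ]

noncomputable def lphi (j N : ℝ) : ℝ := j / 16 * Real.log (2 ^ 256 * j / N)

noncomputable def Phi (j : ℕ) (N : ℝ) : ℝ :=
  if j = 0 then 1 else if j = 1 then 0 else 1 / 4 * Real.exp (lphi j N)

noncomputable def psi (j : ℕ) (N : ℝ) : ℝ := if j = 0 then 1 else 197 / 200 * Phi j N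

lemma Phi_nonneg (j : ℕ) (N : ℝ) : 0 ≤ Phi j N := by
  unfold Phi; split_ifs <;> positivity

lemma psi_nonneg (j : ℕ) (N : ℝ) : 0 ≤ psi j N := by
  have := Phi_nonneg j N
  unfold psi; split_ifs <;> positivity

lemma Phi_zero (N : ℝ) : Phi 0 N = 1 := by simp [Phi]

lemma Phi_one (N : ℝ) : Phi 1 N = 0 := by simp [Phi]

lemma Phi_two {j : ℕ} (h : 2 ≤ j) (N : ℝ) : Phi j N = 1 / 4 * Real.exp (lphi j N) := by
  rw [Phi, if_neg (by omega), if_neg (by omega)]

lemma Phi_le {j : ℕ} (h : 1 ≤ j) (N : ℝ) : Phi j N ≤ 1 / 4 * Real.exp (lphi j N) := by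
  rw [Phi, if_neg (by omega)]; split_ifs
  · positivity
  · exact le_rfl

lemma lphi_half {v m : ℝ} (hv : 0 < v) (hm : 0 < m) :
    lphi v m = lphi v (2 * m) + v / 16 * Real.log 2 := by
  unfold lphi
  have e : 2 ^ 256 * v / (2 * m) * 2 = 2 ^ 256 * v / m := by
    generalize (2 : ℝ) ^ 256 = C
    field_simp
  rw [← mul_add, ← Real.log_mul (by positivity) (by norm_num), e]

lemma lphi_split {a b m : ℝ} (ha : 0 < a) (hb : 0 < b) (hm : 0 < m) :
    lphi a m + lphi b m ≤ lphi (a + b) (2 * m) + (a - b) ^ 2 / (16 * (a + b)) := by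
  have hv : 0 < a + b := by linarith
  have h : ∀ c : ℝ, 0 < c → Real.log (2 ^ 256 * c / m)
      ≤ Real.log (2 ^ 256 * (a + b) / (2 * m)) + (2 * c / (a + b) - 1) := by
    intro c hc
    have e : 2 ^ 256 * c / m = 2 ^ 256 * (a + b) / (2 * m) * (2 * c / (a + b)) := by field_simp
    rw [e, Real.log_mul (by positivity) (by positivity)]
    have := Real.log_le_sub_one_of_pos (x := 2 * c / (a + b)) (by positivity)
    linarith
  unfold lphi
  have h1 := mul_le_mul_of_nonneg_left (h a ha) (show 0 ≤ a / 16 by positivity)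
  have h2 := mul_le_mul_of_nonneg_left (h b hb) (show 0 ≤ b / 16 by positivity)
  have e : a / 16 * (2 * a / (a + b) - 1) + b / 16 * (2 * b / (a + b) - 1)
      = (a - b) ^ 2 / (16 * (a + b)) := by field_simp; ring
  generalize Real.log (2 ^ 256 * (a + b) / (2 * m)) = L at h1 h2 ⊢
  nlinarith

lemma Phi_mul_sq_le (j0 j1 : ℕ) (m : ℝ) (hm : 0 < m) (hv : 2 ≤ j0 + j1) :
    (Phi j0 m * Phi j1 m) ^ 2 ≤ Phi (j0 + j1) (2 * m) ^ 2 *
      (1 / 16 * Real.exp (1 / (8 * (j0 + j1)) * ((j0 : ℝ) - j1) ^ 2)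
        + Real.exp ((j0 + j1) * Real.log 2 / 8 - (j0 + j1)) *
          (Real.exp ((j0 : ℝ) - j1) + Real.exp ((j1 : ℝ) - j0))) := by
  rw [Phi_two hv]
  have sq2 : ∀ x : ℝ, Real.exp x ^ 2 = Real.exp (2 * x) := fun x => by
    rw [← Real.exp_nat_mul]; norm_num
  rcases Nat.eq_zero_or_pos j0 with rfl | h0
  · have hv' : 2 ≤ j1 := by omega
    have hp : (0 : ℝ) < j1 := by exact_mod_cast (by omega : 0 < j1)
    rw [Phi_zero, Phi_two hv', lphi_half hp hm]
    simp only [Nat.cast_zero, zero_add, zero_sub, sub_zero, one_mul, mul_pow, sq2]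
    have e : Real.exp (2 * (lphi j1 (2 * m) + j1 / 16 * Real.log 2))
        = Real.exp (2 * lphi j1 (2 * m)) * (Real.exp (j1 * Real.log 2 / 8 - j1) * Real.exp j1) := by
      rw [← Real.exp_add, ← Real.exp_add]; congr 1; ring
    rw [e, ← mul_assoc]
    refine mul_le_mul_of_nonneg_left ?_ (by positivity)
    rw [mul_add]
    have a1 : 0 ≤ 1 / 16 * Real.exp (1 / (8 * (j1 : ℝ)) * (-(j1 : ℝ)) ^ 2) := by positivity
    have a2 : 0 ≤ Real.exp (j1 * Real.log 2 / 8 - j1) * Real.exp (-(j1 : ℝ)) := by positivity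
    linarith
  rcases Nat.eq_zero_or_pos j1 with rfl | h1
  · have hv' : 2 ≤ j0 := by omega
    have hp : (0 : ℝ) < j0 := by exact_mod_cast h0
    rw [Phi_zero, Phi_two hv', lphi_half hp hm]
    simp only [Nat.cast_zero, add_zero, zero_sub, sub_zero, mul_one, mul_pow, sq2]
    have e : Real.exp (2 * (lphi j0 (2 * m) + j0 / 16 * Real.log 2))
        = Real.exp (2 * lphi j0 (2 * m)) * (Real.exp (j0 * Real.log 2 / 8 - j0) * Real.exp j0) := by
      rw [← Real.exp_add, ← Real.exp_add]; congr 1; ring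
    rw [e, ← mul_assoc]
    refine mul_le_mul_of_nonneg_left ?_ (by positivity)
    rw [mul_add]
    have a1 : 0 ≤ 1 / 16 * Real.exp (1 / (8 * (j0 : ℝ)) * (j0 : ℝ) ^ 2) := by positivity
    have a2 : 0 ≤ Real.exp (j0 * Real.log 2 / 8 - j0) * Real.exp (-(j0 : ℝ)) := by positivity
    linarith
  have hp0 : (0 : ℝ) < j0 := by exact_mod_cast h0
  have hp1 : (0 : ℝ) < j1 := by exact_mod_cast h1
  have b1 : Phi j0 m * Phi j1 m ≤ 1 / 16 * Real.exp (lphi (j0 + j1) (2 * m)
      + ((j0 : ℝ) - j1) ^ 2 / (16 * (j0 + j1))) := by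
    refine (mul_le_mul (Phi_le h0 m) (Phi_le h1 m) (Phi_nonneg _ _) (by positivity)).trans ?_
    rw [mul_mul_mul_comm, ← Real.exp_add]
    exact mul_le_mul (by norm_num) (Real.exp_le_exp.2 (lphi_split hp0 hp1 hm)) (by positivity)
      (by norm_num)
  refine (pow_le_pow_left₀ (mul_nonneg (Phi_nonneg _ _) (Phi_nonneg _ _)) b1 2).trans ?_
  have e : (1 / 16 * Real.exp (lphi (j0 + j1) (2 * m) + ((j0 : ℝ) - j1) ^ 2 / (16 * (j0 + j1)))) ^ 2
      = (1 / 4 * Real.exp (lphi ((j0 + j1 : ℕ) : ℝ) (2 * m))) ^ 2 *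
        (1 / 16 * Real.exp (1 / (8 * (j0 + j1)) * ((j0 : ℝ) - j1) ^ 2)) := by
    rw [mul_pow, mul_pow, sq2, sq2, mul_mul_mul_comm, ← Real.exp_add]
    push_cast
    congr 2
    · norm_num
    · field_simp; ring
  rw [e]
  refine mul_le_mul_of_nonneg_left (le_add_of_nonneg_right (by positivity)) (by positivity)

lemma psi_numeric (v : ℝ) (hv : 2 ≤ v) :
    1 / 16 * Real.exp (2 * (1 / (8 * v)) * v)
      + Real.exp (v * Real.log 2 / 8 - v) * (Real.exp (v / 2) + Real.exp (v / 2))
      ≤ (197 / 200) ^ 2 := by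
  have e1 : 2 * (1 / (8 * v)) * v = 1 / 4 := by field_simp; ring
  have b1 : Real.exp (1 / 4) ≤ 4 / 3 := by
    have h := Real.add_one_le_exp (-(1 / 4 : ℝ))
    have h2 : Real.exp (-(1 / 4 : ℝ)) * Real.exp (1 / 4) = 1 := by rw [← Real.exp_add]; simp
    have := Real.exp_pos (1 / 4)
    nlinarith
  have hl := Real.log_two_lt_d9
  have b2 : Real.exp (v * Real.log 2 / 8 - v) * Real.exp (v / 2) ≤ Real.exp (-(33 / 40)) := by
    rw [← Real.exp_add, Real.exp_le_exp]; nlinarith
  have b3 : Real.exp (-(33 / 40 : ℝ)) ≤ 443 / 1000 := by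
    have h := Real.sum_le_exp_of_nonneg (x := 33 / 40) (by norm_num) 4
    simp only [Finset.sum_range_succ, Finset.sum_range_zero, Nat.factorial] at h
    have h2 : Real.exp (-(33 / 40 : ℝ)) * Real.exp (33 / 40) = 1 := by rw [← Real.exp_add]; simp
    have := Real.exp_pos (-(33 / 40 : ℝ))
    norm_num at h
    nlinarith
  rw [e1, mul_add]
  linarith

lemma sg_H (l : Fin d) (ε : X d → Bool) (p : X d) :
    sg (H l ε p l) = sg (p l) * sg (ε (bar l p)) := by rw [H_self, sg_xor]

lemma eq_of_bar_eq {l : Fin d} {p q : X d} (h : bar l p = bar l q) (hl : p l = q l) : p = q := by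
  rcases eq_or_flip_of_bar_eq h with e | e
  · exact e.symm
  · rw [e, flip_self] at hl; simp at hl

lemma card_filter_bar_le (l : Fin d) (V : Finset Λ) (x : Λ → X d) (hx : Set.InjOn x V) (y : X d)
    (b : Bool) : (V.filter (fun i => bar l (x i) = y ∧ x i l = b)).card ≤ 1 := by
  refine Finset.card_le_one.2 fun i hi j hj => ?_
  simp only [Finset.mem_filter] at hi hj
  exact hx hi.1 hj.1 (eq_of_bar_eq (hi.2.1.trans hj.2.1.symm) (hi.2.2.trans hj.2.2.symm))

lemma sum_sg_eq (V : Finset Λ) (t : Λ → Bool) :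
    ∑ i ∈ V, sg (t i) = ((V.filter (fun i => t i = false)).card : ℝ)
      - (V.filter (fun i => t i = true)).card := by
  simp only [Finset.card_filter]
  push_cast
  rw [← Finset.sum_sub_distrib]
  exact Finset.sum_congr rfl fun i _ => by cases t i <;> simp [sg]

lemma card_false_add_true (V : Finset Λ) (t : Λ → Bool) :
    (V.filter (fun i => t i = false)).card + (V.filter (fun i => t i = true)).card = V.card := by
  rw [← Finset.card_filter_add_card_filter_not (s := V) (fun i => t i = false)]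
  simp

/-- second moment of the weight of one block -/
lemma block_psi (l : Fin d) (V : Finset Λ) (x : Λ → X d) (hx : Set.InjOn x V) (m : ℝ)
    (hm : 0 < m) :
    av (fun ε : X d → Bool => (Phi (V.filter (fun i => H l ε (x i) l = false)).card m
        * Phi (V.filter (fun i => H l ε (x i) l = true)).card m) ^ 2)
      ≤ psi V.card (2 * m) ^ 2 := by
  have hc := fun ε => card_false_add_true V (fun i => H l ε (x i) l)
  rcases Nat.lt_or_ge V.card 2 with hv | hv
  · refine av_le_of_le fun ε => ?_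
    have h := hc ε
    generalize (V.filter (fun i => H l ε (x i) l = false)).card = j0 at h
    generalize (V.filter (fun i => H l ε (x i) l = true)).card = j1 at h
    rw [← h]
    have : (j0 = 0 ∧ j1 = 0) ∨ (j0 = 1 ∧ j1 = 0) ∨ (j0 = 0 ∧ j1 = 1) := by omega
    rcases this with ⟨rfl, rfl⟩ | ⟨rfl, rfl⟩ | ⟨rfl, rfl⟩ <;> simp [Phi, psi]
  set a : X d → ℝ := fun y => ∑ i ∈ V.filter (fun i => bar l (x i) = y), sg (x i l) with ha
  have hS : ∀ ε : X d → Bool, ∑ y, a y * sg (ε y) = ∑ i ∈ V, sg (H l ε (x i) l) := by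
    intro ε
    simp only [ha, Finset.sum_mul, sg_H]
    rw [← Finset.sum_fiberwise V (fun i => bar l (x i))]
    refine Finset.sum_congr rfl fun y _ => Finset.sum_congr rfl fun i hi => ?_
    rw [(Finset.mem_filter.1 hi).2]
  have ha2 : ∑ y, a y ^ 2 ≤ (V.card : ℝ) := by
    rw [Finset.card_eq_sum_card_fiberwise (f := fun i => bar l (x i)) (t := Finset.univ)
      (fun _ _ => Finset.mem_univ _)]
    push_cast
    refine Finset.sum_le_sum fun y _ => ?_
    simp only [ha]
    rw [sum_sg_eq, ← card_false_add_true (V.filter (fun i => bar l (x i) = y)) (fun i => x i l),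
      Finset.filter_filter, Finset.filter_filter]
    have h0 := card_filter_bar_le l V x hx y false
    have h1 := card_filter_bar_le l V x hx y true
    generalize (V.filter (fun i => bar l (x i) = y ∧ x i l = false)).card = n0 at h0
    generalize (V.filter (fun i => bar l (x i) = y ∧ x i l = true)).card = n1 at h1
    interval_cases n0 <;> interval_cases n1 <;> norm_num
  have hv2 : (2 : ℝ) ≤ V.card := by exact_mod_cast hv
  set v : ℝ := (V.card : ℝ) with hvdef
  have pt : ∀ ε : X d → Bool, (Phi (V.filter (fun i => H l ε (x i) l = false)).card m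
        * Phi (V.filter (fun i => H l ε (x i) l = true)).card m) ^ 2
      ≤ Phi V.card (2 * m) ^ 2 * (1 / 16 * Real.exp (1 / (8 * v) * (∑ y, a y * sg (ε y)) ^ 2)
        + Real.exp (v * Real.log 2 / 8 - v) * (Real.exp (∑ y, a y * sg (ε y))
          + Real.exp (∑ y, (-a y) * sg (ε y)))) := by
    intro ε
    have h := Phi_mul_sq_le _ _ m hm (by rw [hc ε]; exact hv)
    have h2 : ((V.filter (fun i => H l ε (x i) l = false)).card : ℝ)
        + (V.filter (fun i => H l ε (x i) l = true)).card = v := by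
      rw [hvdef]; exact_mod_cast hc ε
    have h3 := sum_sg_eq V (fun i => H l ε (x i) l)
    have h4 : ((V.filter (fun i => H l ε (x i) l = true)).card : ℝ)
        - (V.filter (fun i => H l ε (x i) l = false)).card = -∑ i ∈ V, sg (H l ε (x i) l) := by
      rw [h3]; ring
    rw [hc ε, h2, ← h3, h4, ← hS] at h
    simp only [neg_mul, Finset.sum_neg_distrib]
    exact h
  refine (av_mono pt).trans ?_
  rw [av_mul_left, av_add, av_mul_left, av_mul_left, av_add, psi, if_neg (by omega), mul_pow,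
    mul_comm ((197 / 200 : ℝ) ^ 2)]
  refine mul_le_mul_of_nonneg_left (le_trans ?_ (psi_numeric v hv2)) (sq_nonneg _)
  have q := av_exp_quad a (1 / (8 * v)) v (by positivity) ha2
    (by rw [show 4 * (1 / (8 * v)) * v = 1 / 2 by field_simp; ring]; norm_num)
  have l1 := (av_exp_lin a).trans (Real.exp_le_exp.2 (show (∑ y, a y ^ 2) / 2 ≤ v / 2 by linarith))
  have l2 := (av_exp_lin (fun y => -a y)).trans
    (Real.exp_le_exp.2 (show (∑ y, (-a y) ^ 2) / 2 ≤ v / 2 by simp only [neg_sq]; linarith))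
  exact add_le_add (mul_le_mul_of_nonneg_left q (by norm_num))
    (mul_le_mul_of_nonneg_left (add_le_add l1 l2) (by positivity))

/-- canonical name of the level `s` block of `p` -/
def hi (s : ℕ) (p : X d) : X d := fun l => if s ≤ l.val then p l else false

lemma hi_congr {s : ℕ} {p q : X d} (h : ∀ m : Fin d, s ≤ m.val → p m = q m) : hi s p = hi s q := by
  funext m; unfold hi; split_ifs with hm
  · exact h m hm
  · rfl

lemma hi_H (l : Fin d) (ε : X d → Bool) (p : X d) : hi (l.val + 1) (H l ε p) = hi (l.val + 1) p :=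
  hi_congr fun m hm => H_ne (fun e => by rw [e] at hm; omega) ε p

lemma hi_bar (l : Fin d) (p : X d) : hi (l.val + 1) (bar l p) = hi (l.val + 1) p :=
  hi_congr fun m hm => bar_ne (fun e => by rw [e] at hm; omega) p

lemma hi_succ_self (l : Fin d) (p : X d) : hi (l.val + 1) p l = false := by simp [hi]

lemma hi_eq_update (l : Fin d) (p : X d) :
    hi l.val p = Function.update (hi (l.val + 1) p) l (p l) := by
  funext m
  by_cases h : m = l
  · subst h; simp [hi]
  · have : m.val ≠ l.val := fun e => h (Fin.ext e)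
    rw [Function.update_of_ne h]
    unfold hi
    by_cases h2 : l.val ≤ m.val
    · rw [if_pos h2, if_pos (by omega)]
    · rw [if_neg h2, if_neg (by omega)]

lemma hi_eq_iff (l : Fin d) (p c : X d) (b : Bool) (hc : c l = false) :
    hi l.val p = Function.update c l b ↔ hi (l.val + 1) p = c ∧ p l = b := by
  rw [hi_eq_update]
  constructor
  · intro h
    have h1 := congrFun h l
    simp only [Function.update_self] at h1
    refine ⟨funext fun m => ?_, h1⟩
    by_cases hm : m = l
    · rw [hm, hi_succ_self, hc]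
    · have := congrFun h m
      rwa [Function.update_of_ne hm, Function.update_of_ne hm] at this
  · rintro ⟨rfl, rfl⟩; rfl

lemma prod_pairs (l : Fin d) (F : X d → ℝ) :
    ∏ c, F c = ∏ c ∈ Finset.univ.filter (fun c : X d => c l = false),
      F (Function.update c l false) * F (Function.update c l true) := by
  rw [Finset.prod_mul_distrib,
    ← Finset.prod_filter_mul_prod_filter_not Finset.univ (fun c : X d => c l = false)]
  congr 1
  · refine Finset.prod_congr rfl fun c hc => ?_
    rw [← (Finset.mem_filter.1 hc).2, Function.update_eq_self]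
  · refine Finset.prod_bij' (fun c _ => flip l c) (fun c _ => flip l c) ?_ ?_ ?_ ?_ ?_
    · intro c hc; simpa using hc
    · intro c hc; simpa using hc
    · intro c _; simp
    · intro c _; simp
    · intro c hc
      have : c l = true := by simpa using hc
      rw [flip, Function.update_idem, ← this, Function.update_eq_self]

def cnt (W : Finset Λ) (s : ℕ) (x : Λ → X d) (c : X d) : ℕ :=
  (W.filter (fun i => hi s (x i) = c)).card

noncomputable def wgt (W : Finset Λ) (s : ℕ) (x : Λ → X d) : ℝ := ∏ c, Phi (cnt W s x c) (2 ^ s)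

lemma wgt_nonneg (W : Finset Λ) (s : ℕ) (x : Λ → X d) : 0 ≤ wgt W s x :=
  Finset.prod_nonneg fun _ _ => Phi_nonneg _ _

lemma wgt_congr {W : Finset Λ} {s : ℕ} {x x' : Λ → X d}
    (h : ∀ i ∈ W, hi s (x i) = hi s (x' i)) : wgt W s x = wgt W s x' := by
  refine Finset.prod_congr rfl fun c _ => ?_
  unfold cnt
  rw [Finset.filter_congr fun i hi => by rw [h i hi]]

lemma wgt_split (V : Finset Λ) (l : Fin d) (z : Λ → X d) :
    wgt V l.val z = ∏ c,
      Phi ((V.filter (fun i => hi (l.val + 1) (z i) = c)).filter (fun i => z i l = false)).card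
        (2 ^ l.val) *
      Phi ((V.filter (fun i => hi (l.val + 1) (z i) = c)).filter (fun i => z i l = true)).card
        (2 ^ l.val) := by
  rw [wgt, prod_pairs l]
  refine Eq.trans (Finset.prod_congr rfl fun c hc => ?_)
    (Finset.prod_subset (Finset.filter_subset _ _) fun c _ hc => ?_)
  · have hc' := (Finset.mem_filter.1 hc).2
    simp only [cnt, hi_eq_iff l _ c _ hc', Finset.filter_filter]
  · have : V.filter (fun i => hi (l.val + 1) (z i) = c) = ∅ := by
      refine Finset.filter_eq_empty_iff.2 fun i _ h => hc ?_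
      simp only [Finset.mem_filter, Finset.mem_univ, true_and]
      rw [← h, hi_succ_self]
    simp [this, Phi_zero]

lemma wgt_sq_le (V : Finset Λ) (l : Fin d) (x : Λ → X d) (hx : Set.InjOn x V) :
    av (fun ε : X d → Bool => wgt V l.val (H l ε • x) ^ 2)
      ≤ (∏ c, psi (cnt V (l.val + 1) x c) (2 ^ (l.val + 1))) ^ 2 := by
  simp only [wgt_split, smul_apply', hi_H, ← Finset.prod_pow]
  rw [av_prod_blocks (hi (l.val + 1))]
  · refine Finset.prod_le_prod (fun c _ => av_nonneg fun ε => sq_nonneg _) fun c _ => ?_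
    rw [pow_succ' (2 : ℝ)]
    exact block_psi l _ x (hx.mono (Finset.coe_subset.2 (Finset.filter_subset _ _))) _
      (by positivity)
  · intro c ε ε' h
    have e : ∀ b : Bool, (V.filter (fun i => hi (l.val + 1) (x i) = c)).filter
        (fun i => H l ε (x i) l = b) = (V.filter (fun i => hi (l.val + 1) (x i) = c)).filter
        (fun i => H l ε' (x i) l = b) := by
      intro b
      refine Finset.filter_congr fun i hi => ?_
      rw [H_self, H_self, h _ (by rw [hi_bar]; exact (Finset.mem_filter.1 hi).2)]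
    rw [e, e]

end Vale.Agent.P162
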