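import Vale.Agent.P162.B2

/-! Part B, step 3: probability of a prescribed set of singly used switches. -/

set_option linter.unusedSectionVars false

namespace Vale.Agent.P162

open Finset

variable {d : ℕ} {Λ : Type*} [Fintype Λ] [DecidableEq Λ]

/-- switches of layer `l` used by an odd number of labels of `T` -/
def Sx (l : Fin d) (T : Finset Λ) (x : Λ → X d) : Finset (X d) :=
  Finset.univ.filter (fun y => Odd (T.filter (fun i => bar l (x i) = y)).card)

lemma mem_Sx {l : Fin d} {T : Finset Λ} {x : Λ → X d} {y : X d} :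
    y ∈ Sx l T x ↔ Odd (T.filter (fun i => bar l (x i) = y)).card := by simp [Sx]

lemma Sx_empty (l : Fin d) (x : Λ → X d) : Sx l ∅ x = ∅ := by
  ext y; simp [mem_Sx]

lemma Sx_congr {l : Fin d} {T : Finset Λ} {x x' : Λ → X d}
    (h : ∀ i ∈ T, bar l (x i) = bar l (x' i)) : Sx l T x = Sx l T x' := by
  ext y
  rw [mem_Sx, mem_Sx, Finset.filter_congr fun i hi => by rw [h i hi]]

lemma exists_of_mem_Sx {l : Fin d} {T : Finset Λ} {x : Λ → X d} {y : X d} (h : y ∈ Sx l T x) :
    ∃ i ∈ T, bar l (x i) = y := by
  obtain ⟨i, hi⟩ := Finset.card_pos.1 (mem_Sx.1 h).pos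
  exact ⟨i, Finset.mem_filter.1 hi⟩

lemma mem_Sx_erase {l : Fin d} {T : Finset Λ} {x : Λ → X d} {i : Λ} (hi : i ∈ T) (y : X d) :
    y ∈ Sx l (T.erase i) x ↔ (y ∈ Sx l T x ↔ y ≠ bar l (x i)) := by
  rw [mem_Sx, mem_Sx, Finset.filter_erase]
  by_cases h : bar l (x i) = y
  · have hm : i ∈ T.filter (fun i => bar l (x i) = y) := Finset.mem_filter.2 ⟨hi, h⟩
    rw [← Finset.card_erase_add_one hm, Nat.odd_add_one]
    simp [h]
  · have hm : i ∉ T.filter (fun i => bar l (x i) = y) := fun hm => h (Finset.mem_filter.1 hm).2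
    rw [Finset.erase_eq_of_notMem hm]
    simp [Ne.symm h]

lemma prod_sg_Sx (l : Fin d) (T : Finset Λ) (x : Λ → X d) (ε : X d → Bool) :
    ∏ i ∈ T, sg (ε (bar l (x i))) = ∏ y ∈ Sx l T x, sg (ε y) := by
  rw [← Finset.prod_fiberwise T (fun i => bar l (x i)), Sx, Finset.prod_filter]
  refine Finset.prod_congr rfl fun y _ => ?_
  rw [Finset.prod_congr rfl fun i hi => by rw [(Finset.mem_filter.1 hi).2], Finset.prod_const]
  have h2 : sg (ε y) ^ 2 = 1 := by rw [sq, sg_sq]
  split_ifs with h
  · obtain ⟨m, hm⟩ := h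
    rw [hm, pow_succ, pow_mul, h2]; simp
  · obtain ⟨m, hm⟩ := Nat.not_odd_iff_even.1 h
    rw [hm, ← two_mul, pow_mul, h2]; simp

lemma av_update {ι γ : Type*} [Fintype ι] [DecidableEq ι] [Fintype γ] [Nonempty γ] (i : ι)
    (F : (ι → γ) → ℝ) : av F = av (fun u => av (fun p => F (Function.update u i p))) := by
  let e : (ι → γ) × γ ≃ (ι → γ) × γ :=
    Function.Involutive.toPerm (fun z => (Function.update z.1 i z.2, z.1 i)) (fun z => by simp)
  rw [← av_prod (fun z : (ι → γ) × γ => F (Function.update z.1 i z.2))]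
  have := av_equiv e (fun z => F z.1)
  rw [av_prod (fun z : (ι → γ) × γ => F z.1)] at this
  simp only [av_const] at this
  exact this.symm

lemma av_low_eq (s : ℕ) (hs : s ≤ d) (y : X d) :
    av (fun p : X d => if ∀ m : Fin d, m.val < s → p m = y m then (1 : ℝ) else 0)
      = 1 / 2 ^ s := by
  have e : ∀ p : X d, (if ∀ m : Fin d, m.val < s → p m = y m then (1 : ℝ) else 0)
      = ∏ m : Fin d, (if m.val < s then (if p m = y m then 1 else 0) else 1) := by
    intro p
    by_cases h : ∀ m : Fin d, m.val < s → p m = y m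
    · rw [if_pos h]
      refine (Finset.prod_eq_one fun m _ => ?_).symm
      split_ifs with h1 h2
      · rfl
      · exact absurd (h m h1) h2
      · rfl
    · rw [if_neg h]
      push Not at h
      obtain ⟨m, h1, h2⟩ := h
      exact (Finset.prod_eq_zero (Finset.mem_univ m) (by rw [if_pos h1, if_neg h2])).symm
  simp only [e]
  rw [av_pi_prod (fun (m : Fin d) (b : Bool) =>
    if m.val < s then (if b = y m then (1 : ℝ) else 0) else 1)]
  have e2 : ∀ m : Fin d, av (fun b : Bool => if m.val < s then (if b = y m then (1 : ℝ) else 0)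
      else 1) = if m.val < s then 1 / 2 else 1 := by
    intro m
    split_ifs
    · simp [av]
    · exact av_const 1
  simp only [e2]
  rw [← Finset.prod_filter, Finset.prod_const, Fin.card_filter_val_lt, min_eq_right hs, one_div,
    one_div, inv_pow]

lemma mix_update_ne (J : Finset (Λ × Fin d)) (x u : Λ → X d) {i j : Λ} (h : j ≠ i) (p : X d) :
    mix J x (Function.update u i p) j = mix J x u j := by
  funext m; simp [mix, h]

lemma hi_mix (V : Finset Λ) (s : ℕ) (x u : Λ → X d) (i : Λ) :
    hi s (mix (JW d V s) x u i) = hi s (x i) :=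
  hi_congr fun _ hm => mix_mem _ _ (mem_JW.2 (Or.inr hm))

lemma one_label (V : Finset Λ) (l : Fin d) (x : Λ → X d) {i : Λ} (hi : i ∉ V) (y : X d)
    (F : (Λ → X d) → ℝ) (h0 : ∀ u, 0 ≤ F u) (hF : ∀ u p, F (Function.update u i p) = F u) :
    av (fun u => (if bar l (mix (JW d V (l.val + 1)) x u i) = y then (1 : ℝ) else 0) * F u)
      ≤ 1 / 2 ^ l.val * av F := by
  rw [av_update i, ← av_mul_left]
  refine av_mono fun u => ?_
  simp only [hF]
  rw [av_mul_right, ← av_low_eq l.val l.isLt.le y]
  refine mul_le_mul_of_nonneg_right (av_mono fun p => ?_) (h0 u)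
  split_ifs with h1 h2
  · exact le_rfl
  · exfalso
    refine h2 fun m hm => ?_
    have hne : m ≠ l := fun e => by rw [e] at hm; omega
    rw [← h1, bar_ne hne, mix_notMem _ _ (fun h => (mem_JW.1 h).elim hi (by omega))]
    simp
  · norm_num
  · exact le_rfl

theorem pi_bound (V : Finset Λ) (l : Fin d) (x : Λ → X d) (ϱ : X d → ℝ) (h0 : ∀ c, 0 ≤ ϱ c)
    (n : ℕ) : ∀ T : Finset Λ, T.card = n → Disjoint T V →
    (∀ c, (cnt T (l.val + 1) x c : ℝ) / 2 ^ l.val ≤ ϱ c ^ 2) → ∀ S : Finset (X d),
    av (fun u => if Sx l T (mix (JW d V (l.val + 1)) x u) = S then (1 : ℝ) else 0)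
      ≤ (∏ i ∈ T, ϱ (hi (l.val + 1) (x i))) * ∏ y ∈ S, ϱ (hi (l.val + 1) y) := by
  set J := JW d V (l.val + 1) with hJ
  induction n with
  | zero =>
    intro T hT _ _ S
    rw [Finset.card_eq_zero.1 hT]
    refine av_le_of_le fun u => ?_
    rw [Sx_empty, Finset.prod_empty, one_mul]
    split_ifs with h
    · rw [← h]; simp
    · exact Finset.prod_nonneg fun y _ => h0 _
  | succ n ih =>
    intro T hT hTV hc S
    have ih' : ∀ i ∈ T, ∀ S : Finset (X d),
        av (fun u => if Sx l (T.erase i) (mix J x u) = S then (1 : ℝ) else 0)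
        ≤ (∏ j ∈ T.erase i, ϱ (hi (l.val + 1) (x j))) * ∏ y ∈ S, ϱ (hi (l.val + 1) y) := by
      intro i hi
      refine ih _ (by rw [Finset.card_erase_of_mem hi, hT]; rfl)
        (hTV.mono_left (Finset.erase_subset _ _)) fun c => le_trans ?_ (hc c)
      refine div_le_div_of_nonneg_right (Nat.cast_le.2 (Finset.card_le_card ?_)) (by positivity)
      exact Finset.filter_subset_filter _ (Finset.erase_subset _ _)
    have hup : ∀ i u p, Sx l (T.erase i) (mix J x (Function.update u i p))
        = Sx l (T.erase i) (mix J x u) := fun i u p =>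
      Sx_congr fun j hj => by rw [mix_update_ne _ _ _ (Finset.ne_of_mem_erase hj)]
    rcases S.eq_empty_or_nonempty with rfl | ⟨y, hy⟩
    · obtain ⟨i, hi⟩ : T.Nonempty := Finset.card_pos.1 (by omega)
      rw [av_update i, av_comm, Finset.prod_empty, mul_one, ← Finset.prod_erase_mul _ _ hi]
      refine av_le_of_le fun p => ?_
      let y : X d := bar l (mix J x (fun _ => p) i)
      have hy : Vale.Agent.P162.hi (l.val + 1) y = Vale.Agent.P162.hi (l.val + 1) (x i) := by
        simp only [y]; rw [hi_bar, hi_mix]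
      have h := ih' i hi {y}
      rw [Finset.prod_singleton, hy] at h
      refine le_trans (av_mono fun u => ?_) h
      split_ifs with h1 h2
      · exact le_rfl
      · exfalso
        refine h2 ?_
        rw [← hup i u p]
        ext y'
        have : mix J x (Function.update u i p) i = mix J x (fun _ => p) i := by
          funext m; simp [mix]
        rw [mem_Sx_erase hi, h1, this]
        simp [y]
      · norm_num
      · exact le_rfl
    · set c := hi (l.val + 1) y with hcdef
      set T' := T.filter (fun i => hi (l.val + 1) (x i) = c) with hT'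
      have pt : ∀ u, (if Sx l T (mix J x u) = S then (1 : ℝ) else 0)
          ≤ ∑ i ∈ T', (if bar l (mix J x u i) = y then (1 : ℝ) else 0) *
            (if Sx l (T.erase i) (mix J x u) = S.erase y then (1 : ℝ) else 0) := by
        intro u
        have nn : ∀ i ∈ T', 0 ≤ (if bar l (mix J x u i) = y then (1 : ℝ) else 0) *
            (if Sx l (T.erase i) (mix J x u) = S.erase y then (1 : ℝ) else 0) := fun i _ => by
          split_ifs <;> norm_num
        split_ifs with h
        · obtain ⟨i, hi, hiy⟩ := exists_of_mem_Sx (h ▸ hy)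
          have hi' : i ∈ T' := Finset.mem_filter.2 ⟨hi, by rw [hcdef, ← hiy, hi_bar, hi_mix]⟩
          refine le_trans (le_of_eq ?_) (Finset.single_le_sum nn hi')
          rw [if_pos hiy, if_pos, mul_one]
          ext y'
          rw [mem_Sx_erase hi, h, hiy, Finset.mem_erase]
          by_cases e : y' = y
          · simp [e, hy]
          · simp [e]
        · exact Finset.sum_nonneg nn
      refine (av_mono pt).trans ?_
      rw [av_sum]
      set A := ∏ i ∈ T, ϱ (hi (l.val + 1) (x i)) with hA
      set B := ∏ y' ∈ S.erase y, ϱ (hi (l.val + 1) y') with hB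
      have hB0 : 0 ≤ B := Finset.prod_nonneg fun _ _ => h0 _
      have hA0 : 0 ≤ A := Finset.prod_nonneg fun _ _ => h0 _
      rw [← Finset.prod_erase_mul _ _ hy, ← hB, ← hcdef]
      rcases (h0 c).eq_or_lt with hz | hp
      · have h1 := hc c
        rw [← hz] at h1
        have h2 : (cnt T (l.val + 1) x c : ℝ) ≤ 0 := by
          have := (div_le_iff₀ (by positivity : (0 : ℝ) < 2 ^ l.val)).1 h1
          simpa using this
        have h3 : T' = ∅ := Finset.card_eq_zero.1 (by
          have : cnt T (l.val + 1) x c = 0 := by exact_mod_cast le_antisymm h2 (Nat.cast_nonneg _)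
          exact this)
        rw [h3, Finset.sum_empty, ← hz]; simp
      · have term : ∀ i ∈ T', av (fun u => (if bar l (mix J x u i) = y then (1 : ℝ) else 0) *
            (if Sx l (T.erase i) (mix J x u) = S.erase y then (1 : ℝ) else 0))
            ≤ 1 / 2 ^ l.val * (A / ϱ c * B) := by
          intro i hi
          obtain ⟨hiT, hic⟩ := Finset.mem_filter.1 hi
          refine (one_label V l x (Finset.disjoint_left.1 hTV hiT) y _
            (fun u => by split_ifs <;> norm_num) (fun u p => by rw [hup])).trans ?_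
          refine mul_le_mul_of_nonneg_left ((ih' i hiT _).trans (le_of_eq ?_)) (by positivity)
          rw [hA, ← Finset.prod_erase_mul _ _ hiT, hic, mul_div_assoc, div_self hp.ne', mul_one]
        refine (Finset.sum_le_card_nsmul _ _ _ term).trans ?_
        rw [nsmul_eq_mul]
        have h1 := mul_le_mul_of_nonneg_right (hc c) (show 0 ≤ A / ϱ c * B by positivity)
        have e1 : ϱ c ^ 2 * (A / ϱ c * B) = A * (B * ϱ c) := by field_simp
        rw [e1] at h1
        refine le_trans (le_of_eq ?_) h1
        change _ = (T'.card : ℝ) / _ * _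
        ring

end Vale.Agent.P162
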