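import Vale.Agent.P162.B3

/-! Part B, step 4: the sum over the subsets of one block. -/

set_option linter.unusedSectionVars false

namespace Vale.Agent.P162

open Finset

variable {d : ℕ} {Λ : Type*} [Fintype Λ] [DecidableEq Λ]

lemma psi_le_exp {v w : ℕ} {N : ℝ} (hN : 0 < N) (h : v ≤ w) :
    psi v N ≤ Real.exp (v / 16 * Real.log (2 ^ 256 * w / N)) := by
  rcases Nat.eq_zero_or_pos v with rfl | hv
  · simp [psi]
  have hv' : (0 : ℝ) < v := by exact_mod_cast hv
  have hw : (v : ℝ) ≤ w := by exact_mod_cast h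
  have h1 := Phi_le hv N
  have h2 : Real.exp (lphi v N) ≤ Real.exp (v / 16 * Real.log (2 ^ 256 * w / N)) := by
    refine Real.exp_le_exp.2 (mul_le_mul_of_nonneg_left (Real.log_le_log (by positivity) ?_)
      (by positivity))
    exact div_le_div_of_nonneg_right (mul_le_mul_of_nonneg_left hw (by positivity)) hN.le
  have := Real.exp_pos (lphi v N)
  rw [psi, if_neg (by omega)]
  linarith

lemma term_real {w t j : ℕ} {N : ℝ} (hw : 2 ≤ w) (hN : (w : ℝ) ≤ N) (ht : t ≤ w) (hjt : j ≤ t)
    (htj : t ≤ 2 * j) :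
    psi (w - t) N * (2 * t / N) ^ j ≤ 4 * Phi w N * (4 * j / (w * 2 ^ 16)) ^ j := by
  have hw' : (0 : ℝ) < w := by exact_mod_cast (by omega : 0 < w)
  have hN0 : 0 < N := by linarith
  have hjt' : (j : ℝ) ≤ t := by exact_mod_cast hjt
  have htj' : (t : ℝ) ≤ 2 * j := by exact_mod_cast htj
  have h1 := psi_le_exp (v := w - t) (w := w) hN0 (Nat.sub_le _ _)
  rw [Nat.cast_sub ht] at h1
  rw [Phi_two hw, lphi]
  have hL : Real.log (2 ^ 256 * w / N) = 256 * Real.log 2 + Real.log (w / N) := by
    rw [mul_div_assoc, Real.log_mul (by positivity) (by positivity), Real.log_pow]; norm_num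
  have hρ : Real.log (w / N) ≤ 0 := Real.log_nonpos (by positivity) ((div_le_one hN0).2 hN)
  have h2 : (2 * t / N) ^ j ≤ (4 * j / w) ^ j * Real.exp (j * Real.log (w / N)) := by
    rw [Real.exp_nat_mul, Real.exp_log (by positivity), ← mul_pow]
    refine pow_le_pow_left₀ (by positivity) ?_ j
    rw [div_mul_div_comm, mul_comm (w : ℝ) N, mul_div_mul_right _ _ hw'.ne']
    exact div_le_div_of_nonneg_right (by linarith) hN0.le
  have h3 : (4 * j / (w * 2 ^ 16) : ℝ) ^ j = (4 * j / w) ^ j * Real.exp (j * (-16 * Real.log 2)) := by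
    have : Real.exp (-16 * Real.log 2) = 1 / 2 ^ 16 := by
      rw [neg_mul, Real.exp_neg, show (16 : ℝ) = (16 : ℕ) by norm_num, Real.exp_nat_mul,
        Real.exp_log (by norm_num)]; norm_num
    rw [Real.exp_nat_mul, this, ← mul_pow]
    congr 1
    field_simp
  refine (mul_le_mul h1 h2 (by positivity) (by positivity)).trans ?_
  rw [h3, hL]
  have hl2 := Real.log_pos (show (1 : ℝ) < 2 by norm_num)
  generalize Real.log (w / N) = r at hρ ⊢
  generalize Real.log 2 = a at hl2 ⊢
  have key : Real.exp ((w - t) / 16 * (256 * a + r)) * Real.exp (j * r)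
      ≤ Real.exp (w / 16 * (256 * a + r)) * Real.exp (j * (-16 * a)) := by
    rw [← Real.exp_add, ← Real.exp_add, Real.exp_le_exp]
    have : (0 : ℝ) ≤ t := Nat.cast_nonneg t
    nlinarith [mul_nonneg (sub_nonneg.2 hjt') hl2.le,
      mul_nonneg (show (0 : ℝ) ≤ j - t / 16 by linarith) (neg_nonneg.2 hρ)]
  have h4 := mul_le_mul_of_nonneg_left key (show (0 : ℝ) ≤ (4 * j / w) ^ j by positivity)
  linarith

lemma choose_real {y w j : ℕ} (hw : 0 < w) (hy : y ≤ w) :
    (y.choose j : ℝ) * (4 ^ j * (4 ^ j * (4 * j / (w * 2 ^ 16)) ^ j)) ≤ (3 / 1024) ^ j := by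
  have hw' : (0 : ℝ) < w := by exact_mod_cast hw
  have h1 : (y.choose j : ℝ) ≤ (w : ℝ) ^ j / j.factorial :=
    le_trans (Nat.cast_le.2 (Nat.choose_le_choose j hy)) (Nat.choose_le_pow_div j w)
  have h2 : (j : ℝ) ^ j / j.factorial ≤ 3 ^ j := by
    refine (Real.pow_div_factorial_le_exp _ (Nat.cast_nonneg j) j).trans ?_
    rw [← mul_one (j : ℝ), Real.exp_nat_mul]
    exact pow_le_pow_left₀ (Real.exp_pos _).le (by have := Real.exp_one_lt_d9; linarith) j
  refine (mul_le_mul_of_nonneg_right h1 (by positivity)).trans ?_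
  have e : (w : ℝ) ^ j / j.factorial * (4 ^ j * (4 ^ j * (4 * j / (w * 2 ^ 16)) ^ j))
      = (j : ℝ) ^ j / j.factorial * (1 / 1024) ^ j := by
    rw [div_mul_eq_mul_div, div_mul_eq_mul_div, ← mul_pow, ← mul_pow, ← mul_pow, ← mul_pow]
    congr 2
    field_simp; ring
  rw [e, show (3 / 1024 : ℝ) = 3 * (1 / 1024) by norm_num, mul_pow]
  exact mul_le_mul_of_nonneg_right h2 (by positivity)

lemma card_fibre_bar_le (l : Fin d) (V : Finset Λ) (x : Λ → X d) (hx : Set.InjOn x V) (y : X d) :
    (V.filter (fun i => bar l (x i) = y)).card ≤ 2 := by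
  rw [← card_false_add_true (V.filter (fun i => bar l (x i) = y)) (fun i => x i l),
    Finset.filter_filter, Finset.filter_filter]
  have h0 := card_filter_bar_le l V x hx y false
  have h1 := card_filter_bar_le l V x hx y true
  omega

lemma Sx_subset_image (l : Fin d) (T : Finset Λ) (x : Λ → X d) :
    Sx l T x ⊆ T.image (fun i => bar l (x i)) := fun _ hy =>
  Finset.mem_image.2 (exists_of_mem_Sx hy)

lemma card_add_Sx (l : Fin d) (T : Finset Λ) (x : Λ → X d) (hx : Set.InjOn x T) :
    T.card + (Sx l T x).card = 2 * (T.image (fun i => bar l (x i))).card := by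
  have e : Sx l T x = (T.image (fun i => bar l (x i))).filter
      (fun y => Odd (T.filter (fun i => bar l (x i) = y)).card) := by
    ext y
    rw [Finset.mem_filter, ← mem_Sx]
    exact ⟨fun h => ⟨Sx_subset_image l T x h, h⟩, fun h => h.2⟩
  rw [e, Finset.card_eq_sum_card_image (fun i => bar l (x i)) T, Finset.card_filter,
    ← Finset.sum_add_distrib, mul_comm, ← smul_eq_mul, ← Finset.sum_const]
  refine Finset.sum_congr rfl fun y hy => ?_
  have h2 := card_fibre_bar_le l T x hx y
  have h1 : 0 < (T.filter (fun i => bar l (x i) = y)).card := by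
    obtain ⟨i, hi, e⟩ := Finset.mem_image.1 hy
    exact Finset.card_pos.2 ⟨i, Finset.mem_filter.2 ⟨hi, e⟩⟩
  generalize (T.filter (fun i => bar l (x i) = y)).card = m at h1 h2
  interval_cases m <;> decide

/-- the contribution of a subset `T` of a block with `w` labels -/
noncomputable def bt (l : Fin d) (x : Λ → X d) (w : ℕ) (T : Finset Λ) : ℝ :=
  psi (w - T.card) (2 ^ (l.val + 1)) * (if w = 1 ∧ T.Nonempty then 0 else 1) *
    (4 ^ (Sx l T x).card * Real.sqrt (T.card / 2 ^ l.val) ^ (T.card + (Sx l T x).card))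

theorem block_sum (l : Fin d) (W : Finset Λ) (x : Λ → X d) (hx : Set.InjOn x W)
    (hW : W.card ≤ 2 ^ (l.val + 1)) :
    ∑ T ∈ W.powerset, bt l x W.card T ≤ Phi W.card (2 ^ (l.val + 1)) := by
  rcases Nat.lt_or_ge W.card 2 with hw | hw
  · rcases (by omega : W.card = 0 ∨ W.card = 1) with h | h
    · rw [Finset.card_eq_zero.1 h]
      simp [bt, psi, Phi, Sx_empty]
    · rw [h, Phi_one]
      refine (Finset.sum_eq_zero fun T _ => ?_).le
      rcases T.eq_empty_or_nonempty with rfl | hT
      · simp [bt, psi, Phi]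
      · simp [bt, hT]
  set N : ℝ := 2 ^ (l.val + 1) with hN
  set w := W.card with hwdef
  set f : Λ → X d := fun i => bar l (x i) with hf
  set g : ℕ → ℝ := fun j => if j = 0 then 0 else 4 ^ j * (4 * j / (w * 2 ^ 16)) ^ j with hg
  have hg0 : ∀ j, 0 ≤ g j := fun j => by simp only [hg]; split_ifs <;> positivity
  have hP := Phi_nonneg w N
  have pt : ∀ T ∈ W.powerset, bt l x w T
      ≤ (if T = ∅ then 197 / 200 * Phi w N else 0) + 4 * Phi w N * g (T.image f).card := by
    intro T hT
    have hTW := Finset.mem_powerset.1 hT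
    rcases T.eq_empty_or_nonempty with rfl | hne
    · simp [bt, psi, Sx_empty, hg, show w ≠ 0 by omega, hN]
    have hc := card_add_Sx l T x (hx.mono (Finset.coe_subset.2 hTW))
    have h1 : (Sx l T x).card ≤ (T.image f).card := Finset.card_le_card (Sx_subset_image l T x)
    have h2 : (T.image f).card ≤ T.card := Finset.card_image_le
    have h3 : (T.image f).card ≠ 0 := (Finset.card_pos.2 (hne.image f)).ne'
    rw [if_neg hne.ne_empty, zero_add, bt, if_neg (by omega), mul_one, hc, pow_mul,
      Real.sq_sqrt (by positivity)]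
    simp only [hg, if_neg h3]
    have e : (T.card : ℝ) / 2 ^ l.val = 2 * T.card / N := by
      rw [hN, pow_succ]; field_simp
    have h4 := term_real (j := (T.image f).card) (N := N) hw (by rw [hN]; exact_mod_cast hW)
      (Finset.card_le_card hTW) h2 (by change _ = 2 * (T.image f).card at hc; omega)
    have h5 : (4 : ℝ) ^ (Sx l T x).card ≤ 4 ^ (T.image f).card :=
      pow_le_pow_right₀ (by norm_num) h1
    rw [e]
    change psi (w - T.card) N * (_ * (2 * T.card / N) ^ (T.image f).card) ≤ _
    have h6 := mul_le_mul h5 h4 (mul_nonneg (psi_nonneg _ _) (by positivity)) (by positivity)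
    linarith
  refine (Finset.sum_le_sum pt).trans ?_
  rw [Finset.sum_add_distrib, Finset.sum_ite_eq', if_pos (Finset.empty_mem_powerset W),
    ← Finset.mul_sum]
  have s1 : ∑ T ∈ W.powerset, g (T.image f).card
      ≤ ∑ R ∈ (W.image f).powerset, 4 ^ R.card * g R.card := by
    rw [← Finset.sum_fiberwise_of_maps_to (s := W.powerset) (t := (W.image f).powerset)
      (g := fun T => T.image f)
      (fun T hT => Finset.mem_powerset.2 (Finset.image_subset_image (Finset.mem_powerset.1 hT)))]
    refine Finset.sum_le_sum fun R _ => ?_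
    rw [Finset.sum_congr rfl fun T hT => by rw [(Finset.mem_filter.1 hT).2], Finset.sum_const,
      nsmul_eq_mul]
    refine mul_le_mul_of_nonneg_right ?_ (hg0 _)
    have c1 : (W.powerset.filter (fun T => T.image f = R)).card
        ≤ (W.filter (fun i => f i ∈ R)).powerset.card := by
      refine Finset.card_le_card fun T hT => ?_
      obtain ⟨h1, h2⟩ := Finset.mem_filter.1 hT
      refine Finset.mem_powerset.2 fun i hi => Finset.mem_filter.2
        ⟨Finset.mem_powerset.1 h1 hi, h2 ▸ Finset.mem_image_of_mem f hi⟩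
    have c2 : (W.filter (fun i => f i ∈ R)).card ≤ 2 * R.card := by
      refine Finset.card_le_mul_card_image_of_maps_to (f := f)
        (fun i hi => (Finset.mem_filter.1 hi).2) 2 fun y _ => ?_
      exact card_fibre_bar_le l _ x (hx.mono (Finset.coe_subset.2 (Finset.filter_subset _ _))) y
    rw [Finset.card_powerset] at c1
    have c3 : (W.powerset.filter (fun T => T.image f = R)).card ≤ 4 ^ R.card := by
      refine c1.trans ((Nat.pow_le_pow_right (by norm_num) c2).trans (le_of_eq ?_))
      rw [pow_mul]; norm_num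
    exact_mod_cast c3
  have s2 : ∑ R ∈ (W.image f).powerset, 4 ^ R.card * g R.card ≤ 3 / 1021 := by
    rw [Finset.sum_powerset_apply_card (fun j => 4 ^ j * g j), Finset.sum_range_succ']
    have b : ∀ j ∈ Finset.range (W.image f).card,
        ((W.image f).card.choose (j + 1)) • ((4 : ℝ) ^ (j + 1) * g (j + 1))
          ≤ 3 / 1024 * (3 / 1024) ^ j := by
      intro j _
      rw [nsmul_eq_mul, ← pow_succ']
      simp only [hg, if_neg (Nat.succ_ne_zero j)]
      exact choose_real (by omega) Finset.card_image_le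
    have b2 := Finset.sum_le_sum b
    rw [← Finset.mul_sum] at b2
    have b3 : ∑ j ∈ Finset.range (W.image f).card, (3 / 1024 : ℝ) ^ j ≤ (1 - 3 / 1024)⁻¹ := by
      rw [← tsum_geometric_of_lt_one (by norm_num) (by norm_num)]
      exact (summable_geometric_of_lt_one (by norm_num) (by norm_num)).sum_le_tsum _
        fun _ _ => by positivity
    have b4 : g 0 = 0 := by simp [hg]
    rw [b4]
    norm_num at b2 b3 ⊢
    linarith
  nlinarith

end Vale.Agent.P162
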