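import Vale.Agent.P162.B4

/-! Part B, step 5: one layer contracts the weighted quadratic form. -/

set_option linter.unusedSectionVars false

namespace Vale.Agent.P162

open Finset

variable {d : ℕ} {Λ : Type*} [Fintype Λ] [DecidableEq Λ]

noncomputable def rho (l : Fin d) (T : Finset Λ) (z : Λ → X d) (c : X d) : ℝ :=
  Real.sqrt (cnt T (l.val + 1) z c / 2 ^ l.val)

/-- coefficient attached to the set `S` of singly used switches -/
noncomputable def tm (l : Fin d) (V T : Finset Λ) (z : Λ → X d) (S : Finset (X d)) : ℝ :=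
  (∏ c, psi (cnt V (l.val + 1) z c) (2 ^ (l.val + 1))) *
    (4 ^ S.card * ((if S ⊆ V.image (fun i => bar l (z i)) then 1 else 0) *
      ((∏ i ∈ T, rho l T z (hi (l.val + 1) (z i))) * ∏ y ∈ S, rho l T z (hi (l.val + 1) y))))

lemma rho_nonneg (l : Fin d) (T : Finset Λ) (z : Λ → X d) (c : X d) : 0 ≤ rho l T z c :=
  Real.sqrt_nonneg _

lemma tm_nonneg (l : Fin d) (V T : Finset Λ) (z : Λ → X d) (S : Finset (X d)) :
    0 ≤ tm l V T z S := by
  refine mul_nonneg (Finset.prod_nonneg fun _ _ => psi_nonneg _ _) (mul_nonneg (by positivity)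
    (mul_nonneg (by split_ifs <;> norm_num) (mul_nonneg ?_ ?_))) <;>
  exact Finset.prod_nonneg fun _ _ => rho_nonneg _ _ _ _

lemma cnt_mix (V W : Finset Λ) (s : ℕ) (x u : Λ → X d) :
    cnt W s (mix (JW d V s) x u) = cnt W s x := by
  funext c; simp only [cnt, hi_mix]

lemma tm_mix (l : Fin d) (V T : Finset Λ) (x u : Λ → X d) (S : Finset (X d)) :
    tm l V T (mix (JW d V (l.val + 1)) x u) S = tm l V T x S := by
  have e : V.image (fun i => bar l (mix (JW d V (l.val + 1)) x u i))
      = V.image (fun i => bar l (x i)) :=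
    Finset.image_congr fun i hi => by simp only [mix_JW_mem x u (Finset.mem_coe.1 hi)]
  simp only [tm, rho, cnt_mix, hi_mix, e]

lemma chiT_H (l : Fin d) (T : Finset Λ) (ε : X d → Bool) (z : Λ → X d) :
    chiT l T (H l ε • z) = chiT l T z * ∏ y ∈ Sx l T z, sg (ε y) := by
  simp only [chiT, smul_apply', sg_H, Finset.prod_mul_distrib, prod_sg_Sx]

lemma Sx_H (l : Fin d) (T : Finset Λ) (ε : X d → Bool) (z : Λ → X d) :
    Sx l T (H l ε • z) = Sx l T z := Sx_congr fun i _ => by rw [smul_apply', bar_H]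

lemma star_x (l : Fin d) (V T : Finset Λ) (hTV : Disjoint T V) (h : (Λ → X d) → ℝ)
    (hH : ∀ ε x, h (H l ε • x) = h x) (hz : ∀ z, ¬ Set.InjOn z V → h z = 0) (x : Λ → X d) :
    av (fun ε : X d → Bool => wgt V l.val (H l ε • x) *
        cnd (JW d V (l.val + 1)) (fun z => chiT l T z * h z) (H l ε • x) ^ 2)
      ≤ av (fun u => h (mix (JW d V (l.val + 1)) x u) ^ 2 *
        tm l V T (mix (JW d V (l.val + 1)) x u) (Sx l T (mix (JW d V (l.val + 1)) x u))) := by
  set J := JW d V (l.val + 1) with hJ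
  by_cases hx : Set.InjOn x V
  swap
  · have : ∀ ε, cnd J (fun z => chiT l T z * h z) (H l ε • x) = 0 := by
      intro ε
      rw [cnd_H, cnd, ← av_zero (α := Λ → X d)]
      refine av_congr fun u => ?_
      rw [hH, hz, mul_zero]
      exact fun hm => hx fun i hi j hj e => hm hi hj (by rw [mix_JW_mem _ _ hi, mix_JW_mem _ _ hj, e])
    simp only [this]
    refine le_trans (av_le_of_le fun ε => by simp) (av_nonneg fun u => ?_)
    exact mul_nonneg (sq_nonneg _) (tm_nonneg _ _ _ _ _)
  let c : Finset (X d) → (Λ → X d) → ℝ :=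
    fun S => cnd J (fun z => (if Sx l T z = S then (1 : ℝ) else 0) * (chiT l T z * h z))
  have cH : ∀ S ε, c S (H l ε • x) = c S x * ∏ y ∈ S, sg (ε y) := by
    intro S ε
    simp only [c]
    rw [cnd_H, cnd, cnd, ← av_mul_right]
    refine av_congr fun u => ?_
    rw [Sx_H, chiT_H, hH]
    split_ifs with e
    · rw [e]; ring
    · simp
  have hG : ∀ ε, cnd J (fun z => chiT l T z * h z) (H l ε • x)
      = ∑ S : Finset (X d), c S x * ∏ y ∈ S, sg (ε y) := by
    intro ε
    simp only [← cH]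
    simp only [c, cnd]
    rw [← av_sum]
    refine av_congr fun u => ?_
    simp
  have c0 : ∀ S, ¬ S ⊆ V.image (fun i => bar l (x i)) → c S x = 0 := by
    intro S hS
    obtain ⟨y, hy, hy'⟩ := Finset.not_subset.1 hS
    have h1 := cH S (fun p => decide (p = y))
    have h2 : c S (H l (fun p => decide (p = y)) • x) = c S x := by
      refine cnd_dep J _ _ _ fun i m hm => ?_
      rw [smul_apply']
      rcases mem_JW.1 hm with hi | hm
      · have : bar l (x i) ≠ y := fun e => hy' (Finset.mem_image.2 ⟨i, hi, e⟩)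
        simp [H_apply, this]
      · exact H_ne (fun e => by rw [e] at hm; omega) _ _
    rw [← Finset.prod_erase_mul _ _ hy, Finset.prod_eq_one (fun y' h' => by
      simp [sg, Finset.ne_of_mem_erase h']), h2] at h1
    simp only [sg, decide_true, if_true] at h1
    linarith
  set Ψ := ∏ c, psi (cnt V (l.val + 1) x c) (2 ^ (l.val + 1)) with hΨ
  have hΨ0 : 0 ≤ Ψ := Finset.prod_nonneg fun _ _ => psi_nonneg _ _
  have hA0 : 0 ≤ ∑ S : Finset (X d), 4 ^ S.card * c S x ^ 2 :=
    Finset.sum_nonneg fun _ _ => by positivity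
  have b1 : av (fun ε : X d → Bool => wgt V l.val (H l ε • x) *
        cnd J (fun z => chiT l T z * h z) (H l ε • x) ^ 2)
      ≤ Ψ * ∑ S : Finset (X d), 4 ^ S.card * c S x ^ 2 := by
    refine (abs_le_of_sq_le_sq' ((av_cs _ _).trans ?_) (mul_nonneg hΨ0 hA0)).2
    rw [mul_pow]
    refine mul_le_mul (wgt_sq_le V l x hx) ?_ (av_nonneg fun _ => sq_nonneg _) (sq_nonneg _)
    simp only [hG, ← pow_mul]
    exact hyper_sg _
  refine b1.trans ?_
  have b2 : ∀ S : Finset (X d), Ψ * (4 ^ S.card * c S x ^ 2)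
      ≤ av (fun u => (if Sx l T (mix J x u) = S then (1 : ℝ) else 0) *
        (h (mix J x u) ^ 2 * tm l V T x S)) := by
    intro S
    simp only [← mul_assoc]
    rw [av_mul_right, mul_comm (av _), tm, ← hΨ, mul_assoc, mul_assoc, mul_assoc]
    refine mul_le_mul_of_nonneg_left (mul_le_mul_of_nonneg_left ?_ (by positivity)) hΨ0
    by_cases hS : S ⊆ V.image (fun i => bar l (x i))
    swap
    · rw [c0 S hS, if_neg hS]; simp
    rw [if_pos hS, one_mul]
    have h1 := av_cs (fun u => (if Sx l T (mix J x u) = S then (1 : ℝ) else 0))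
      (fun u => (if Sx l T (mix J x u) = S then (1 : ℝ) else 0) *
        (chiT l T (mix J x u) * h (mix J x u)))
    have e1 : ∀ (P : Prop) [Decidable P] (a : ℝ), (if P then (1 : ℝ) else 0) *
        ((if P then (1 : ℝ) else 0) * a) = (if P then (1 : ℝ) else 0) * a := by
      intro P _ a; split_ifs <;> simp
    have e2 : ∀ (P : Prop) [Decidable P], (if P then (1 : ℝ) else 0) ^ 2
        = (if P then (1 : ℝ) else 0) := by
      intro P _; split_ifs <;> simp
    simp only [e1, mul_pow, e2, chiT_sq, one_mul] at h1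
    refine le_trans h1 (mul_le_mul_of_nonneg_right ?_ (av_nonneg fun u => by positivity))
    exact pi_bound V l x (rho l T x) (rho_nonneg l T x) _ T rfl hTV
      (fun c => by rw [rho, Real.sq_sqrt (by positivity)]) S
  rw [Finset.mul_sum]
  refine (Finset.sum_le_sum fun S _ => b2 S).trans (le_of_eq ?_)
  rw [← av_sum]
  refine av_congr fun u => ?_
  rw [tm_mix]
  simp

lemma star_T (l : Fin d) (V T : Finset Λ) (hTV : Disjoint T V) (h : (Λ → X d) → ℝ)
    (hH : ∀ ε x, h (H l ε • x) = h x) (hz : ∀ z, ¬ Set.InjOn z V → h z = 0) :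
    av (fun x => wgt V l.val x * cnd (JW d V (l.val + 1)) (fun z => chiT l T z * h z) x ^ 2)
      ≤ av (fun z => h z ^ 2 * tm l V T z (Sx l T z)) := by
  rw [← av_mix (JW d V (l.val + 1)) (fun z => h z ^ 2 * tm l V T z (Sx l T z))]
  refine le_trans (le_of_eq ?_) (av_mono fun x => star_x l V T hTV h hH hz x)
  rw [av_comm]
  simp only [av_smul _ (fun x => wgt V l.val x *
    cnd (JW d V (l.val + 1)) (fun z => chiT l T z * h z) x ^ 2), av_const]

lemma cnt_le (l : Fin d) (W : Finset Λ) (z : Λ → X d) (hz : Set.InjOn z W) (c : X d) :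
    cnt W (l.val + 1) z c ≤ 2 ^ (l.val + 1) := by
  have := Finset.card_le_card_of_injOn (s := W.filter (fun i => hi (l.val + 1) (z i) = c))
    (t := (Finset.univ : Finset (Fin (l.val + 1) → Bool)))
    (fun i => fun m : Fin (l.val + 1) => z i (Fin.castLE l.isLt m))
    (fun _ _ => Finset.mem_coe.2 (Finset.mem_univ _)) (fun i hi j hj e => by
      obtain ⟨h1, h2⟩ := Finset.mem_filter.1 hi
      obtain ⟨h3, h4⟩ := Finset.mem_filter.1 hj
      refine hz h1 h3 (funext fun m => ?_)
      by_cases hm : m.val < l.val + 1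
      · exact congrFun e ⟨m.val, hm⟩
      · have := congrFun (h2.trans h4.symm) m
        simpa [Vale.Agent.P162.hi, not_lt.1 hm] using this)
  simpa [cnt] using this

lemma tm_le_prod (l : Fin d) (W T : Finset Λ) (hT : T ⊆ W) (z : Λ → X d) :
    tm l (W \ T) T z (Sx l T z) ≤ ∏ c, bt l z (cnt W (l.val + 1) z c)
      (T.filter (fun i => hi (l.val + 1) (z i) = c)) := by
  have eS : ∀ c, Sx l (T.filter (fun i => hi (l.val + 1) (z i) = c)) z
      = (Sx l T z).filter (fun y => hi (l.val + 1) y = c) := by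
    intro c
    ext y
    rw [Finset.mem_filter, mem_Sx, mem_Sx, Finset.filter_filter]
    by_cases hy : hi (l.val + 1) y = c
    · rw [Finset.filter_congr (q := fun i => bar l (z i) = y) fun i _ =>
        ⟨fun h => h.2, fun h => ⟨by rw [← hy, ← h, hi_bar], h⟩⟩]
      simp [hy]
    · rw [Finset.filter_eq_empty_iff.2 fun i _ h => hy (by rw [← h.2, hi_bar, h.1])]
      simp [hy]
  have eV : ∀ c, cnt (W \ T) (l.val + 1) z c
      = cnt W (l.val + 1) z c - (T.filter (fun i => hi (l.val + 1) (z i) = c)).card := by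
    intro c
    rw [cnt, cnt, ← Finset.card_sdiff_of_subset (Finset.filter_subset_filter _ hT)]
    congr 1
    ext i
    simp only [Finset.mem_filter, Finset.mem_sdiff]
    tauto
  simp only [bt, Finset.prod_mul_distrib, pow_add, eS, tm, eV]
  rw [mul_assoc]
  refine mul_le_mul_of_nonneg_left ?_ (Finset.prod_nonneg fun _ _ => psi_nonneg _ _)
  have e4 : (4 : ℝ) ^ (Sx l T z).card
      = ∏ c, 4 ^ ((Sx l T z).filter (fun y => hi (l.val + 1) y = c)).card := by
    rw [Finset.prod_pow_eq_pow_sum, ← Finset.card_eq_sum_card_fiberwise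
      (fun _ _ => Finset.mem_coe.2 (Finset.mem_univ _))]
  have eT : ∏ i ∈ T, rho l T z (hi (l.val + 1) (z i))
      = ∏ c, Real.sqrt ((T.filter (fun i => hi (l.val + 1) (z i) = c)).card / 2 ^ l.val)
        ^ (T.filter (fun i => hi (l.val + 1) (z i) = c)).card := by
    rw [← Finset.prod_fiberwise T (fun i => hi (l.val + 1) (z i))]
    refine Finset.prod_congr rfl fun c _ => ?_
    rw [Finset.prod_congr rfl fun i hi => by rw [(Finset.mem_filter.1 hi).2], Finset.prod_const]
    rfl
  have eY : ∏ y ∈ Sx l T z, rho l T z (hi (l.val + 1) y)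
      = ∏ c, Real.sqrt ((T.filter (fun i => hi (l.val + 1) (z i) = c)).card / 2 ^ l.val)
        ^ ((Sx l T z).filter (fun y => hi (l.val + 1) y = c)).card := by
    rw [← Finset.prod_fiberwise (Sx l T z) (fun y => hi (l.val + 1) y)]
    refine Finset.prod_congr rfl fun c _ => ?_
    rw [Finset.prod_congr rfl fun i hi => by rw [(Finset.mem_filter.1 hi).2], Finset.prod_const]
    rfl
  rw [← e4, ← eT, ← eY, mul_left_comm]
  refine mul_le_mul_of_nonneg_right ?_ (mul_nonneg (by positivity) (mul_nonneg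
    (Finset.prod_nonneg fun _ _ => rho_nonneg _ _ _ _)
    (Finset.prod_nonneg fun _ _ => rho_nonneg _ _ _ _)))
  split_ifs with hS
  · refine (Finset.prod_eq_one fun c _ => if_neg ?_).ge
    rintro ⟨h1, i, hi⟩
    obtain ⟨hiT, hic⟩ := Finset.mem_filter.1 hi
    have uniq : ∀ j ∈ W, bar l (z j) = bar l (z i) → j = i := fun j hj e =>
      Finset.card_le_one.1 h1.le j (Finset.mem_filter.2 ⟨hj, by rw [← hi_bar, e, hi_bar, hic]⟩) i
        (Finset.mem_filter.2 ⟨hT hiT, hic⟩)
    have h2 : bar l (z i) ∈ Sx l T z := by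
      rw [mem_Sx]
      have : T.filter (fun j => bar l (z j) = bar l (z i)) = {i} := by
        ext j
        simp only [Finset.mem_filter, Finset.mem_singleton]
        exact ⟨fun h => uniq j (hT h.1) h.2, fun h => by rw [h]; exact ⟨hiT, rfl⟩⟩
      rw [this]; simp
    obtain ⟨j, hj, e⟩ := Finset.mem_image.1 (hS h2)
    obtain ⟨h3, h4⟩ := Finset.mem_sdiff.1 hj
    exact h4 (uniq j h3 e ▸ hiT)
  · exact Finset.prod_nonneg fun _ _ => by split_ifs <;> norm_num

lemma sum_tm_le (l : Fin d) (W : Finset Λ) (z : Λ → X d) (hz : Set.InjOn z W) :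
    ∑ T ∈ W.powerset, tm l (W \ T) T z (Sx l T z) ≤ wgt W (l.val + 1) z := by
  refine (Finset.sum_le_sum fun T hT => tm_le_prod l W T (Finset.mem_powerset.1 hT) z).trans ?_
  rw [sum_powerset_prod (fun i => hi (l.val + 1) (z i))
    (fun c T => bt l z (cnt W (l.val + 1) z c) T) Finset.univ W (fun _ _ => Finset.mem_univ _)]
  refine Finset.prod_le_prod (fun c _ => Finset.sum_nonneg fun T _ => ?_) fun c _ => ?_
  · exact mul_nonneg (mul_nonneg (psi_nonneg _ _) (by split_ifs <;> norm_num)) (by positivity)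
  · exact block_sum l _ z (hz.mono (Finset.coe_subset.2 (Finset.filter_subset _ _)))
      (cnt_le l W z hz c)

/-- the weighted quadratic form at level `s` -/
noncomputable def Dq (s : ℕ) (f : (Λ → X d) → ℝ) : ℝ :=
  ∑ W : Finset Λ, av (fun x => wgt W s x * cnd (JW d W s) f x ^ 2)

lemma Pop_inj (l : Fin d) (f : (Λ → X d) → ℝ) (hf : ∀ x, ¬ Function.Injective x → f x = 0) :
    ∀ x, ¬ Function.Injective x → Pop l f x = 0 := by
  intro x hx
  rw [Pop, ← av_zero (α := X d → Bool)]
  exact av_congr fun ε => hf _ fun h => hx fun i j e => h (by rw [smul_apply', smul_apply', e])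

theorem Dq_step (l : Fin d) (f : (Λ → X d) → ℝ) (hf : ∀ x, ¬ Function.Injective x → f x = 0) :
    Dq l.val (Pop l f) ≤ Dq (l.val + 1) f := by
  set g := Pop l f with hg
  have e1 : ∀ W : Finset Λ, av (fun x => wgt W l.val x * cnd (JW d W l.val) g x ^ 2)
      = ∑ T ∈ Wᶜ.powerset, av (fun x => wgt W l.val x *
        cnd (JW d W (l.val + 1)) (fun z => chiT l T z * g z) x ^ 2) := by
    intro W
    rw [JW_succ, parseval_cnd]
    · intro x x' h
      exact wgt_congr fun i hi => by rw [funext fun m => h i m (mem_JW.2 (Or.inl hi))]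
    · intro i hi h
      exact (mem_JW.1 h).elim (Finset.mem_compl.1 hi) (by omega)
  rw [Dq, Finset.sum_congr rfl fun W _ => e1 W, sum_reindex (fun W T => av (fun x =>
    wgt W l.val x * cnd (JW d W (l.val + 1)) (fun z => chiT l T z * g z) x ^ 2))]
  refine Finset.sum_le_sum fun W _ => ?_
  set J := JW d W (l.val + 1) with hJ
  set h := cnd J g with hh
  have hH : ∀ ε x, h (H l ε • x) = h x := by
    intro ε x
    rw [hh, cnd_H]
    simp only [hg, Pop_H]
    rfl
  have hz : ∀ z, ¬ Set.InjOn z W → h z = 0 := by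
    intro z hz
    rw [hh, cnd, ← av_zero (α := Λ → X d)]
    refine av_congr fun u => Pop_inj l f hf _ fun hm => hz fun i hi j hj e => hm ?_
    rw [mix_JW_mem _ _ hi, mix_JW_mem _ _ hj, e]
  have b1 : ∀ T ∈ W.powerset, av (fun x => wgt (W \ T) l.val x *
        cnd (JW d (W \ T) (l.val + 1)) (fun z => chiT l T z * g z) x ^ 2)
      ≤ av (fun z => h z ^ 2 * tm l (W \ T) T z (Sx l T z)) := by
    intro T hT
    have hsub : JW d (W \ T) (l.val + 1) ⊆ J := fun ⟨i, m⟩ hq =>
      mem_JW.2 ((mem_JW.1 hq).imp_left fun h => (Finset.mem_sdiff.1 h).1)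
    have hdep : Dep J (chiT l T) := fun x x' hx =>
      Finset.prod_congr rfl fun i hi => by
        rw [hx i l (mem_JW.2 (Or.inl (Finset.mem_powerset.1 hT hi)))]
    rw [← cnd_cnd hsub, cnd_mul hdep]
    exact star_T l _ T Finset.disjoint_sdiff h hH
      fun z hz' => hz z fun hm => hz' (hm.mono (Finset.coe_subset.2 Finset.sdiff_subset))
  refine (Finset.sum_le_sum b1).trans ?_
  rw [← av_sum]
  have b2 : ∀ z, ∑ T ∈ W.powerset, h z ^ 2 * tm l (W \ T) T z (Sx l T z)
      ≤ av (fun ε : X d → Bool => wgt W (l.val + 1) (H l ε • z) * cnd J f (H l ε • z) ^ 2) := by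
    intro z
    have e2 : ∀ ε, wgt W (l.val + 1) (H l ε • z) = wgt W (l.val + 1) z := fun ε =>
      wgt_congr fun i _ => by rw [smul_apply', hi_H]
    simp only [e2]
    rw [← Finset.mul_sum, av_mul_left, mul_comm]
    by_cases hi : Set.InjOn z W
    · refine mul_le_mul (sum_tm_le l W z hi) (le_trans (le_of_eq ?_) (av_sq_le _)) (sq_nonneg _)
        (wgt_nonneg _ _ _)
      congr 1
      simp only [hJ, cnd_H]
      simp only [hh, cnd, hg, Pop]
      exact av_comm _
    · rw [hz z hi]
      simp only [ne_eq, OfNat.ofNat_ne_zero, not_false_eq_true, zero_pow, mul_zero]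
      exact mul_nonneg (wgt_nonneg _ _ _) (av_nonneg fun _ => sq_nonneg _)
  refine (av_mono b2).trans (le_of_eq ?_)
  rw [av_comm]
  simp only [av_smul _ (fun x => wgt W (l.val + 1) x * cnd J f x ^ 2), av_const]

end Vale.Agent.P162
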