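import Vale.Agent.P063.Hyper

/-! The butterfly network on the cube and uniform averages. -/

set_option linter.unusedSectionVars false

namespace Vale.Agent.P162

open Finset

/-- uniform average over a finite type -/
noncomputable def av {α : Type*} [Fintype α] (F : α → ℝ) : ℝ :=
  (∑ a, F a) / (Fintype.card α : ℝ)

section av
variable {α β : Type*} [Fintype α] [Fintype β]

lemma av_congr {F G : α → ℝ} (h : ∀ a, F a = G a) : av F = av G := by rw [funext h]

lemma av_const [Nonempty α] (c : ℝ) : av (fun _ : α => c) = c := by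
  have : (Fintype.card α : ℝ) ≠ 0 := by exact_mod_cast Fintype.card_ne_zero
  simp only [av, Finset.sum_const, Finset.card_univ, nsmul_eq_mul]
  field_simp

lemma av_zero : av (fun _ : α => (0 : ℝ)) = 0 := by simp [av]

lemma av_add (F G : α → ℝ) : av (fun a => F a + G a) = av F + av G := by
  simp only [av, Finset.sum_add_distrib, add_div]

lemma av_sub (F G : α → ℝ) : av (fun a => F a - G a) = av F - av G := by
  simp only [av, Finset.sum_sub_distrib, sub_div]

lemma av_mul_left (c : ℝ) (F : α → ℝ) : av (fun a => c * F a) = c * av F := by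
  simp only [av, ← Finset.mul_sum, mul_div_assoc]

lemma av_mul_right (c : ℝ) (F : α → ℝ) : av (fun a => F a * c) = av F * c := by
  simp only [av, ← Finset.sum_mul]; ring

lemma av_sum {γ : Type*} (s : Finset γ) (F : γ → α → ℝ) :
    av (fun a => ∑ c ∈ s, F c a) = ∑ c ∈ s, av (F c) := by
  simp only [av]
  rw [Finset.sum_comm, Finset.sum_div]

lemma av_comm (F : α → β → ℝ) :
    av (fun a => av (fun b => F a b)) = av (fun b => av (fun a => F a b)) := by
  simp only [av, ← Finset.sum_div]
  rw [Finset.sum_comm]; ring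

lemma av_mono {F G : α → ℝ} (h : ∀ a, F a ≤ G a) : av F ≤ av G :=
  div_le_div_of_nonneg_right (Finset.sum_le_sum fun a _ => h a) (Nat.cast_nonneg _)

lemma av_nonneg {F : α → ℝ} (h : ∀ a, 0 ≤ F a) : 0 ≤ av F :=
  div_nonneg (Finset.sum_nonneg fun a _ => h a) (Nat.cast_nonneg _)

lemma av_le_of_le [Nonempty α] {F : α → ℝ} {c : ℝ} (h : ∀ a, F a ≤ c) : av F ≤ c :=
  (av_mono h).trans (av_const c).le

lemma av_equiv (e : α ≃ β) (F : β → ℝ) : av (fun a => F (e a)) = av F := by
  simp only [av, Equiv.sum_comp e F, Fintype.card_congr e]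

lemma av_bij {e : α → α} (he : Function.Bijective e) (F : α → ℝ) :
    av (fun a => F (e a)) = av F := av_equiv (Equiv.ofBijective e he) F

lemma av_prod (F : α × β → ℝ) : av F = av (fun a => av (fun b => F (a, b))) := by
  simp only [av, Fintype.sum_prod_type, Fintype.card_prod, ← Finset.sum_div, Nat.cast_mul]
  rw [div_div, mul_comm]

/-- Cauchy-Schwarz -/
lemma av_cs (F G : α → ℝ) :
    av (fun a => F a * G a) ^ 2 ≤ av (fun a => F a ^ 2) * av (fun a => G a ^ 2) := by
  have h := Finset.sum_mul_sq_le_sq_mul_sq Finset.univ F G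
  simp only [av, div_pow, div_mul_div_comm, ← sq]
  exact div_le_div_of_nonneg_right h (by positivity)

lemma av_sq_le [Nonempty α] (F : α → ℝ) : av F ^ 2 ≤ av (fun a => F a ^ 2) := by
  have h := av_cs F (fun _ => 1)
  simpa only [mul_one, one_pow, av_const] using h

lemma exists_av_le [Nonempty α] (F : α → ℝ) : ∃ a, av F ≤ F a := by
  obtain ⟨a, _, ha⟩ := Finset.exists_max_image Finset.univ F Finset.univ_nonempty
  exact ⟨a, av_le_of_le fun b => ha b (Finset.mem_univ b)⟩

/-- swapping the coordinates outside `J` between two independent uniform samples -/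
lemma av_swap {ι γ : Type*} [Fintype ι] [DecidableEq ι] [Fintype γ] (J : Finset ι)
    (G : (ι → γ) → (ι → γ) → ℝ) :
    av (fun x => av (fun y => G x y))
      = av (fun x => av (fun y => G (J.piecewise x y) (J.piecewise y x))) := by
  let e : (ι → γ) × (ι → γ) ≃ (ι → γ) × (ι → γ) :=
    Function.Involutive.toPerm (fun z => (J.piecewise z.1 z.2, J.piecewise z.2 z.1))
      (fun z => by
        ext i <;> by_cases hi : i ∈ J <;> simp [Finset.piecewise, hi])
  rw [← av_prod (fun z => G z.1 z.2),
    ← av_prod (fun z => G (J.piecewise z.1 z.2) (J.piecewise z.2 z.1)),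
    ← av_equiv e (fun z => G z.1 z.2)]
  rfl

/-- resampling the coordinates outside `J` -/
lemma av_pw {ι γ : Type*} [Fintype ι] [DecidableEq ι] [Fintype γ] [Nonempty γ] (J : Finset ι)
    (F : (ι → γ) → ℝ) : av F = av (fun x => av (fun y => F (J.piecewise x y))) := by
  have h := av_swap J (fun x _ => F x)
  simpa only [av_const] using h

/-- product formula -/
lemma av_pi_prod {ι γ : Type*} [Fintype ι] [DecidableEq ι] [Fintype γ] (a : ι → γ → ℝ) :
    av (fun x : ι → γ => ∏ i, a i (x i)) = ∏ i, av (a i) := by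
  simp only [av]
  rw [Finset.prod_div_distrib, Finset.prod_univ_sum, Fintype.piFinset_univ, Finset.prod_const,
    Finset.card_univ, Fintype.card_fun]
  push_cast; rfl

lemma Ex_half {ι : Type*} [Fintype ι] [DecidableEq ι] (F : (ι → Bool) → ℝ) :
    P063.Ex (1 / 2) F = av F := by
  have h : ∀ x : ι → Bool, P063.wt (1 / 2) x = (1 / 2) ^ Fintype.card ι := by
    intro x
    rw [P063.wt, ← Finset.card_univ, ← Finset.prod_const]
    refine Finset.prod_congr rfl fun i _ => ?_
    cases x i <;> norm_num [P063.w1]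
  simp only [P063.Ex, h, av, ← Finset.mul_sum, Fintype.card_fun, Fintype.card_bool]
  push_cast
  rw [one_div, inv_pow]; ring

end av

/-- the sign `(-1)^b` -/
def sg (b : Bool) : ℝ := if b then -1 else 1

lemma sg_sq (b : Bool) : sg b * sg b = 1 := by cases b <;> simp [sg]

lemma sg_xor (a b : Bool) : sg (xor a b) = sg a * sg b := by
  cases a <;> cases b <;> simp [sg]

lemma abs_sg (b : Bool) : |sg b| = 1 := by cases b <;> simp [sg]

/-- linear exponential moment of a Rademacher sum -/
lemma av_exp_lin {ι : Type*} [Fintype ι] [DecidableEq ι] (a : ι → ℝ) :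
    av (fun ε : ι → Bool => Real.exp (∑ y, a y * sg (ε y))) ≤ Real.exp ((∑ y, a y ^ 2) / 2) := by
  simp only [Real.exp_sum]
  rw [av_pi_prod (fun y b => Real.exp (a y * sg b)), Finset.sum_div, Real.exp_sum]
  refine Finset.prod_le_prod (fun y _ => av_nonneg fun b => (Real.exp_pos _).le) fun y _ => ?_
  refine le_trans (le_of_eq ?_) (Real.cosh_le_exp_half_sq (a y))
  simp [av, sg, Real.cosh_eq, add_comm]

/-- quadratic exponential moment of a Rademacher sum -/
lemma av_exp_quad_aux {ι : Type*} [Fintype ι] [DecidableEq ι] (a : ι → ℝ) (J : Finset ι) :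
    ∀ lam A : ℝ, 0 ≤ lam → ∑ y ∈ J, a y ^ 2 ≤ A → 2 * lam * A < 1 →
    av (fun ε : ι → Bool => Real.exp (lam * (∑ y ∈ J, a y * sg (ε y)) ^ 2))
      ≤ Real.exp (lam * A / (1 - 2 * lam * A)) := by
  induction J using Finset.induction_on with
  | empty =>
    intro lam A h0 h1 h2
    simp only [Finset.sum_empty] at h1 ⊢
    refine av_le_of_le fun ε => Real.exp_le_exp.2 ?_
    have : 0 ≤ lam * A / (1 - 2 * lam * A) := div_nonneg (mul_nonneg h0 h1) (by linarith)
    simpa using this
  | insert i J hi ih =>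
    intro lam A h0 h1 h2
    rw [Finset.sum_insert hi] at h1
    have hJ : 0 ≤ ∑ y ∈ J, a y ^ 2 := Finset.sum_nonneg fun y _ => sq_nonneg _
    have ha : a i ^ 2 ≤ A := by linarith
    have ha0 := sq_nonneg (a i)
    have hD : 0 < 1 - 2 * lam * A := by linarith
    have hd : 0 < 1 - 2 * lam * a i ^ 2 := by nlinarith
    set lam' := lam / (1 - 2 * lam * a i ^ 2) with hlam'
    have hl0 : 0 ≤ lam' := div_nonneg h0 hd.le
    have hl1 : lam + 2 * lam ^ 2 * a i ^ 2 ≤ lam' := by
      rw [hlam', le_div_iff₀ hd]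
      nlinarith [mul_nonneg h0 (sq_nonneg (lam * a i ^ 2))]
    have hl2 : 1 - 2 * lam' * (A - a i ^ 2) = (1 - 2 * lam * A) / (1 - 2 * lam * a i ^ 2) := by
      rw [hlam']; field_simp; ring
    have hih := ih lam' (A - a i ^ 2) hl0 (by linarith)
      (by have := div_pos hD hd; linarith)
    have e3 : lam' * (A - a i ^ 2) / (1 - 2 * lam' * (A - a i ^ 2))
        = lam * (A - a i ^ 2) / (1 - 2 * lam * A) := by
      rw [hl2, hlam', div_mul_eq_mul_div, div_div_div_cancel_right₀ hd.ne']
    rw [e3] at hih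
    rw [av_pw {i}, av_comm]
    have step : ∀ x : ι → Bool, av (fun y : ι → Bool => Real.exp (lam *
        (∑ z ∈ insert i J, a z * sg (({i} : Finset ι).piecewise y x z)) ^ 2))
        ≤ Real.exp (lam * a i ^ 2) * Real.exp (lam' * (∑ z ∈ J, a z * sg (x z)) ^ 2) := by
      intro x
      set S := ∑ z ∈ J, a z * sg (x z) with hS
      have e1 : ∀ y : ι → Bool, ∑ z ∈ insert i J, a z * sg (({i} : Finset ι).piecewise y x z)
          = a i * sg (y i) + S := by
        intro y
        rw [Finset.sum_insert hi, Finset.piecewise_eq_of_mem _ _ _ (Finset.mem_singleton_self i)]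
        congr 1
        refine Finset.sum_congr rfl fun z hz => ?_
        rw [Finset.piecewise_eq_of_notMem]
        intro h
        rw [Finset.mem_singleton] at h
        exact hi (h ▸ hz)
      simp only [e1]
      have e2 : ∀ y : ι → Bool, Real.exp (lam * (a i * sg (y i) + S) ^ 2)
          = Real.exp (lam * a i ^ 2 + lam * S ^ 2) *
            Real.exp (∑ z, (if z = i then 2 * lam * a i * S else 0) * sg (y z)) := by
        intro y
        rw [← Real.exp_add]
        congr 1
        simp only [ite_mul, zero_mul, Finset.sum_ite_eq', Finset.mem_univ, if_true]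
        have := sg_sq (y i)
        linear_combination (lam * a i ^ 2) * this
      simp only [e2]
      rw [av_mul_left]
      refine (mul_le_mul_of_nonneg_left (av_exp_lin _) (Real.exp_pos _).le).trans ?_
      rw [← Real.exp_add, ← Real.exp_add, Real.exp_le_exp]
      simp only [ite_pow, ne_eq, OfNat.ofNat_ne_zero, not_false_eq_true, zero_pow,
        Finset.sum_ite_eq', Finset.mem_univ, if_true]
      nlinarith [mul_le_mul_of_nonneg_right hl1 (sq_nonneg S)]
    refine (av_mono step).trans ?_
    rw [av_mul_left]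
    refine (mul_le_mul_of_nonneg_left hih (Real.exp_pos _).le).trans ?_
    rw [← Real.exp_add, Real.exp_le_exp]
    have e4 : lam * a i ^ 2 ≤ lam * a i ^ 2 / (1 - 2 * lam * A) := by
      rw [le_div_iff₀ hD]
      have : 0 ≤ lam * A := mul_nonneg h0 (by linarith)
      nlinarith [mul_nonneg h0 ha0]
    have e5 : lam * a i ^ 2 / (1 - 2 * lam * A) + lam * (A - a i ^ 2) / (1 - 2 * lam * A)
        = lam * A / (1 - 2 * lam * A) := by ring
    linarith

lemma av_exp_quad {ι : Type*} [Fintype ι] [DecidableEq ι] (a : ι → ℝ) (lam A : ℝ) (h0 : 0 ≤ lam)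
    (h1 : ∑ y, a y ^ 2 ≤ A) (h2 : 4 * lam * A ≤ 1) :
    av (fun ε : ι → Bool => Real.exp (lam * (∑ y, a y * sg (ε y)) ^ 2))
      ≤ Real.exp (2 * lam * A) := by
  have hA : 0 ≤ A := le_trans (Finset.sum_nonneg fun y _ => sq_nonneg _) h1
  refine (av_exp_quad_aux a Finset.univ lam A h0 h1 (by linarith)).trans (Real.exp_le_exp.2 ?_)
  rw [div_le_iff₀ (by linarith)]
  nlinarith [mul_nonneg h0 hA]

/-- positions -/
abbrev X (d : ℕ) : Type := Fin d → Bool

variable {d : ℕ}

def flip (l : Fin d) (p : X d) : X d := Function.update p l (!p l)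

def bar (l : Fin d) (p : X d) : X d := Function.update p l false

@[simp] lemma flip_self (l : Fin d) (p : X d) : flip l p l = !p l := by simp [flip]

lemma flip_ne {l i : Fin d} (h : i ≠ l) (p : X d) : flip l p i = p i := by simp [flip, h]

@[simp] lemma bar_self (l : Fin d) (p : X d) : bar l p l = false := by simp [bar]

lemma bar_ne {l i : Fin d} (h : i ≠ l) (p : X d) : bar l p i = p i := by simp [bar, h]

@[simp] lemma flip_flip (l : Fin d) (p : X d) : flip l (flip l p) = p := by simp [flip]

@[simp] lemma bar_flip (l : Fin d) (p : X d) : bar l (flip l p) = bar l p := by simp [flip, bar]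

@[simp] lemma bar_bar (l : Fin d) (p : X d) : bar l (bar l p) = bar l p := by simp [bar]

lemma flip_ne_self (l : Fin d) (p : X d) : flip l p ≠ p := fun h => by
  have := congrFun h l
  simp at this

lemma bar_eq_self {l : Fin d} {p : X d} (h : p l = false) : bar l p = p := by
  rw [bar, ← h, Function.update_eq_self]

lemma eq_or_flip_of_bar_eq {l : Fin d} {p q : X d} (h : bar l p = bar l q) :
    q = p ∨ q = flip l p := by
  by_cases hl : q l = p l
  · left; funext i
    by_cases hi : i = l
    · rw [hi, hl]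
    · rw [← bar_ne hi q, ← h, bar_ne hi]
  · right; funext i
    by_cases hi : i = l
    · rw [hi, flip_self]; revert hl; cases q l <;> cases p l <;> simp
    · rw [flip_ne hi, ← bar_ne hi q, ← h, bar_ne hi]

/-- flipping bit `l` as a permutation -/
def flipP (l : Fin d) : Equiv.Perm (X d) := Function.Involutive.toPerm (flip l) (flip_flip l)

@[simp] lemma flipP_apply (l : Fin d) (p : X d) : flipP l p = flip l p := rfl

/-- one layer of switches in direction `l` with coins `ε` (only the values at points with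
bit `l` equal to `false` are used) -/
def H (l : Fin d) (ε : X d → Bool) : Equiv.Perm (X d) :=
  Function.Involutive.toPerm (fun p => if ε (bar l p) then flip l p else p) (fun p => by
    by_cases h : ε (bar l p) <;> simp [h])

lemma H_apply (l : Fin d) (ε : X d → Bool) (p : X d) :
    H l ε p = if ε (bar l p) then flip l p else p := rfl

lemma H_H (l : Fin d) (ε : X d → Bool) (p : X d) : H l ε (H l ε p) = p := by
  simp only [H_apply]; by_cases h : ε (bar l p) <;> simp [h]

lemma H_mul_self (l : Fin d) (ε : X d → Bool) : H l ε * H l ε = 1 :=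
  Equiv.ext fun p => H_H l ε p

lemma H_inv (l : Fin d) (ε : X d → Bool) : (H l ε)⁻¹ = H l ε :=
  inv_eq_of_mul_eq_one_left (H_mul_self l ε)

lemma H_self (l : Fin d) (ε : X d → Bool) (p : X d) : H l ε p l = xor (p l) (ε (bar l p)) := by
  rw [H_apply]; by_cases h : ε (bar l p) <;> simp [h]

lemma H_ne {l i : Fin d} (h : i ≠ l) (ε : X d → Bool) (p : X d) : H l ε p i = p i := by
  rw [H_apply]; split_ifs
  · exact flip_ne h p
  · rfl

@[simp] lemma bar_H (l : Fin d) (ε : X d → Bool) (p : X d) : bar l (H l ε p) = bar l p := by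
  rw [H_apply]; split_ifs <;> simp

lemma H_mul_H (l : Fin d) (ε δ : X d → Bool) :
    H l ε * H l δ = H l (fun p => xor (ε p) (δ p)) := by
  ext1 p
  rw [Equiv.Perm.mul_apply, H_apply l ε, bar_H, H_apply, H_apply]
  by_cases h1 : ε (bar l p) <;> by_cases h2 : δ (bar l p) <;> simp [h1, h2]

/-- all coins of one butterfly round -/
abbrev Coins (d : ℕ) : Type := Fin d × X d → Bool

/-- the first `s` layers of the butterfly network -/
def Bf (ω : Coins d) : ℕ → Equiv.Perm (X d)
  | 0 => 1
  | s + 1 => if h : s < d then H ⟨s, h⟩ (fun p => ω (⟨s, h⟩, p)) * Bf ω s else Bf ω s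

lemma Bf_zero (ω : Coins d) : Bf ω 0 = 1 := rfl

lemma Bf_succ (ω : Coins d) {s : ℕ} (h : s < d) :
    Bf ω (s + 1) = H ⟨s, h⟩ (fun p => ω (⟨s, h⟩, p)) * Bf ω s := by
  simp [Bf, h]

lemma Bf_succ_of_le (ω : Coins d) {s : ℕ} (h : d ≤ s) : Bf ω (s + 1) = Bf ω s := by
  simp [Bf, not_lt.2 h]

/-- bits that have not been reached yet are unchanged -/
lemma Bf_high (ω : Coins d) (s : ℕ) (p : X d) (i : Fin d) (hi : s ≤ i.val) : Bf ω s p i = p i := by
  induction s with
  | zero => rfl
  | succ s ih =>
    have hs : s < d := by omega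
    rw [Bf_succ ω hs, Equiv.Perm.mul_apply, H_ne, ih (by omega)]
    intro h; rw [h] at hi; simp at hi

/-- bits that have been passed are final -/
lemma Bf_low (ω : Coins d) {j s : ℕ} (hjs : j ≤ s) (p : X d) (i : Fin d) (hi : i.val < j) :
    Bf ω s p i = Bf ω j p i := by
  induction s, hjs using Nat.le_induction with
  | base => rfl
  | succ s hs ih =>
    by_cases h : s < d
    · rw [Bf_succ ω h, Equiv.Perm.mul_apply, H_ne, ih]
      intro e; rw [e] at hi; simp at hi; omega
    · rw [Bf_succ_of_le ω (not_lt.1 h), ih]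

/-- the path of a card depends only on the coins of the switches it uses -/
lemma Bf_agree (ω ω' : Coins d) (s : ℕ) (p : X d)
    (h : ∀ l : Fin d, l.val < s → ω' (l, bar l (Bf ω l p)) = ω (l, bar l (Bf ω l p))) :
    Bf ω' s p = Bf ω s p := by
  induction s with
  | zero => rfl
  | succ s ih =>
    have ih' := ih fun l hl => h l (by omega)
    by_cases hs : s < d
    · rw [Bf_succ ω hs, Bf_succ ω' hs, Equiv.Perm.mul_apply, Equiv.Perm.mul_apply, ih', H_apply,
        H_apply, h ⟨s, hs⟩ (by simp)]
    · rw [Bf_succ_of_le ω (not_lt.1 hs), Bf_succ_of_le ω' (not_lt.1 hs), ih']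

lemma Bf_congr (ω ω' : Coins d) (s : ℕ) (h : ∀ q : Fin d × X d, q.1.val < s → ω' q = ω q) :
    Bf ω' s = Bf ω s :=
  Equiv.ext fun p => Bf_agree ω ω' s p fun _ hl => h _ hl

/-- splitting off the coins of layer `s` -/
lemma av_layer {s : ℕ} (h : s < d) (F : (X d → Bool) → Coins d → ℝ)
    (hF : ∀ ε ω ω', (∀ q : Fin d × X d, q.1.val < s → ω' q = ω q) → F ε ω' = F ε ω) :
    av (fun ω : Coins d => F (fun p => ω (⟨s, h⟩, p)) ω)
      = av (fun ω : Coins d => av (fun ε => F ε ω)) := by
  let e : Coins d × (X d → Bool) ≃ Coins d × (X d → Bool) :=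
    Function.Involutive.toPerm
      (fun z => (fun q => if q.1 = ⟨s, h⟩ then z.2 q.2 else z.1 q, fun p => z.1 (⟨s, h⟩, p)))
      (fun z => by
        ext q
        · by_cases hq : q.1 = ⟨s, h⟩
          · simp only [hq, if_true]; rw [← hq]
          · simp [hq]
        · simp)
  rw [← av_prod (fun z : Coins d × (X d → Bool) => F z.2 z.1), ← av_equiv e, av_prod]
  refine av_congr fun ω => ?_
  rw [← av_const (α := X d → Bool) (F (fun p => ω (⟨s, h⟩, p)) ω)]
  refine av_congr fun ε => ?_
  refine (hF _ _ _ fun q hq => ?_).symm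
  change (if q.1 = ⟨s, h⟩ then ε q.2 else ω q) = ω q
  rw [if_neg]
  intro e; rw [e] at hq; simp at hq

section ops
variable {𝒳 : Type*} [MulAction (Equiv.Perm (X d)) 𝒳]

/-- averaging operator of one layer -/
noncomputable def Pop (l : Fin d) (f : 𝒳 → ℝ) (x : 𝒳) : ℝ := av fun ε => f (H l ε • x)

/-- averaging operator of the first `s` layers -/
noncomputable def Qs (d s : ℕ) {𝒳 : Type*} [MulAction (Equiv.Perm (X d)) 𝒳] (f : 𝒳 → ℝ)
    (x : 𝒳) : ℝ := av fun ω : Coins d => f (Bf ω s • x)

/-- averaging operator of one full butterfly round -/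
noncomputable def Qop (d : ℕ) {𝒳 : Type*} [MulAction (Equiv.Perm (X d)) 𝒳] (f : 𝒳 → ℝ) :
    𝒳 → ℝ := Qs d d f

lemma Qs_zero (f : 𝒳 → ℝ) : Qs d 0 f = f := by
  funext x; simp [Qs, Bf_zero, av_const]

lemma Qs_succ {s : ℕ} (h : s < d) (f : 𝒳 → ℝ) : Qs d (s + 1) f = Qs d s (Pop ⟨s, h⟩ f) := by
  funext x
  simp only [Qs, Pop, Bf_succ _ h, mul_smul]
  exact av_layer h (fun ε ω => f (H ⟨s, h⟩ ε • Bf ω s • x))
    fun ε ω ω' hq => by rw [Bf_congr ω ω' s hq]

lemma Pop_H (l : Fin d) (f : 𝒳 → ℝ) (δ : X d → Bool) (x : 𝒳) :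
    Pop l f (H l δ • x) = Pop l f x := by
  simp only [Pop, ← mul_smul, H_mul_H]
  refine av_bij (e := fun ε : X d → Bool => fun p => xor (ε p) (δ p)) ?_ (fun ε => f (H l ε • x))
  exact Function.Involutive.bijective fun ε => by funext p; simp

end ops

/-- unnormalised average over the permutations fixing `T` pointwise (acting on the right) -/
noncomputable def ET (T : Finset (X d)) (f : Equiv.Perm (X d) → ℝ) (g : Equiv.Perm (X d)) : ℝ :=
  ∑ σ ∈ Finset.univ.filter (fun σ : Equiv.Perm (X d) => ∀ i ∈ T, σ i = i), f (g * σ)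

/-- number of cycles of `σ` that meet the half `{p | p s = true}` -/
noncomputable def cycCount (s : Fin d) (σ : Equiv.Perm (X d)) : ℕ :=
  ((Finset.univ.filter (fun p : X d => p s = true)).image
    (fun p => Finset.univ.filter (fun q => σ.SameCycle p q))).card

end Vale.Agent.P162
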