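import Vale.Agent.P162.CasimirSpec

/-! Task C1: two facts about the degree filtration on the symmetric group.
See notes/P162_proof.md, section C1. -/

namespace Vale.Agent.P162

open Finset

variable {d : ℕ}

/-- pointwise stabiliser -/
def Stab (T : Finset (X d)) : Finset (Equiv.Perm (X d)) :=
  Finset.univ.filter (fun σ : Equiv.Perm (X d) => ∀ i ∈ T, σ i = i)

lemma mem_Stab {T : Finset (X d)} {σ : Equiv.Perm (X d)} : σ ∈ Stab T ↔ ∀ i ∈ T, σ i = i := by
  simp [Stab]

lemma ET_eq (T : Finset (X d)) (f : Equiv.Perm (X d) → ℝ) (g : Equiv.Perm (X d)) :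
    ET T f g = ∑ σ ∈ Stab T, f (g * σ) := rfl

lemma Stab_mul {T : Finset (X d)} {σ τ : Equiv.Perm (X d)} (h1 : σ ∈ Stab T) (h2 : τ ∈ Stab T) :
    σ * τ ∈ Stab T := by
  rw [mem_Stab] at *
  intro i hi
  rw [Equiv.Perm.mul_apply, h2 i hi, h1 i hi]

lemma Stab_inv {T : Finset (X d)} {σ : Equiv.Perm (X d)} (h1 : σ ∈ Stab T) : σ⁻¹ ∈ Stab T := by
  rw [mem_Stab] at *
  intro i hi
  rw [Equiv.Perm.inv_eq_iff_eq, h1 i hi]

lemma Stab_maps {Z : Finset (X d)} {σ : Equiv.Perm (X d)} (h : σ ∈ Stab Zᶜ) {p : X d} :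
    σ p ∈ Z ↔ p ∈ Z := by
  rw [mem_Stab] at h
  constructor
  · intro hp
    by_contra hn
    rw [h p (Finset.mem_compl.2 hn)] at hp
    exact hn hp
  · intro hp
    by_contra hn
    have := σ.injective (h _ (Finset.mem_compl.2 hn))
    rw [this] at hn
    exact hn hp

lemma Stab_mono {Z Z' : Finset (X d)} (h : Z ⊆ Z') : Stab Zᶜ ⊆ Stab Z'ᶜ := by
  intro σ hσ
  rw [mem_Stab] at *
  intro i hi
  exact hσ i (Finset.mem_compl.2 fun h' => Finset.mem_compl.1 hi (h h'))

lemma swap_mem_Stab {Z : Finset (X d)} {p q : X d} (hp : p ∈ Z) (hq : q ∈ Z) :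
    Equiv.swap p q ∈ Stab Zᶜ := by
  rw [mem_Stab]
  intro i hi
  rw [Finset.mem_compl] at hi
  exact Equiv.swap_apply_of_ne_of_ne (fun h => hi (h ▸ hp)) (fun h => hi (h ▸ hq))

lemma Stab_comm {Z Z' : Finset (X d)} (h : Disjoint Z Z') {σ τ : Equiv.Perm (X d)}
    (h1 : σ ∈ Stab Zᶜ) (h2 : τ ∈ Stab Z'ᶜ) : σ * τ = τ * σ := by
  apply Equiv.Perm.Disjoint.commute
  intro x
  by_cases hx : x ∈ Z
  · exact Or.inr (mem_Stab.1 h2 x (Finset.mem_compl.2 (Finset.disjoint_left.1 h hx)))
  · exact Or.inl (mem_Stab.1 h1 x (Finset.mem_compl.2 hx))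

lemma ET_mul {T : Finset (X d)} (f : Equiv.Perm (X d) → ℝ) (g : Equiv.Perm (X d))
    {σ : Equiv.Perm (X d)} (h : σ ∈ Stab T) : ET T f (g * σ) = ET T f g := by
  rw [ET_eq, ET_eq]
  refine Finset.sum_nbij' (fun τ => σ * τ) (fun τ => σ⁻¹ * τ) (fun τ hτ => Stab_mul h hτ)
    (fun τ hτ => Stab_mul (Stab_inv h) hτ) (fun τ _ => by simp) (fun τ _ => by simp)
    (fun τ _ => by rw [mul_assoc])

lemma card_Stab (T : Finset (X d)) : (Stab T).card = (2 ^ d - T.card).factorial := by
  have e := Equiv.Perm.subtypeEquivSubtypePerm (fun i : X d => i ∉ T)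
  have h1 := Fintype.card_congr e
  rw [Fintype.card_perm, Fintype.card_subtype_compl, Fintype.card_subtype, Fintype.card_subtype]
    at h1
  simp only [Finset.filter_mem_eq_inter, Finset.univ_inter, Fintype.card_pi, Fintype.card_bool,
    Finset.prod_const, Finset.card_univ, Fintype.card_fin, not_not] at h1
  rw [h1]; rfl

lemma ET_ET (T : Finset (X d)) (f : Equiv.Perm (X d) → ℝ) (g : Equiv.Perm (X d)) :
    ET T (ET T f) g = ((2 ^ d - T.card).factorial : ℝ) * ET T f g := by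
  rw [ET_eq T (ET T f), Finset.sum_congr rfl (fun σ hσ => ET_mul f g hσ), Finset.sum_const,
    card_Stab, nsmul_eq_mul]

lemma ET_symm (T : Finset (X d)) (f h : Equiv.Perm (X d) → ℝ) :
    ∑ g, ET T f g * h g = ∑ g, f g * ET T h g := by
  simp only [ET_eq, Finset.sum_mul, Finset.mul_sum]
  rw [Finset.sum_comm, Finset.sum_comm (s := Finset.univ)]
  refine Finset.sum_nbij' (fun τ => τ⁻¹) (fun τ => τ⁻¹) (fun τ hτ => Stab_inv hτ)
    (fun τ hτ => Stab_inv hτ) (fun τ _ => by simp) (fun τ _ => by simp) (fun τ _ => ?_)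
  rw [← Equiv.sum_comp (Equiv.mulRight τ)  (fun g => f g * h (g * τ⁻¹))]
  simp

lemma ET_conj (T : Finset (X d)) (f : Equiv.Perm (X d) → ℝ) (g τ : Equiv.Perm (X d)) :
    ET (T.map τ.toEmbedding) (fun x => f (x * τ)) g = ET T f (g * τ) := by
  rw [ET_eq, ET_eq]
  refine Finset.sum_nbij' (fun σ => τ⁻¹ * σ * τ) (fun σ => τ * σ * τ⁻¹) (fun σ hσ => ?_)
    (fun σ hσ => ?_) (fun σ _ => by group) (fun σ _ => by group) (fun σ _ => by group)
  · rw [mem_Stab] at *
    intro i hi
    have := hσ (τ i) (Finset.mem_map_of_mem _ hi)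
    simp [this]
  · rw [mem_Stab] at *
    intro i hi
    obtain ⟨j, hj, rfl⟩ := Finset.mem_map.1 hi
    simp [hσ j hj]

lemma sum_ET_comm (k : ℕ) (f : Equiv.Perm (X d) → ℝ) (g τ : Equiv.Perm (X d)) :
    ∑ T ∈ Finset.univ.powersetCard k, ET T (fun x => f (x * τ)) g =
      ∑ T ∈ Finset.univ.powersetCard k, ET T f (g * τ) := by
  symm
  refine Finset.sum_nbij' (fun T => T.map τ.toEmbedding) (fun T => T.map τ⁻¹.toEmbedding)
    (fun T hT => by simpa using hT) (fun T hT => by simpa using hT)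
    (fun T _ => by simp [Finset.map_map]) (fun T _ => by simp [Finset.map_map])
    (fun T _ => (ET_conj T f g τ).symm)

lemma ET_insert {R : Finset (X d)} {i : X d} (hi : i ∉ R) (v : Equiv.Perm (X d) → ℝ)
    (g : Equiv.Perm (X d)) :
    ET (insert i R)ᶜ v g = ∑ j ∈ insert i R, ET Rᶜ v (g * Equiv.swap i j) := by
  rw [ET_eq, ← Finset.sum_fiberwise_of_maps_to (t := insert i R) (g := fun τ => τ i)
    (fun τ hτ => (Stab_maps hτ).2 (Finset.mem_insert_self i R))]
  refine Finset.sum_congr rfl fun j hj => ?_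
  have hs := swap_mem_Stab (Finset.mem_insert_self i R) hj
  rw [ET_eq]
  refine Finset.sum_nbij' (fun τ => Equiv.swap i j * τ) (fun τ => Equiv.swap i j * τ)
    (fun τ hτ => ?_) (fun τ hτ => ?_) (fun τ _ => by simp) (fun τ _ => by simp)
    (fun τ _ => by simp [mul_assoc])
  · obtain ⟨h1, h2⟩ := Finset.mem_filter.1 hτ
    have h3 := mem_Stab.1 (Stab_mul hs h1)
    rw [mem_Stab]
    intro x hx
    by_cases hxi : x = i
    · rw [hxi, Equiv.Perm.mul_apply, h2, Equiv.swap_apply_right]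
    · exact h3 x (by simpa [hxi] using hx)
  · refine Finset.mem_filter.2 ⟨Stab_mul hs (Stab_mono (Finset.subset_insert i R) hτ), ?_⟩
    rw [Equiv.Perm.mul_apply, mem_Stab.1 hτ i (Finset.mem_compl.2 hi), Equiv.swap_apply_left]

lemma sum_swap_conj {Z : Finset (X d)} {σ : Equiv.Perm (X d)} (h : σ ∈ Stab Zᶜ)
    {M : Type*} [AddCommMonoid M] (F : Equiv.Perm (X d) → M) :
    ∑ p ∈ Z, ∑ q ∈ Z, F (Equiv.swap p q * σ) = ∑ p ∈ Z, ∑ q ∈ Z, F (σ * Equiv.swap p q) := by
  symm
  refine Finset.sum_nbij' σ σ.symm (fun p hp => (Stab_maps h).2 hp)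
    (fun p hp => (Stab_maps (Stab_inv h)).2 hp) (fun p _ => by simp) (fun p _ => by simp)
    (fun p _ => ?_)
  refine Finset.sum_nbij' σ σ.symm (fun p hp => (Stab_maps h).2 hp)
    (fun p hp => (Stab_maps (Stab_inv h)).2 hp) (fun p _ => by simp) (fun p _ => by simp)
    (fun q _ => ?_)
  rw [Equiv.mul_swap_eq_swap_mul]

theorem casimir' (m : ℕ) : ∀ (Z : Finset (X d)), Z.card = m → ∀ (r : ℕ)
    (v : Equiv.Perm (X d) → ℝ) (θ : ℝ), v ≠ 0 →
    (∀ g, ∑ p ∈ Z, ∑ q ∈ Z, v (g * Equiv.swap p q) = θ * v g) →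
    (∀ R ⊆ Z, R.card = r + 1 → ET Rᶜ v = 0) → θ ≤ Z.card * (r : ℝ) := by
  induction m using Nat.strong_induction_on with
  | _ m ihm =>
  intro Z hZ r v θ hv hT
  induction r with
  | zero =>
    intro h0
    obtain ⟨g, hg⟩ := Function.ne_iff.1 hv
    rcases Z.eq_empty_or_nonempty with rfl | ⟨p, hp⟩
    · have := hT g
      simp only [Finset.sum_empty] at this
      rcases mul_eq_zero.1 this.symm with h | h
      · simp [h]
      · exact absurd h hg
    · exfalso
      have h1 := congrFun (h0 (insert p ∅) (by simpa using hp) (by simp)) g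
      rw [ET_insert (by simp)] at h1
      have h2 : Stab (∅ : Finset (X d))ᶜ = {1} := by
        ext σ
        simp [mem_Stab, Equiv.ext_iff]
      rw [Finset.insert_empty, Finset.sum_singleton, ET_eq, h2, Finset.sum_singleton,
        Equiv.swap_self] at h1
      exact hg h1
  | succ r ih =>
    intro h0
    by_cases hall : ∀ R ⊆ Z, R.card = r + 1 → ET Rᶜ v = 0
    · refine (ih hall).trans (mul_le_mul_of_nonneg_left ?_ (Nat.cast_nonneg _))
      push_cast; linarith
    push Not at hall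
    obtain ⟨R, hR, hRc, hw⟩ := hall
    set w := ET Rᶜ v with hwdef
    have a1 : ∀ g, ∑ p ∈ Z, ∑ q ∈ Z, w (g * Equiv.swap p q) = θ * w g := by
      intro g
      simp only [hwdef, ET_eq, Finset.mul_sum]
      rw [Finset.sum_congr rfl (fun p _ => Finset.sum_comm), Finset.sum_comm]
      refine Finset.sum_congr rfl fun σ hσ => ?_
      rw [← hT]
      simpa only [mul_assoc] using sum_swap_conj (Stab_mono hR hσ) (fun x => v (g * x))
    have a2 : ∀ R' ⊆ Z \ R, R'.card = r + 1 + 1 → ET R'ᶜ w = 0 := by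
      intro R' hR' hc
      funext g
      have hd : Disjoint R' R := Finset.disjoint_of_subset_left hR' Finset.sdiff_disjoint
      have hz := h0 R' (hR'.trans Finset.sdiff_subset) hc
      simp only [hwdef, ET_eq]
      rw [Finset.sum_comm]
      refine Finset.sum_eq_zero fun σ hσ => ?_
      refine Eq.trans ?_ (congrFun hz (g * σ))
      rw [ET_eq]
      exact Finset.sum_congr rfl fun τ hτ => by rw [mul_assoc, Stab_comm hd hτ hσ, mul_assoc]
    have a3 : ∀ g, ∀ i ∈ Z \ R, ∑ j ∈ R, w (g * Equiv.swap i j) = -w g := by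
      intro g i hi
      obtain ⟨hi1, hi2⟩ := Finset.mem_sdiff.1 hi
      have h1 := congrFun (h0 (insert i R) (Finset.insert_subset hi1 hR)
        (by rw [Finset.card_insert_of_notMem hi2, hRc])) g
      rw [ET_insert hi2, Finset.sum_insert hi2, Equiv.swap_self] at h1
      change w (g * 1) + _ = 0 at h1
      rw [mul_one] at h1
      linarith
    have a4 : ∀ g, ∑ p ∈ Z \ R, ∑ q ∈ Z \ R, w (g * Equiv.swap p q) =
        (θ - ((r : ℝ) + 1) ^ 2 + 2 * (Z \ R).card) * w g := by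
      intro g
      have b1 := a1 g
      rw [← Finset.sum_sdiff hR] at b1
      simp only [← Finset.sum_sdiff hR, Finset.sum_add_distrib] at b1
      have b2 : ∑ p ∈ Z \ R, ∑ q ∈ R, w (g * Equiv.swap p q) = (Z \ R).card * -w g := by
        rw [Finset.sum_congr rfl (a3 g), Finset.sum_const, nsmul_eq_mul]
      have b3 : ∑ p ∈ R, ∑ q ∈ Z \ R, w (g * Equiv.swap p q) = (Z \ R).card * -w g := by
        rw [Finset.sum_comm, ← b2]
        simp only [Equiv.swap_comm]
      have b4 : ∑ p ∈ R, ∑ q ∈ R, w (g * Equiv.swap p q) = ((r : ℝ) + 1) ^ 2 * w g := by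
        rw [Finset.sum_congr rfl (fun p hp => Finset.sum_congr rfl (fun q hq =>
          ET_mul v g (swap_mem_Stab hp hq)))]
        simp only [Finset.sum_const, hRc, nsmul_eq_mul]
        push_cast; ring
      rw [b2, b3, b4] at b1
      linarith
    have hc : (Z \ R).card + (r + 1) = Z.card := by
      rw [← hRc]; exact Finset.card_sdiff_add_card_eq_card hR
    have a5 := ihm (Z \ R).card (by omega) (Z \ R) rfl (r + 1) w _ hw a4 a2
    have hc' : ((Z \ R).card : ℝ) + (r + 1) = Z.card := by exact_mod_cast hc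
    rw [← hc']
    push_cast at *
    nlinarith [(Nat.cast_nonneg (Z \ R).card : (0 : ℝ) ≤ _)]

/-- eigenvalues of the sum of transpositions on functions with no invariant part -/
theorem casimir (Z : Finset (X d)) (r : ℕ) (v : Equiv.Perm (X d) → ℝ) (θ : ℝ) (hv : v ≠ 0)
    (hT : ∀ g, ∑ p ∈ Z, ∑ q ∈ Z.erase p, v (g * Equiv.swap p q) = θ * v g)
    (h0 : ∀ R ⊆ Z, R.card = r + 1 → ET Rᶜ v = 0) :
    θ ≤ Z.card * ((r : ℝ) - 1) := by
  have := casimir' _ Z rfl r v (θ + Z.card) hv (fun g => by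
    rw [add_mul, ← hT g, ← nsmul_eq_mul, ← Finset.sum_const, ← Finset.sum_add_distrib]
    refine Finset.sum_congr rfl fun p hp => ?_
    rw [← Finset.sum_erase_add _ _ hp, Equiv.swap_self]
    rfl) h0
  linarith

/-- `ET T` as a linear map on Euclidean space -/
noncomputable def ETL (T : Finset (X d)) :
    EuclideanSpace ℝ (Equiv.Perm (X d)) →ₗ[ℝ] EuclideanSpace ℝ (Equiv.Perm (X d)) where
  toFun f := WithLp.toLp 2 (ET T f.ofLp)
  map_add' f h := by ext g; simp [ET_eq, Finset.sum_add_distrib]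
  map_smul' c f := by ext g; simp [ET_eq, Finset.mul_sum]

lemma ETL_apply (T : Finset (X d)) (f : EuclideanSpace ℝ (Equiv.Perm (X d))) :
    (ETL T f).ofLp = ET T f.ofLp := rfl

lemma inner_eq {α : Type*} [Fintype α] (x y : EuclideanSpace ℝ α) :
    inner ℝ x y = ∑ g, x.ofLp g * y.ofLp g := by
  simp [PiLp.inner_apply, mul_comm]

/-- frame bound: a function orthogonal to the common kernel of the `ET T`, `|T| = k`,
is controlled by its marginals -/
theorem frame (k : ℕ) (f : Equiv.Perm (X d) → ℝ)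
    (hf : ∀ h : Equiv.Perm (X d) → ℝ, (∀ T : Finset (X d), T.card = k → ET T h = 0) →
      ∑ g, f g * h g = 0) :
    ((2 ^ d - k).factorial : ℝ) ^ 2 * ∑ g, f g ^ 2
      ≤ ∑ T ∈ Finset.univ.powersetCard k, ∑ g, ET T f g ^ 2 := by
  have := frame_abs (Finset.univ.powersetCard k) (ETL (d := d)) ((2 ^ d - k).factorial : ℝ)
    (by exact_mod_cast Nat.factorial_pos _)
    (fun T x y => by rw [inner_eq, inner_eq]; exact ET_symm T _ _)
    (fun T hT x => by
      ext g
      rw [← (Finset.mem_powersetCard.1 hT).2]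
      exact ET_ET T _ g)
    (fun T _ x => by
      ext g
      simp only [LinearMap.sum_apply, WithLp.ofLp_sum, Finset.sum_apply, ETL_apply, ET_eq T]
      rw [← Finset.sum_congr rfl (fun σ _ => sum_ET_comm k x.ofLp g σ), Finset.sum_comm]
      refine Finset.sum_congr rfl fun T' _ => ?_
      simp only [ET_eq]
      rw [Finset.sum_comm])
    (WithLp.toLp 2 f) (fun h hh => by
      rw [inner_eq]
      exact hf h.ofLp fun T hT => congrArg WithLp.ofLp (hh T (by simp [hT])))
  simpa only [EuclideanSpace.real_norm_sq_eq, ETL_apply] using this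

end Vale.Agent.P162
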