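import Vale.Agent.P162.Basic

/-! Spectral decomposition on an invariant subspace, and the abstract frame bound. -/

namespace Vale.Agent.P162

open Finset
open scoped InnerProductSpace

variable {E : Type*} [NormedAddCommGroup E] [InnerProductSpace ℝ E] [FiniteDimensional ℝ E]

theorem spec (A : E →ₗ[ℝ] E) (hA : A.IsSymmetric) (K : Submodule ℝ E) (hK : ∀ x ∈ K, A x ∈ K) :
    ∃ (n : ℕ) (b : Fin n → E) (θ : Fin n → ℝ), (∀ i, b i ≠ 0 ∧ b i ∈ K ∧ A (b i) = θ i • b i) ∧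
      ∀ f ∈ K, ∀ (B : E →ₗ[ℝ] E) (φ : Fin n → ℝ), (∀ i, B (b i) = φ i • b i) →
        ⟪f, B f⟫_ℝ = ∑ i, φ i * ⟪b i, f⟫_ℝ ^ 2 := by
  have hA' : (A.restrict hK).IsSymmetric := hA.restrict_invariant hK
  let b := hA'.eigenvectorBasis rfl
  refine ⟨_, fun i => (b i : E), hA'.eigenvalues rfl, fun i => ⟨?_, (b i).2, ?_⟩, ?_⟩
  · intro h
    have h1 : ‖b i‖ = 1 := b.orthonormal.1 i
    have h2 : b i = 0 := Subtype.ext h
    rw [h2, norm_zero] at h1
    exact zero_ne_one h1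
  · exact congrArg Subtype.val (hA'.apply_eigenvectorBasis rfl i)
  · intro f hf B φ hB
    have h1 : ∑ i, ⟪(b i : E), f⟫_ℝ • (b i : E) = f := by
      have := congrArg Subtype.val (b.sum_repr' ⟨f, hf⟩)
      simpa using this
    conv_lhs => rw [← h1, map_sum]
    rw [h1, inner_sum]
    refine Finset.sum_congr rfl fun i _ => ?_
    rw [map_smul, hB, inner_smul_right, inner_smul_right, real_inner_comm]
    ring

theorem frame_abs {ι : Type*} (I : Finset ι) (P : ι → E →ₗ[ℝ] E) (c : ℝ) (hc : 0 < c)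
    (hs : ∀ i, (P i).IsSymmetric) (hp : ∀ i ∈ I, ∀ x, P i (P i x) = c • P i x)
    (hcomm : ∀ i ∈ I, ∀ x, (∑ j ∈ I, P j) (P i x) = P i ((∑ j ∈ I, P j) x)) (f : E)
    (hf : ∀ h, (∀ i ∈ I, P i h = 0) → ⟪f, h⟫_ℝ = 0) :
    c ^ 2 * ‖f‖ ^ 2 ≤ ∑ i ∈ I, ‖P i f‖ ^ 2 := by
  have hS : (∑ j ∈ I, P j).IsSymmetric := by
    intro x y
    simp only [LinearMap.sum_apply, sum_inner, inner_sum]
    exact Finset.sum_congr rfl fun i _ => hs i x y
  have h1 : ∀ x, ∑ i ∈ I, ‖P i x‖ ^ 2 = c * ⟪x, (∑ j ∈ I, P j) x⟫_ℝ := by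
    intro x
    rw [LinearMap.sum_apply, inner_sum, Finset.mul_sum]
    refine Finset.sum_congr rfl fun i hi => ?_
    rw [← real_inner_self_eq_norm_sq, hs i, hp i hi, inner_smul_right]
  obtain ⟨n, b, θ, hb, hB⟩ := spec _ hS ⊤ (fun _ _ => Submodule.mem_top)
  have h2 := hB f Submodule.mem_top LinearMap.id (fun _ => 1) (fun i => by simp)
  have h3 := hB f Submodule.mem_top _ θ (fun i => (hb i).2.2)
  rw [LinearMap.id_apply, real_inner_self_eq_norm_sq] at h2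
  rw [h1, h3, h2, sq c, mul_assoc]
  refine mul_le_mul_of_nonneg_left ?_ hc.le
  rw [Finset.mul_sum]
  refine Finset.sum_le_sum fun i _ => ?_
  by_cases h : ∀ j ∈ I, P j (b i) = 0
  · rw [real_inner_comm, hf _ h]; simp
  · push Not at h
    obtain ⟨j, hj, hx⟩ := h
    rw [one_mul]
    refine mul_le_mul_of_nonneg_right ?_ (sq_nonneg _)
    have e1 : (∑ j ∈ I, P j) (P j (b i)) = θ i • P j (b i) := by
      rw [hcomm j hj, (hb i).2.2, map_smul]
    have e2 := h1 (P j (b i))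
    rw [e1, inner_smul_right, real_inner_self_eq_norm_sq] at e2
    have e3 := Finset.single_le_sum (f := fun k => ‖P k (P j (b i))‖ ^ 2)
      (fun k _ => sq_nonneg _) hj
    rw [e2, hp j hj, norm_smul, mul_pow, Real.norm_eq_abs, sq_abs] at e3
    have e4 : 0 < c * ‖P j (b i)‖ ^ 2 := mul_pos hc (pow_pos (norm_pos_iff.2 hx) 2)
    by_contra h5
    nlinarith [mul_lt_mul_of_pos_right (not_le.1 h5) e4]

end Vale.Agent.P162
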