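import Vale.Agent.P162.Basic

/-! Task A1: exponential moment of the number of cycles. See notes/P162_proof.md, section A1. -/

namespace Vale.Agent.P162

open Finset

variable {d : ℕ}

/-- the coins of the layers below `a` -/
def low (d a : ℕ) : Finset (Fin d × X d) := Finset.univ.filter (fun q => q.1.val < a)

namespace Cyc

lemma cyc_const {α β : Type*} [Finite α] {σ : Equiv.Perm α} {θ : α → β}
    (h : ∀ p, θ (σ p) = θ p) {p q : α} (hpq : σ.SameCycle p q) : θ p = θ q := by
  obtain ⟨i, -, hi⟩ := hpq.exists_pow_eq'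
  rw [← hi]
  clear hi
  induction i with
  | zero => rfl
  | succ i ih => rw [pow_succ', Equiv.Perm.mul_apply, h]; exact ih

/-- branching levels of `p` in the trie of `C` -/
noncomputable def br (out : X d → X d) (C : Finset (X d)) (p : X d) : Finset (Fin d) := by
  classical
  exact Finset.univ.filter
    (fun l : Fin d => ∃ q ∈ C, (∀ i < l, out q i = out p i) ∧ out q l ≠ out p l)

lemma mem_br {out : X d → X d} {C : Finset (X d)} {p : X d} {l : Fin d} :
    l ∈ br out C p ↔ ∃ q ∈ C, (∀ i < l, out q i = out p i) ∧ out q l ≠ out p l := by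
  classical
  simp [br]

lemma trie (out : X d → X d) (n : ℕ) : ∀ C : Finset (X d), C.card = n → C.Nonempty →
    ∃ p ∈ C, 2 ^ (br out C p).card ≤ C.card := by
  classical
  induction n using Nat.strong_induction_on with
  | _ n ih =>
    intro C hn hC
    by_cases h : (Finset.univ.filter
        (fun l : Fin d => ∃ q ∈ C, ∃ p ∈ C, out q l ≠ out p l)).Nonempty
    · obtain ⟨l0, hl0, hmin⟩ := Finset.exists_min_image _ id h
      obtain ⟨q0, hq0, p0, hp0, hne⟩ := (Finset.mem_filter.1 hl0).2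
      have hne' : ∀ β : Bool, (C.filter (fun q => out q l0 = β)).Nonempty := by
        intro β
        by_cases e : out q0 l0 = β
        · exact ⟨q0, Finset.mem_filter.2 ⟨hq0, e⟩⟩
        · refine ⟨p0, Finset.mem_filter.2 ⟨hp0, ?_⟩⟩
          revert e hne
          cases out q0 l0 <;> cases out p0 l0 <;> cases β <;> simp
      have hsum := Finset.card_filter_add_card_filter_not (s := C) (fun q => out q l0 = true)
      simp only [Bool.not_eq_true] at hsum
      obtain ⟨β, hβ⟩ : ∃ β : Bool, 2 * (C.filter (fun q => out q l0 = β)).card ≤ C.card := by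
        by_cases e : 2 * (C.filter (fun q => out q l0 = true)).card ≤ C.card
        · exact ⟨true, e⟩
        · exact ⟨false, by omega⟩
      have hpos := Finset.card_pos.2 (hne' β)
      obtain ⟨p, hp, hp2⟩ := ih _ (by omega) _ rfl (hne' β)
      obtain ⟨hpC, hpβ⟩ := Finset.mem_filter.1 hp
      refine ⟨p, hpC, ?_⟩
      have hsub : br out C p ⊆ insert l0 (br out (C.filter (fun q => out q l0 = β)) p) := by
        intro l hl
        obtain ⟨q, hq, h1, h2⟩ := mem_br.1 hl
        have h3 : l0 ≤ l := hmin l (Finset.mem_filter.2 ⟨Finset.mem_univ _, q, hq, p, hpC, h2⟩)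
        rcases h3.eq_or_lt with e | e
        · rw [← e]; exact Finset.mem_insert_self _ _
        · refine Finset.mem_insert_of_mem (mem_br.2 ⟨q, Finset.mem_filter.2 ⟨hq, ?_⟩, h1, h2⟩)
          rw [h1 l0 e, hpβ]
      have h4 := (Finset.card_le_card hsub).trans (Finset.card_insert_le _ _)
      have h5 := Nat.pow_le_pow_right (n := 2) (by norm_num) h4
      rw [pow_succ] at h5
      omega
    · obtain ⟨p, hp⟩ := hC
      refine ⟨p, hp, ?_⟩
      have : br out C p = ∅ := by
        refine Finset.eq_empty_of_forall_notMem fun l hl => h ⟨l, ?_⟩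
        obtain ⟨q, hq, -, h2⟩ := mem_br.1 hl
        exact Finset.mem_filter.2 ⟨Finset.mem_univ _, q, hq, p, hp, h2⟩
      rw [this]
      exact Finset.card_pos.2 ⟨p, hp⟩

/-- the partner of `p` at layer `l` -/
def par (W : Coins d) (l : Fin d) (p : X d) : X d := (Bf W l)⁻¹ (flip l (Bf W l p))

/-- the switch used by `p` at layer `l` -/
def sw (W : Coins d) (l : Fin d) (p : X d) : Fin d × X d := (l, bar l (Bf W l p))

lemma Bf_par (W : Coins d) (l : Fin d) (p : X d) : Bf W l (par W l p) = flip l (Bf W l p) := by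
  simp [par]

lemma par_high (W : Coins d) {l s : Fin d} (h : l < s) (p : X d) : par W l p s = p s := by
  rw [← Bf_high W l (par W l p) s h.le, Bf_par, flip_ne h.ne', Bf_high W l p s h.le]

lemma par_self (W : Coins d) (l : Fin d) (p : X d) : par W l p l = !p l := by
  rw [← Bf_high W l (par W l p) l le_rfl, Bf_par, flip_self, Bf_high W l p l le_rfl]

lemma sw_par (W : Coins d) (l : Fin d) (p : X d) : sw W l (par W l p) = sw W l p := by
  rw [sw, Bf_par, bar_flip, sw]

lemma sw_eq {W : Coins d} {l l' : Fin d} {p q : X d} (h : sw W l' p = sw W l q) :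
    l' = l ∧ (q = p ∨ q = par W l' p) := by
  obtain ⟨rfl, h2⟩ := Prod.mk.inj h
  refine ⟨rfl, ?_⟩
  rcases eq_or_flip_of_bar_eq h2 with e | e
  · exact Or.inl ((Bf W l').injective e)
  · exact Or.inr ((Bf W l').injective (by rw [e, Bf_par]))

lemma out_bit (W : Coins d) {l : Fin d} {s : ℕ} (h : l.val < s) (p : X d) :
    Bf W s p l = xor (p l) (W (sw W l p)) := by
  rw [Bf_low W (j := l.val + 1) h p l (by omega), Bf_succ W l.2, Equiv.Perm.mul_apply, H_self,
    Bf_high W l p _ le_rfl]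
  rfl

lemma par_mem_br (W : Coins d) {l : Fin d} {s : ℕ} (h : l.val < s) {C : Finset (X d)} {p : X d}
    (hp : par W l p ∈ C) : l ∈ br (Bf W s) C p := by
  refine mem_br.2 ⟨_, hp, fun i hi => ?_, ?_⟩
  · rw [Bf_low W h.le _ i hi, Bf_low W h.le _ i hi, Bf_par, flip_ne hi.ne]
  · rw [out_bit W h, out_bit W h, sw_par, par_self]
    cases p l <;> cases W (sw W l p) <;> simp

/-- the permutation whose cycles are counted -/
def sig (ψ : Equiv.Perm (X d)) (s : Fin d) (W : Coins d) : Equiv.Perm (X d) :=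
  ψ * ((Bf W s)⁻¹ * flipP s * Bf W s)

lemma sig_apply (ψ : Equiv.Perm (X d)) (s : Fin d) (W : Coins d) (p : X d) :
    sig ψ s W p = ψ (par W s p) := rfl

lemma sig_bit {ψ : Equiv.Perm (X d)} {s : Fin d} (hψ : ∀ p, ψ p s = !(p s)) (W : Coins d)
    (p : X d) : sig ψ s W p s = p s := by
  rw [sig_apply, hψ, par_self]
  simp

/-- the counted pairs -/
noncomputable def Ks (σ : Equiv.Perm (X d)) (W : Coins d) (I : Finset (Fin d))
    (A : Finset (X d)) : Finset (X d × Fin d) := by
  classical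
  exact (A ×ˢ I).filter (fun al => ¬ ∃ a' ∈ A, σ.SameCycle a' (par W al.2 al.1))

lemma mem_Ks {σ : Equiv.Perm (X d)} {W : Coins d} {I : Finset (Fin d)} {A : Finset (X d)}
    {al : X d × Fin d} : al ∈ Ks σ W I A ↔
      (al.1 ∈ A ∧ al.2 ∈ I) ∧ ¬ ∃ a' ∈ A, σ.SameCycle a' (par W al.2 al.1) := by
  classical
  rw [Ks, Finset.mem_filter, Finset.mem_product]

/-- the free switches -/
noncomputable def Fs (σ : Equiv.Perm (X d)) (W : Coins d) (I : Finset (Fin d))
    (A : Finset (X d)) : Finset (Fin d × X d) :=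
  (Ks σ W I A).image (fun al => sw W al.2 al.1)

lemma card_Fs (σ : Equiv.Perm (X d)) (W : Coins d) (I : Finset (Fin d)) (A : Finset (X d)) :
    (Fs σ W I A).card = (Ks σ W I A).card := by
  refine Finset.card_image_of_injOn ?_
  rintro ⟨a, l⟩ h ⟨a', l'⟩ h' e
  obtain ⟨-, h2⟩ := mem_Ks.1 h
  obtain ⟨⟨h3, -⟩, -⟩ := mem_Ks.1 h'
  obtain ⟨e1, e2 | e2⟩ := sw_eq e
  · exact Prod.ext e2.symm e1
  · exact absurd ⟨a', h3, e2 ▸ Equiv.Perm.SameCycle.refl _ _⟩ h2

section uniq
variable {s : Fin d} {ψ : Equiv.Perm (X d)} {I : Finset (Fin d)} {A : Finset (X d)}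

lemma prot (hI : ∀ l ∈ I, l < s) (hA : ∀ a ∈ A, a s = true) {W W'' : Coins d}
    (hW : ∀ q ∉ Fs (sig ψ s W) W I A, W'' q = W q) {q : X d} (hq : q ∉ A)
    (hq2 : q s = false ∨ ∃ a ∈ A, (sig ψ s W).SameCycle a q) : Bf W'' s q = Bf W s q := by
  refine Bf_agree W W'' s q fun l _ => hW (sw W l q) fun h => ?_
  obtain ⟨⟨a, l'⟩, h1, h2⟩ := Finset.mem_image.1 h
  obtain ⟨⟨h3, h4⟩, h5⟩ := mem_Ks.1 h1
  obtain ⟨-, e | e⟩ := sw_eq h2
  · exact hq (e ▸ h3)
  · rcases hq2 with h6 | h6
    · rw [e, par_high W (hI _ h4), hA _ h3] at h6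
      exact absurd h6 (by simp)
    · exact h5 (e ▸ h6)

lemma prot_par (hI : ∀ l ∈ I, l < s) (hA : ∀ a ∈ A, a s = true) {W W'' : Coins d}
    (hW : ∀ q ∉ Fs (sig ψ s W) W I A, W'' q = W q) {u : X d} (hu : u s = false) :
    Bf W'' s u = Bf W s u :=
  prot hI hA hW (fun h => by rw [hA _ h] at hu; exact absurd hu (by simp)) (Or.inl hu)

lemma sig_eq (hψ : ∀ p, ψ p s = !(p s)) (hI : ∀ l ∈ I, l < s) (hA : ∀ a ∈ A, a s = true)
    {W W'' : Coins d} (hW : ∀ q ∉ Fs (sig ψ s W) W I A, W'' q = W q) {p a : X d} (hp : p ∉ A)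
    (ha : a ∈ A) (hap : (sig ψ s W).SameCycle a p) : sig ψ s W'' p = sig ψ s W p := by
  have h1 : p s = true := by
    rw [← cyc_const (θ := fun p => p s) (sig_bit hψ W) hap]
    exact hA a ha
  have h2 := prot hI hA hW hp (Or.inr ⟨a, ha, hap⟩)
  have h3 := prot_par hI hA hW (u := par W s p) (by rw [par_self, h1]; rfl)
  rw [sig_apply, sig_apply]
  congr 1
  refine (Bf W'' s).injective ?_
  rw [h3, Bf_par, Bf_par, h2]

lemma uniq (hψ : ∀ p, ψ p s = !(p s)) (hI : ∀ l ∈ I, l < s) (hA : ∀ a ∈ A, a s = true)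
    {W W' W'' : Coins d}
    (h1 : ∀ a ∈ A, ∀ a' ∈ A, (sig ψ s W).SameCycle a a' → a = a')
    (h1' : ∀ a ∈ A, ∀ a' ∈ A, (sig ψ s W').SameCycle a a' → a = a')
    (hY : A.image (sig ψ s W) = A.image (sig ψ s W'))
    (hW : ∀ q ∉ Fs (sig ψ s W) W I A, W'' q = W q)
    (hW' : ∀ q ∉ Fs (sig ψ s W') W' I A, W'' q = W' q) : W = W' := by
  classical
  have k1 : ∀ a ∈ A, sig ψ s W a = sig ψ s W' a := by
    intro a ha
    have hy : sig ψ s W a ∈ A.image (sig ψ s W') := hY ▸ Finset.mem_image_of_mem _ ha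
    obtain ⟨a', ha', e⟩ := Finset.mem_image.1 hy
    have c1 : ∀ j : ℕ, (sig ψ s W).SameCycle a ((sig ψ s W ^ j) (sig ψ s W a)) := fun j => by
      simp [Equiv.Perm.SameCycle.refl]
    have c2 : ∀ j : ℕ, (sig ψ s W').SameCycle a' ((sig ψ s W' ^ j) (sig ψ s W a)) := fun j => by
      rw [← e]; simp [Equiv.Perm.SameCycle.refl]
    have hex : ∃ i : ℕ, (sig ψ s W ^ i) (sig ψ s W a) ∈ A := by
      have : (sig ψ s W).SameCycle (sig ψ s W a) a := by simp [Equiv.Perm.SameCycle.refl]
      obtain ⟨i, -, hi⟩ := this.exists_pow_eq'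
      exact ⟨i, hi.symm ▸ ha⟩
    have c3 : ∀ j ≤ Nat.find hex,
        (sig ψ s W ^ j) (sig ψ s W a) = (sig ψ s W' ^ j) (sig ψ s W a) := by
      intro j
      induction j with
      | zero => intro _; rfl
      | succ j ih =>
        intro hj
        have e1 := ih (by omega)
        have hn := Nat.find_min hex (m := j) (by omega)
        rw [pow_succ', pow_succ', Equiv.Perm.mul_apply, Equiv.Perm.mul_apply,
          ← sig_eq hψ hI hA hW hn ha (c1 j), ← sig_eq hψ hI hA hW' (e1 ▸ hn) ha' (c2 j), e1]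
    have t1 := h1 a ha _ (Nat.find_spec hex) (c1 _)
    have t2 := h1' a' ha' _ (Nat.find_spec hex) (c3 _ le_rfl ▸ c2 _)
    rw [← e, t2, ← t1]
  have k2 : ∀ a ∈ A, Bf W s a = Bf W' s a := by
    intro a ha
    have e1 : par W s a = par W' s a := ψ.injective (k1 a ha)
    have hu : par W s a s = false := by rw [par_self, hA a ha]; rfl
    have e2 := (prot_par hI hA hW hu).symm.trans (prot_par hI hA hW' hu)
    rw [Bf_par, e1, Bf_par] at e2
    rw [← flip_flip s (Bf W s a), e2, flip_flip]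
  have k3 : ∀ a ∈ A, ∀ l ∈ I, sw W l a = sw W' l a := by
    intro a ha l hl
    have : Bf W l a = Bf W' l a := by
      funext i
      by_cases hi : i.val < l.val
      · rw [← Bf_low W (hI l hl).le a i hi, ← Bf_low W' (hI l hl).le a i hi, k2 a ha]
      · rw [Bf_high W l a i (by omega), Bf_high W' l a i (by omega)]
    rw [sw, sw, this]
  have k4 : ∀ a ∈ A, ∀ l ∈ I, W (sw W l a) = W' (sw W l a) := by
    intro a ha l hl
    have e1 := out_bit W (hI l hl) a
    rw [k2 a ha, out_bit W' (hI l hl) a, ← k3 a ha l hl] at e1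
    revert e1
    cases a l <;> cases W (sw W l a) <;> cases W' (sw W l a) <;> simp
  funext q
  by_cases hq : q ∈ Fs (sig ψ s W) W I A
  · obtain ⟨⟨a, l⟩, h2, rfl⟩ := Finset.mem_image.1 hq
    exact k4 a (mem_Ks.1 h2).1.1 l (mem_Ks.1 h2).1.2
  by_cases hq' : q ∈ Fs (sig ψ s W') W' I A
  · obtain ⟨⟨a, l⟩, h2, rfl⟩ := Finset.mem_image.1 hq'
    have := k4 a (mem_Ks.1 h2).1.1 l (mem_Ks.1 h2).1.2
    rwa [k3 a (mem_Ks.1 h2).1.1 l (mem_Ks.1 h2).1.2] at this
  rw [← hW q hq, hW' q hq']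

end uniq

lemma av_two {ι : Type*} [Fintype ι] [DecidableEq ι] {a a' : ι} (h : a ≠ a') :
    av (fun ξ : ι → Bool => if ξ a = true ∧ ξ a' = false then (1 : ℝ) else 0) = 1 / 4 := by
  let f : ι → Bool → ℝ := fun i β =>
    if i = a then (if β then 1 else 0) else if i = a' then (if β then 0 else 1) else 1
  have h1 : ∀ ξ : ι → Bool, (if ξ a = true ∧ ξ a' = false then (1 : ℝ) else 0) =
      ∏ i, f i (ξ i) := by
    intro ξ
    rw [Fintype.prod_eq_mul a a' h (fun i hi => by simp [f, hi.1, hi.2])]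
    cases h1 : ξ a <;> cases h2 : ξ a' <;> simp [f, h.symm]
  simp only [h1]
  rw [av_pi_prod, Fintype.prod_eq_mul a a' h (fun i hi => by simp [f, hi.1, hi.2, av])]
  simp [f, h.symm, av]
  norm_num

lemma exists_data (s : Fin d) (σ : Equiv.Perm (X d)) (hσ : ∀ p, σ p s = p s) (W : Coins d)
    (I : Finset (Fin d)) (hI : ∀ l ∈ I, l < s) (b : ℕ) (hIb : I.card = 20 * b) :
    ∃ A : Finset (X d), (∀ a ∈ A, a s = true) ∧
      (∀ a ∈ A, ∀ a' ∈ A, σ.SameCycle a a' → a = a') ∧
      ((2 : ℝ) ^ cycCount s σ) ^ (2 * b) ≤ Real.exp (2 ^ d / 2 ^ b) *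
        (2 ^ (Fs σ W I A).card * ((1 / 2 ^ b) ^ A.card * (1 / 2 ^ b) ^ A.card)) := by
  classical
  let cyc : X d → Finset (X d) := fun p => Finset.univ.filter (fun q => σ.SameCycle p q)
  have hcyc : ∀ p q, q ∈ cyc p ↔ σ.SameCycle p q := by simp [cyc]
  have hex : ∀ C : Finset (X d), ∃ p, C.Nonempty →
      p ∈ C ∧ 2 ^ (br (Bf W s) C p).card ≤ C.card := by
    intro C
    by_cases hC : C.Nonempty
    · obtain ⟨p, hp⟩ := trie (Bf W s) _ C rfl hC
      exact ⟨p, fun _ => hp⟩
    · exact ⟨fun _ => false, fun h => absurd h hC⟩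
  choose pick hpick using hex
  have hce : ∀ p q, σ.SameCycle p q → cyc p = cyc q := by
    intro p q h
    ext z
    rw [hcyc, hcyc]
    exact ⟨fun h' => h.symm.trans h', fun h' => h.trans h'⟩
  have hp1 : ∀ p, σ.SameCycle p (pick (cyc p)) := fun p =>
    (hcyc _ _).1 (hpick _ ⟨p, (hcyc p p).2 (Equiv.Perm.SameCycle.refl _ _)⟩).1
  let Rep : Finset (X d) := (Finset.univ.filter (fun p : X d => p s = true)).image
    (fun p => pick (cyc p))
  have hR1 : ∀ a ∈ Rep, pick (cyc a) = a := by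
    intro a ha
    obtain ⟨p, -, rfl⟩ := Finset.mem_image.1 ha
    rw [← hce _ _ (hp1 p)]
  have hR2 : ∀ a ∈ Rep, a s = true := by
    intro a ha
    obtain ⟨p, hp, rfl⟩ := Finset.mem_image.1 ha
    rw [← cyc_const (θ := fun p => p s) hσ (hp1 p)]
    exact (Finset.mem_filter.1 hp).2
  have hR3 : ∀ a ∈ Rep, ∀ a' ∈ Rep, σ.SameCycle a a' → a = a' := by
    intro a ha a' ha' h
    rw [← hR1 a ha, hce _ _ h, hR1 a' ha']
  have hc : cycCount s σ ≤ Rep.card := by
    refine le_trans (le_of_eq ?_) (Finset.card_image_le (s := Rep) (f := cyc))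
    rw [Finset.image_image]
    unfold cycCount
    congr 1
    refine Finset.image_congr fun p _ => ?_
    exact hce _ _ (hp1 p)
  let own : X d → ℕ := fun a => (I.filter (fun l => σ.SameCycle a (par W l a))).card
  have ho1 : ∀ a ∈ Rep, (2 : ℝ) ^ own a ≤ 2 ^ b * Real.exp ((cyc a).card / 2 ^ b) := by
    intro a ha
    have a1 := (hpick (cyc a) ⟨a, (hcyc a a).2 (Equiv.Perm.SameCycle.refl _ _)⟩).2
    rw [hR1 a ha] at a1
    have a2 : own a ≤ (br (Bf W s) (cyc a) a).card := by
      refine Finset.card_le_card fun l hl => ?_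
      obtain ⟨h1, h2⟩ := Finset.mem_filter.1 hl
      exact par_mem_br W (hI l h1) ((hcyc _ _).2 h2)
    have a3 : (2 : ℝ) ^ own a ≤ (cyc a).card := by
      exact_mod_cast (Nat.pow_le_pow_right (by norm_num) a2).trans a1
    have a4 := Real.add_one_le_exp (((cyc a).card : ℝ) / 2 ^ b)
    have a5 : ((cyc a).card : ℝ) = 2 ^ b * ((cyc a).card / 2 ^ b) := by field_simp
    refine a3.trans (a5.le.trans (mul_le_mul_of_nonneg_left (by linarith) (by positivity)))
  have ho2 : ∑ a ∈ Rep, (cyc a).card ≤ 2 ^ d := by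
    rw [← Finset.card_biUnion]
    · exact (Finset.card_le_univ _).trans (by simp)
    · intro a ha a' ha' hne
      refine Finset.disjoint_left.2 fun z h1 h2 => hne ?_
      exact hR3 a ha a' ha' (((hcyc _ _).1 h1).trans ((hcyc _ _).1 h2).symm)
  have ho3 : (2 : ℝ) ^ (∑ a ∈ Rep, own a) ≤ 2 ^ (b * Rep.card) * Real.exp (2 ^ d / 2 ^ b) := by
    rw [← Finset.prod_pow_eq_pow_sum]
    refine (Finset.prod_le_prod (fun a _ => by positivity) ho1).trans ?_
    rw [Finset.prod_mul_distrib, Finset.prod_const, ← pow_mul, ← Real.exp_sum, ← Finset.sum_div]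
    refine mul_le_mul_of_nonneg_left (Real.exp_le_exp.2 ?_) (by positivity)
    refine div_le_div_of_nonneg_right ?_ (by positivity)
    exact_mod_cast ho2
  obtain ⟨ξ, hξ⟩ := exists_av_le (fun ξ : X d → Bool => ∑ a ∈ Rep, ∑ l ∈ I,
    if ξ a = true ∧ ξ (pick (cyc (par W l a))) = false then (1 : ℝ) else 0)
  have g1 : ∑ a ∈ Rep, ((20 * b : ℝ) - own a) / 4 ≤
      av (fun ξ : X d → Bool => ∑ a ∈ Rep, ∑ l ∈ I,
        if ξ a = true ∧ ξ (pick (cyc (par W l a))) = false then (1 : ℝ) else 0) := by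
    rw [av_sum]
    refine Finset.sum_le_sum fun a _ => ?_
    rw [av_sum]
    have e : ((20 * b : ℝ) - own a) / 4 =
        ∑ l ∈ I, (1 - if σ.SameCycle a (par W l a) then (1 : ℝ) else 0) / 4 := by
      rw [← Finset.sum_div, Finset.sum_sub_distrib, Finset.sum_boole]
      simp [hIb, own]
    rw [e]
    refine Finset.sum_le_sum fun l _ => ?_
    split_ifs with h
    · rw [sub_self, zero_div]
      exact av_nonneg fun _ => by positivity
    · rw [av_two (fun e => h (by
        have := (hp1 (par W l a)).symm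
        rwa [← e] at this)), sub_zero]
  let A := Rep.filter (fun a => ξ a = true)
  have hAR : ∀ a ∈ A, a ∈ Rep := fun a ha => (Finset.mem_filter.1 ha).1
  have g2 : (∑ a ∈ Rep, ∑ l ∈ I,
      if ξ a = true ∧ ξ (pick (cyc (par W l a))) = false then (1 : ℝ) else 0) ≤
        (Fs σ W I A).card := by
    rw [card_Fs, ← Finset.sum_product' (f := fun a l =>
      if ξ a = true ∧ ξ (pick (cyc (par W l a))) = false then (1 : ℝ) else 0), Finset.sum_boole]
    refine Nat.cast_le.2 (Finset.card_le_card fun al hal => ?_)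
    obtain ⟨h1, h2, h3⟩ := Finset.mem_filter.1 hal
    obtain ⟨h4, h5⟩ := Finset.mem_product.1 h1
    refine mem_Ks.2 ⟨⟨Finset.mem_filter.2 ⟨h4, h2⟩, h5⟩, ?_⟩
    rintro ⟨a', ha', h6⟩
    rw [← hce _ _ h6, hR1 a' (hAR a' ha'), (Finset.mem_filter.1 ha').2] at h3
    exact absurd h3 (by simp)
  have g3 : 20 * b * Rep.card ≤ 4 * (Fs σ W I A).card + ∑ a ∈ Rep, own a := by
    have := g1.trans (hξ.trans g2)
    rw [← Finset.sum_div, Finset.sum_sub_distrib, Finset.sum_const, nsmul_eq_mul] at this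
    have e : ((20 * b * Rep.card : ℕ) : ℝ) ≤
        ((4 * (Fs σ W I A).card + ∑ a ∈ Rep, own a : ℕ) : ℝ) := by
      push_cast
      linarith
    exact_mod_cast e
  refine ⟨A, fun a ha => hR2 a (hAR a ha), fun a ha a' ha' => hR3 a (hAR a ha) a' (hAR a' ha'), ?_⟩
  have g4 : A.card ≤ Rep.card := Finset.card_filter_le _ _
  have g5 : cycCount s σ * (2 * b) + (b * A.card + b * A.card) + b * Rep.card ≤
      (Fs σ W I A).card + ∑ a ∈ Rep, own a := by
    have c1 := Nat.mul_le_mul_left b g4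
    have c2 := Nat.mul_le_mul_left b hc
    have c3 : cycCount s σ * (2 * b) = 2 * (b * cycCount s σ) := by ring
    have c4 : 20 * b * Rep.card = 20 * (b * Rep.card) := by ring
    omega
  have g6 := pow_le_pow_right₀ (one_le_two (α := ℝ)) g5
  rw [pow_add, pow_add, pow_add, pow_add] at g6
  have g7 := g6.trans (mul_le_mul_of_nonneg_left ho3 (by positivity))
  rw [← pow_mul, one_div, inv_pow, ← pow_mul]
  have p1 : (0 : ℝ) < 2 ^ (b * A.card) := by positivity
  have p2 : (0 : ℝ) < 2 ^ (b * Rep.card) := by positivity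
  generalize (2 : ℝ) ^ (b * A.card) = u at *
  generalize (2 : ℝ) ^ (b * Rep.card) = v at *
  generalize (2 : ℝ) ^ (cycCount s σ * (2 * b)) = x at *
  generalize (2 : ℝ) ^ (Fs σ W I A).card = y at *
  generalize Real.exp (2 ^ d / 2 ^ b) = E at *
  have g8 : x * (u * u) ≤ y * E := le_of_mul_le_mul_right (by linarith) p2
  have e : E * (y * (u⁻¹ * u⁻¹)) = y * E / (u * u) := by field_simp
  rw [e, le_div_iff₀ (by positivity)]
  exact g8

lemma cyl_count {ι : Type*} [Fintype ι] [DecidableEq ι] (S : Finset (ι → Bool))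
    (F : (ι → Bool) → Finset ι)
    (h : ∀ w ∈ S, ∀ w' ∈ S, ∀ w'' : ι → Bool, (∀ q ∉ F w, w'' q = w q) →
      (∀ q ∉ F w', w'' q = w' q) → w = w') :
    ∑ w ∈ S, 2 ^ (F w).card ≤ Fintype.card (ι → Bool) := by
  classical
  let C : (ι → Bool) → Finset (ι → Bool) := fun w =>
    Fintype.piFinset (fun q => if q ∈ F w then Finset.univ else {w q})
  have h1 : ∀ w, (C w).card = 2 ^ (F w).card := by
    intro w
    rw [Fintype.card_piFinset]
    simp only [apply_ite Finset.card, Finset.card_univ, Fintype.card_bool, Finset.card_singleton]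
    rw [Finset.prod_ite_mem_eq, Finset.prod_const]
  have h2 : ∀ w w'', w'' ∈ C w → ∀ q ∉ F w, w'' q = w q := by
    intro w w'' hw q hq
    simpa [hq] using Fintype.mem_piFinset.1 hw q
  simp only [← h1]
  rw [← Finset.card_biUnion]
  · exact Finset.card_le_univ _
  · intro w hw w' hw' hne
    exact Finset.disjoint_left.2 fun z a1 a2 => hne (h w hw w' hw' z (h2 _ _ a1) (h2 _ _ a2))

lemma sum_pow_card_le (z : ℝ) (hz : 0 ≤ z) :
    ∑ A : Finset (X d), z ^ A.card ≤ Real.exp (2 ^ d * z) := by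
  have h := Finset.prod_one_add (s := (Finset.univ : Finset (X d))) (f := fun _ => z)
  simp only [Finset.prod_const, Finset.powerset_univ] at h
  rw [← h, Finset.card_univ]
  have e : Fintype.card (X d) = 2 ^ d := by simp
  rw [e]
  have h2 := pow_le_pow_left₀ (by positivity) (by linarith [Real.add_one_le_exp z] :
    1 + z ≤ Real.exp z) (2 ^ d)
  rw [← Real.exp_nat_mul] at h2
  exact_mod_cast h2

end Cyc

open Cyc

theorem cyc_moment (s : Fin d) (b : ℕ) (_hb : 1 ≤ b) (hs : 40 * b ≤ s.val)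
    (ψ : Equiv.Perm (X d)) (hψ : ∀ p, ψ p s = !(p s)) (ω₀ : Coins d) :
    av (fun ω : Coins d => ((2 : ℝ) ^ cycCount s (ψ * ((Bf ((low d (20 * b)).piecewise ω₀ ω) s)⁻¹
        * flipP s * Bf ((low d (20 * b)).piecewise ω₀ ω) s))) ^ (2 * b))
      ≤ Real.exp (3 * 2 ^ d / 2 ^ b) := by
  classical
  let I : Finset (Fin d) := (Finset.Ico (20 * b) (40 * b)).attachFin fun m hm => by
    have := (Finset.mem_Ico.1 hm).2
    have := s.2
    omega
  have hI0 : ∀ l ∈ I, 20 * b ≤ l.val ∧ l.val < 40 * b := fun l hl =>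
    Finset.mem_Ico.1 ((Finset.mem_attachFin _).1 hl)
  have hI : ∀ l ∈ I, l < s := fun l hl => by
    have := (hI0 l hl).2
    exact Fin.lt_def.2 (by omega)
  have hIb : I.card = 20 * b := by
    rw [Finset.card_attachFin, Nat.card_Ico]; omega
  let st : Coins d → Coins d := fun ω => (low d (20 * b)).piecewise ω₀ ω
  choose A hA1 hA2 hA3 using fun ω : Coins d =>
    exists_data s (sig ψ s (st ω)) (sig_bit hψ _) (st ω) I hI b hIb
  refine (av_mono hA3).trans ?_
  rw [av_mul_left]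
  have e3 : 3 * (2 : ℝ) ^ d / 2 ^ b = 2 ^ d / 2 ^ b + (2 ^ d * (1 / 2 ^ b) + 2 ^ d * (1 / 2 ^ b)) := by
    ring
  rw [e3, Real.exp_add, Real.exp_add]
  refine mul_le_mul_of_nonneg_left ?_ (Real.exp_pos _).le
  have hz : (0 : ℝ) ≤ 1 / 2 ^ b := by positivity
  have hE := sum_pow_card_le (d := d) _ hz
  generalize (1 : ℝ) / 2 ^ b = z at *
  let D : Coins d → Finset (X d) × Finset (X d) := fun ω => (A ω, (A ω).image (sig ψ s (st ω)))
  unfold av
  rw [div_le_iff₀ (by exact_mod_cast Fintype.card_pos), ← Finset.sum_fiberwise (g := D)]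
  have key : ∀ δ : Finset (X d) × Finset (X d), ∑ ω ∈ Finset.univ.filter (fun ω => D ω = δ),
      (2 : ℝ) ^ (Fs (sig ψ s (st ω)) (st ω) I (A ω)).card * (z ^ (A ω).card * z ^ (A ω).card) ≤
        (z ^ δ.1.card * z ^ δ.2.card) * Fintype.card (Coins d) := by
    intro δ
    have h1 := cyl_count (Finset.univ.filter (fun ω => D ω = δ))
      (fun ω => Fs (sig ψ s (st ω)) (st ω) I (A ω)) (by
        intro w hw w' hw' w'' a1 a2
        have e := (Finset.mem_filter.1 hw).2.trans (Finset.mem_filter.1 hw').2.symm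
        obtain ⟨e1, e2⟩ := Prod.mk.inj e
        have hst : ∀ (v : Coins d) (q), w'' q = v q → st w'' q = st v q := by
          intro v q h
          simp only [st, Finset.piecewise, h]
        have hlow : ∀ (v : Coins d) (q), q ∈ low d (20 * b) →
            q ∉ Fs (sig ψ s (st v)) (st v) I (A v) := by
          intro v q hq h
          obtain ⟨al, h2, rfl⟩ := Finset.mem_image.1 h
          have c1 := (hI0 _ (mem_Ks.1 h2).1.2).1
          have c2 : al.2.val < 20 * b := (Finset.mem_filter.1 hq).2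
          omega
        have u := uniq (W'' := st w'') hψ hI (hA1 w) (hA2 w) (e1 ▸ hA2 w') (e1 ▸ e2)
          (fun q hq => hst w q (a1 q hq)) (fun q hq => hst w' q (a2 q (e1 ▸ hq)))
        funext q
        by_cases hq : q ∈ low d (20 * b)
        · rw [← a1 q (hlow w q hq), a2 q (hlow w' q hq)]
        · simpa only [st, Finset.piecewise, hq, if_false] using congrFun u q)
    have h2 : ∑ ω ∈ Finset.univ.filter (fun ω => D ω = δ),
        (2 : ℝ) ^ (Fs (sig ψ s (st ω)) (st ω) I (A ω)).card ≤ Fintype.card (Coins d) := by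
      exact_mod_cast h1
    refine le_trans (le_of_eq ?_) (mul_le_mul_of_nonneg_left h2 (by positivity))
    rw [Finset.mul_sum]
    refine Finset.sum_congr rfl fun ω hω => ?_
    rw [← (Finset.mem_filter.1 hω).2, Finset.card_image_of_injective _ (Equiv.injective _),
      mul_comm]
  refine (Finset.sum_le_sum fun δ _ => key δ).trans ?_
  rw [← Finset.sum_mul, Fintype.sum_prod_type]
  simp only []
  rw [← Finset.sum_mul_sum]
  refine mul_le_mul_of_nonneg_right ?_ (by positivity)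
  exact mul_le_mul hE hE (Finset.sum_nonneg fun _ _ => by positivity) (Real.exp_pos _).le

end Vale.Agent.P162
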