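import Mathlib

/-! Definitions for P162 (mixing time of the Thorp shuffle). Positions are numbered `0, …, n-1`. -/

namespace Vale.Agent.P162

/-- The permutation `g` of positions is the outcome of one Thorp shuffle with coins `c`:
for each `k < n/2` the cards in positions `k` and `n/2 + k` go to positions `2k` and `2k+1`,
in the order given by the coin `c k`. -/
def Realizes {n : ℕ} (c : Fin (n / 2) → Bool) (g : Equiv.Perm (Fin n)) : Prop :=
  ∀ (k : Fin (n / 2)) (i j : Fin n), i.val = k.val → j.val = n / 2 + k.val →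
    (g i).val = 2 * k.val + (if c k = true then 1 else 0) ∧
    (g j).val = 2 * k.val + (if c k = true then 0 else 1)

/-- `q_n`: the law of one Thorp shuffle (`n/2` independent fair coins). -/
noncomputable def thorpLaw (n : ℕ) (g : Equiv.Perm (Fin n)) : ℝ :=
  (Set.ncard {c : Fin (n / 2) → Bool | Realizes c g} : ℝ) / 2 ^ (n / 2)

/-- The `t`-fold convolution power of `q` on the symmetric group. -/
noncomputable def convPow {n : ℕ} (q : Equiv.Perm (Fin n) → ℝ) : ℕ → Equiv.Perm (Fin n) → ℝ
  | 0 => fun g => if g = 1 then 1 else 0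
  | t + 1 => fun g => ∑ h : Equiv.Perm (Fin n), convPow q t (g * h⁻¹) * q h

/-- Total variation distance between `q_n^{*t}` and the uniform law on `S_n`. -/
noncomputable def tvDist (n t : ℕ) : ℝ :=
  (1 / 2) * ∑ g : Equiv.Perm (Fin n), |convPow (thorpLaw n) t g - 1 / (n.factorial : ℝ)|

/-- The mixing time `t_mix(n) = min {t : ‖q_n^{*t} - U_n‖_TV ≤ 1/4}`. -/
noncomputable def tmix (n : ℕ) : ℕ := sInf {t : ℕ | tvDist n t ≤ 1 / 4}

end Vale.Agent.P162
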