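import Vale.Agent.P162.Defs
import Vale.Agent.P162.Basic

/-! Task E: Thorp shuffles and butterflies; the lower bound.
See notes/P162_proof.md, section E. -/

namespace Vale.Agent.P162

open Finset

namespace Lk

lemma av_comp_inj {α β γ : Type*} [Fintype α] [Fintype β] [Fintype γ] [DecidableEq α]
    [DecidableEq β] [Nonempty γ] {emb : β → α} (he : Function.Injective emb) (F : (β → γ) → ℝ) :
    av (fun ε : α → γ => F (ε ∘ emb)) = av F := by
  classical
  let e : (α → γ) × (β → γ) ≃ (α → γ) × (β → γ) :=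
    Function.Involutive.toPerm (fun z => (Function.extend emb z.2 z.1, z.1 ∘ emb)) (fun z => by
      ext a
      · by_cases h : ∃ b, emb b = a
        · obtain ⟨b, rfl⟩ := h
          simp [he.extend_apply]
        · simp [Function.extend_apply' _ _ _ h]
      · simp [he.extend_apply])
  have h1 := av_equiv e (fun z => F z.2)
  rw [av_prod, av_prod] at h1
  simp only [av_const] at h1
  rw [← h1]
  refine av_congr fun ε => ?_
  exact (av_const (α := β → γ) _).symm

/-- permuting the coordinates -/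
def Sh {d : ℕ} (π : Equiv.Perm (Fin d)) : Equiv.Perm (X d) where
  toFun p := fun l => p (π l)
  invFun p := fun l => p (π.symm l)
  left_inv p := by funext l; simp
  right_inv p := by funext l; simp

lemma Sh_apply {d : ℕ} (π : Equiv.Perm (Fin d)) (p : X d) (l : Fin d) : Sh π p l = p (π l) := rfl

lemma Sh_pow {d : ℕ} (π : Equiv.Perm (Fin d)) (j : ℕ) : Sh π ^ j = Sh (π ^ j) := by
  induction j with
  | zero => ext p l; simp [Sh_apply]
  | succ j ih =>
    ext p l
    rw [pow_succ', ih, Equiv.Perm.mul_apply, Sh_apply, Sh_apply, Sh_apply, pow_succ,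
      Equiv.Perm.mul_apply]

lemma H_Sh {d : ℕ} (π : Equiv.Perm (Fin d)) (l : Fin d) (ε : X d → Bool) :
    H l ε * Sh π = Sh π * H (π l) (ε ∘ Sh π) := by
  ext1 p
  have e1 : bar l (Sh π p) = Sh π (bar (π l) p) := by
    funext i
    by_cases hi : i = l
    · rw [hi, bar_self, Sh_apply, bar_self]
    · rw [bar_ne hi, Sh_apply, Sh_apply, bar_ne (π.injective.ne hi)]
  have e2 : flip l (Sh π p) = Sh π (flip (π l) p) := by
    funext i
    by_cases hi : i = l
    · rw [hi, flip_self, Sh_apply, Sh_apply, flip_self]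
    · rw [flip_ne hi, Sh_apply, Sh_apply, flip_ne (π.injective.ne hi)]
  rw [Equiv.Perm.mul_apply, Equiv.Perm.mul_apply, H_apply, H_apply, e1, e2, Function.comp_apply]
  split_ifs <;> rfl

lemma rot_val (m : ℕ) (i : Fin (m + 1)) : (finRotate (m + 1) i).val = (i.val + 1) % (m + 1) := by
  rw [finRotate_apply, Fin.val_add]
  simp

lemma rot_pow_val (m j : ℕ) (i : Fin (m + 1)) :
    ((finRotate (m + 1) ^ j) i).val = (i.val + j) % (m + 1) := by
  induction j with
  | zero => simp [Nat.mod_eq_of_lt i.2]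
  | succ j ih => rw [pow_succ', Equiv.Perm.mul_apply, rot_val, ih, Nat.mod_add_mod, add_assoc]

/-- one Thorp step on the cube, as an averaging operator -/
noncomputable def Th (m : ℕ) (f : Equiv.Perm (X (m + 1)) → ℝ) (g : Equiv.Perm (X (m + 1))) : ℝ :=
  av fun ε => f (Sh (finRotate (m + 1)) * H 0 ε * g)

lemma Th_iter (m j : ℕ) (hj : j ≤ m + 1) : ∀ f : Equiv.Perm (X (m + 1)) → ℝ,
    (Th m)^[j] f = Qs (m + 1) j (fun g => f (Sh (finRotate (m + 1)) ^ j * g)) := by
  induction j with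
  | zero => intro f; simp [Qs_zero]
  | succ j ih =>
    intro f
    have hj' : j < m + 1 := by omega
    rw [Function.iterate_succ_apply, ih (by omega), Qs_succ hj']
    congr 1
    funext g
    unfold Th Pop
    have e0 : (finRotate (m + 1) ^ j) 0 = ⟨j, hj'⟩ := by
      ext
      rw [rot_pow_val]
      simp [Nat.mod_eq_of_lt hj']
    have hb : Function.Bijective
        (fun ε : X (m + 1) → Bool => ε ∘ Sh (finRotate (m + 1) ^ j)) :=
      (Sh (finRotate (m + 1) ^ j)).bijective.comp_right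
    refine Eq.trans ?_ (av_bij hb _)
    refine av_congr fun ε => ?_
    beta_reduce
    rw [smul_eq_mul, pow_succ', Sh_pow, mul_assoc, mul_assoc, ← mul_assoc (H 0 ε), H_Sh, e0,
      mul_assoc]

lemma Th_full (m : ℕ) : (Th m)^[m + 1] = Qop (m + 1) := by
  funext f
  rw [Th_iter m (m + 1) le_rfl, Sh_pow]
  have : finRotate (m + 1) ^ (m + 1) = 1 := by
    ext i
    rw [rot_pow_val]
    simp [Nat.mod_eq_of_lt i.2]
  rw [this, ← pow_zero (finRotate (m + 1)), ← Sh_pow]
  simp [Qop]

/-- binary digits, most significant first -/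
def bits (m : ℕ) (i : Fin (2 ^ (m + 1))) : X (m + 1) := fun l => i.val.testBit (m - l.val)

lemma bits_inj (m : ℕ) : Function.Injective (bits m) := by
  intro i j h
  ext
  refine Nat.eq_of_testBit_eq fun r => ?_
  by_cases hr : r ≤ m
  · have := congrFun h ⟨m - r, by omega⟩
    simpa [bits, Nat.sub_sub_self hr] using this
  · have h2 : 2 ^ (m + 1) ≤ 2 ^ r := Nat.pow_le_pow_right (by norm_num) (by omega)
    rw [Nat.testBit_lt_two_pow (i.2.trans_le h2), Nat.testBit_lt_two_pow (j.2.trans_le h2)]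

/-- binary digits as an equivalence -/
noncomputable def bitsE (m : ℕ) : Fin (2 ^ (m + 1)) ≃ X (m + 1) :=
  Equiv.ofBijective (bits m) ((Fintype.bijective_iff_injective_and_card _).2
    ⟨bits_inj m, by simp⟩)

lemma bitsE_apply (m : ℕ) (i : Fin (2 ^ (m + 1))) : bitsE m i = bits m i := rfl

lemma half_eq (m : ℕ) : 2 ^ (m + 1) / 2 = 2 ^ m := by rw [pow_succ]; simp

/-- the top half of the deck inside the cube -/
def emb (m : ℕ) (k : Fin (2 ^ (m + 1) / 2)) : X (m + 1) :=
  bits m ⟨k.val, lt_of_lt_of_le k.2 (Nat.div_le_self _ _)⟩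

lemma emb_inj (m : ℕ) : Function.Injective (emb m) := by
  intro k k' h
  have := bits_inj m h
  ext
  simpa using congrArg Fin.val this

/-- the Thorp step with coins `ε` -/
noncomputable def Tp (m : ℕ) (ε : X (m + 1) → Bool) : Equiv.Perm (Fin (2 ^ (m + 1))) :=
  (bitsE m).symm.permCongr (Sh (finRotate (m + 1)) * H 0 ε)

lemma Tp_val (m : ℕ) (ε : X (m + 1) → Bool) (k : Fin (2 ^ (m + 1) / 2)) (β : Bool)
    (i : Fin (2 ^ (m + 1))) (hi : i.val = (if β then 2 ^ m + k.val else k.val)) :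
    (Tp m ε i).val = 2 * k.val + (if xor β (ε (emb m k)) then 1 else 0) := by
  have hk : k.val < 2 ^ m := half_eq m ▸ k.2
  have b0 : i.val.testBit m = β := by
    rw [hi]
    cases β
    · simpa using Nat.testBit_lt_two_pow hk
    · simp [Nat.testBit_two_pow_add_eq, Nat.testBit_lt_two_pow hk]
  have b1 : ∀ r < m, i.val.testBit r = k.val.testBit r := by
    intro r hr
    rw [hi]
    cases β
    · simp
    · simpa using Nat.testBit_two_pow_add_gt hr k.val
  have b2 : bar 0 (bits m i) = emb m k := by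
    funext l
    by_cases hl : l = 0
    · rw [hl, bar_self]
      simpa [emb, bits] using Nat.testBit_lt_two_pow hk
    · rw [bar_ne hl]
      have : l.val ≠ 0 := fun h => hl (Fin.ext h)
      exact b1 _ (by have := l.2; omega)
  have hlt : 2 * k.val + (if xor β (ε (emb m k)) then 1 else 0) < 2 ^ (m + 1) := by
    have h2 : 2 ^ (m + 1) = 2 * 2 ^ m := pow_succ' 2 m
    split_ifs <;> omega
  have : Tp m ε i = ⟨_, hlt⟩ := by
    unfold Tp
    rw [Equiv.permCongr_apply, Equiv.symm_symm, Equiv.symm_apply_eq, bitsE_apply, bitsE_apply]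
    funext l
    rw [Equiv.Perm.mul_apply, Sh_apply]
    have hv := rot_val m l
    by_cases hl : l.val = m
    · have e : finRotate (m + 1) l = 0 := by
        ext; rw [hv, hl]; simp
      rw [e, H_self, b2]
      simp only [bits, hl, Nat.sub_self, Fin.val_zero, Nat.sub_zero, b0, Nat.testBit_zero]
      cases xor β (ε (emb m k))
      · simp
      · simp
    · have hl2 : l.val < m := by have := l.2; omega
      rw [Nat.mod_eq_of_lt (by omega)] at hv
      rw [H_ne (fun h => by rw [h] at hv; simp at hv)]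
      simp only [bits, hv]
      rw [b1 _ (by omega), show m - l.val = (m - (l.val + 1)) + 1 by omega, Nat.testBit_succ]
      congr 1
      split_ifs <;> omega
  rw [this]

lemma realizes_Tp (m : ℕ) (ε : X (m + 1) → Bool) : Realizes (ε ∘ emb m) (Tp m ε) := by
  intro k i j hi hj
  constructor
  · rw [Tp_val m ε k false i (by simpa using hi)]
    simp
  · rw [Tp_val m ε k true j (by have := half_eq m; simp only [if_true]; omega)]
    cases h : ε (emb m k) <;> simp [h]

lemma realizes_unique (m : ℕ) {c : Fin (2 ^ (m + 1) / 2) → Bool}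
    {g g' : Equiv.Perm (Fin (2 ^ (m + 1)))} (h : Realizes c g) (h' : Realizes c g') : g = g' := by
  have hh := half_eq m
  have h2 : 2 ^ (m + 1) = 2 * 2 ^ m := pow_succ' 2 m
  ext i
  have hi := i.2
  by_cases hlt : i.val < 2 ^ m
  · have a := (h ⟨i.val, by omega⟩ i ⟨2 ^ (m + 1) / 2 + i.val, by omega⟩ rfl rfl).1
    have b := (h' ⟨i.val, by omega⟩ i ⟨2 ^ (m + 1) / 2 + i.val, by omega⟩ rfl rfl).1
    rw [a, b]
  · have a := (h ⟨i.val - 2 ^ m, by omega⟩ ⟨i.val - 2 ^ m, by omega⟩ i rfl (by simp; omega)).2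
    have b := (h' ⟨i.val - 2 ^ m, by omega⟩ ⟨i.val - 2 ^ m, by omega⟩ i rfl (by simp; omega)).2
    rw [a, b]

lemma law_eq (m : ℕ) (g : Equiv.Perm (Fin (2 ^ (m + 1)))) :
    thorpLaw (2 ^ (m + 1)) g = av fun ε : X (m + 1) → Bool => if Tp m ε = g then 1 else 0 := by
  classical
  have h1 : thorpLaw (2 ^ (m + 1)) g =
      av fun c : Fin (2 ^ (m + 1) / 2) → Bool => if Realizes c g then (1 : ℝ) else 0 := by
    unfold thorpLaw av
    rw [Finset.sum_boole, ← Set.ncard_coe_finset]
    simp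
  rw [h1, ← av_comp_inj (emb_inj m)]
  refine av_congr fun ε => ?_
  refine if_congr ⟨fun h => realizes_unique m (realizes_Tp m ε) h, fun h => ?_⟩ rfl rfl
  rw [← h]
  exact realizes_Tp m ε

lemma sum_law (m : ℕ) (F : Equiv.Perm (Fin (2 ^ (m + 1))) → ℝ) :
    ∑ h, F h * thorpLaw (2 ^ (m + 1)) h = av fun ε : X (m + 1) → Bool => F (Tp m ε) := by
  simp only [law_eq, ← av_mul_left]
  rw [← av_sum]
  refine av_congr fun ε => ?_
  simp

lemma conv_succ (m t : ℕ) (g : Equiv.Perm (Fin (2 ^ (m + 1)))) :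
    convPow (thorpLaw (2 ^ (m + 1))) (t + 1) g = av fun ε : X (m + 1) → Bool =>
      convPow (thorpLaw (2 ^ (m + 1))) t (g * (Tp m ε)⁻¹) :=
  sum_law m (fun h => convPow (thorpLaw (2 ^ (m + 1))) t (g * h⁻¹))

lemma conv_eq (m t : ℕ) : ∀ g : Equiv.Perm (X (m + 1)),
    convPow (thorpLaw (2 ^ (m + 1))) t ((bitsE m).symm.permCongr g)⁻¹ =
      (Th m)^[t] (Pi.single 1 1) g := by
  induction t with
  | zero =>
    intro g
    simp only [convPow, Function.iterate_zero, id, Pi.single_apply, inv_eq_one]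
    refine if_congr ?_ rfl rfl
    exact ((bitsE m).symm.permCongrHom.map_eq_one_iff (x := g))
  | succ t ih =>
    intro g
    rw [Function.iterate_succ_apply', conv_succ, Th]
    refine av_congr fun ε => ?_
    rw [← ih, ← mul_inv_rev]
    congr 2
    exact ((bitsE m).symm.permCongrHom.map_mul _ g).symm

lemma supp (m t : ℕ) : ∃ A : Finset (Equiv.Perm (Fin (2 ^ (m + 1)))),
    A.card ≤ (2 ^ 2 ^ m) ^ t ∧ ∀ g ∉ A, convPow (thorpLaw (2 ^ (m + 1))) t g = 0 := by
  classical
  induction t with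
  | zero => exact ⟨{1}, by simp, fun g hg => by simpa [convPow] using hg⟩
  | succ t ih =>
    obtain ⟨A, hA, hA0⟩ := ih
    let A1 : Finset (Equiv.Perm (Fin (2 ^ (m + 1)))) := Finset.univ.image
      (fun c : Fin (2 ^ (m + 1) / 2) → Bool => Tp m (Function.extend (emb m) c fun _ => false))
    have hA1 : A1.card ≤ 2 ^ 2 ^ m := by
      refine Finset.card_image_le.trans (le_of_eq ?_)
      simp [half_eq]
    refine ⟨Finset.image₂ (· * ·) A A1, (Finset.card_image₂_le _ _ _).trans ?_, fun g hg => ?_⟩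
    · rw [pow_succ _ t]
      exact Nat.mul_le_mul hA hA1
    · rw [conv_succ, ← av_zero (α := X (m + 1) → Bool)]
      refine av_congr fun ε => hA0 _ fun h => hg ?_
      refine Finset.mem_image₂.2 ⟨_, h, Tp m ε, ?_, by simp⟩
      refine Finset.mem_image.2 ⟨ε ∘ emb m, Finset.mem_univ _, ?_⟩
      refine realizes_unique m ?_ (realizes_Tp m ε)
      have := realizes_Tp m (Function.extend (emb m) (ε ∘ emb m) fun _ => false)
      rwa [Function.extend_comp (emb_inj m)] at this

lemma fact_big (M : ℕ) (hM : 5 ≤ M) : 2 ^ (M + 1) < M.factorial := by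
  induction M, hM using Nat.le_induction with
  | base => norm_num [Nat.factorial]
  | succ M hM ih => rw [Nat.factorial_succ, pow_succ]; nlinarith

end Lk

open Lk

theorem link (d : ℕ) (hd : 1 ≤ d) (a : ℕ) :
    ∑ g : Equiv.Perm (Fin (2 ^ d)),
        (convPow (thorpLaw (2 ^ d)) (d * a) g - 1 / ((2 ^ d).factorial : ℝ)) ^ 2
      = ∑ g : Equiv.Perm (X d), ((Qop d)^[a] (Pi.single (1 : Equiv.Perm (X d)) (1 : ℝ)) g
        - 1 / ((2 ^ d).factorial : ℝ)) ^ 2 := by
  obtain ⟨m, rfl⟩ : ∃ m, d = m + 1 := ⟨d - 1, by omega⟩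
  rw [← Equiv.sum_comp ((bitsE m).symm.permCongr.trans (Equiv.inv _))]
  refine Finset.sum_congr rfl fun g _ => ?_
  rw [Equiv.trans_apply, Equiv.inv_apply, conv_eq, Function.iterate_mul, Th_full]

theorem lower (d : ℕ) (hd : 6 ≤ d) (t : ℕ) (ht : t ≤ d) : 1 / 4 < tvDist (2 ^ d) t := by
  classical
  obtain ⟨m, rfl⟩ : ∃ m, d = m + 1 := ⟨d - 1, by omega⟩
  obtain ⟨A, hA, hA0⟩ := supp m t
  have hM : 5 ≤ 2 ^ m := le_trans (by omega) (Nat.lt_two_pow_self (n := m)).le
  have h1 : 2 * A.card < (2 ^ (m + 1)).factorial := by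
    have a1 := Nat.factorial_mul_pow_le_factorial (m := 2 ^ m) (n := 2 ^ m)
    rw [← two_mul, ← pow_succ'] at a1
    have a2 : (2 ^ m) ^ 2 ^ m ≤ (2 ^ m + 1) ^ 2 ^ m := Nat.pow_le_pow_left (by omega) _
    have a3 := fact_big _ hM
    have a4 : (2 ^ 2 ^ m) ^ t ≤ (2 ^ 2 ^ m) ^ (m + 1) :=
      Nat.pow_le_pow_right (by positivity) ht
    have a5 : 2 * (2 ^ 2 ^ m) ^ (m + 1) = 2 ^ (2 ^ m + 1) * (2 ^ m) ^ 2 ^ m := by
      rw [← pow_mul, ← pow_mul, ← pow_add, ← pow_succ']
      congr 1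
      ring
    have a6 : 2 ^ (2 ^ m + 1) * (2 ^ m) ^ 2 ^ m < (2 ^ m).factorial * (2 ^ m) ^ 2 ^ m :=
      Nat.mul_lt_mul_of_pos_right a3 (by positivity)
    have a7 := Nat.mul_le_mul_left (2 ^ m).factorial a2
    omega
  have hN : (0 : ℝ) < (2 ^ (m + 1)).factorial := by exact_mod_cast Nat.factorial_pos _
  have h2 : ∑ g ∈ Aᶜ, 1 / ((2 ^ (m + 1)).factorial : ℝ) ≤ ∑ g : Equiv.Perm (Fin (2 ^ (m + 1))),
      |convPow (thorpLaw (2 ^ (m + 1))) t g - 1 / ((2 ^ (m + 1)).factorial : ℝ)| := by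
    refine le_trans (le_of_eq ?_) (Finset.sum_le_sum_of_subset_of_nonneg (Finset.subset_univ Aᶜ)
      fun _ _ _ => abs_nonneg _)
    refine Finset.sum_congr rfl fun g hg => ?_
    rw [hA0 g (Finset.mem_compl.1 hg), zero_sub, abs_neg, abs_of_pos (by positivity)]
  have h3 : A.card ≤ (2 ^ (m + 1)).factorial := by omega
  rw [Finset.sum_const, Finset.card_compl, Fintype.card_perm, Fintype.card_fin, nsmul_eq_mul,
    Nat.cast_sub h3] at h2
  have h4 : (2 : ℝ) * A.card < (2 ^ (m + 1)).factorial := by exact_mod_cast h1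
  have h5 : 1 / 2 < (((2 ^ (m + 1)).factorial : ℝ) - A.card) *
      (1 / ((2 ^ (m + 1)).factorial : ℝ)) := by
    rw [mul_one_div, lt_div_iff₀ hN]
    linarith
  unfold tvDist
  linarith

end Vale.Agent.P162
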