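import Vale.Agent.P162.PartD
import Vale.Agent.P162.Link

/-! The mixing time of the Thorp shuffle on `2^d` cards has order `d`. -/

namespace Vale.Agent.P162

open Finset

theorem tv_le : ∃ C d₀ : ℕ, ∀ d : ℕ, d₀ ≤ d → tvDist (2 ^ d) (d * C) ≤ 1 / 4 := by
  obtain ⟨a, d₀, h⟩ := partD
  refine ⟨a, max d₀ 1, fun d hd => ?_⟩
  have h1 := h d (le_trans (le_max_left _ _) hd)
  rw [← link d (le_trans (le_max_right _ _) hd) a] at h1
  have h2 := Finset.sum_mul_sq_le_sq_mul_sq Finset.univ (fun _ : Equiv.Perm (Fin (2 ^ d)) => (1 : ℝ))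
    (fun g => |convPow (thorpLaw (2 ^ d)) (d * a) g - 1 / ((2 ^ d).factorial : ℝ)|)
  simp only [one_mul, one_pow, Finset.sum_const, Finset.card_univ, Fintype.card_perm,
    Fintype.card_fin, nsmul_eq_mul, mul_one, sq_abs] at h2
  have h3 := (abs_le_of_sq_le_sq' (h2.trans (h1.trans (by norm_num : (1 / 4 : ℝ) ≤ (1 / 2) ^ 2)))
    (by norm_num)).2
  unfold tvDist
  linarith

theorem main : ∃ C d₀ : ℕ, ∀ d : ℕ, d₀ ≤ d → d ≤ tmix (2 ^ d) ∧ tmix (2 ^ d) ≤ C * d := by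
  obtain ⟨C, d₀, h⟩ := tv_le
  refine ⟨C, max d₀ 6, fun d hd => ?_⟩
  have h1 := h d (le_trans (le_max_left _ _) hd)
  constructor
  · have hm : tmix (2 ^ d) ∈ {t : ℕ | tvDist (2 ^ d) t ≤ 1 / 4} := Nat.sInf_mem ⟨_, h1⟩
    by_contra hc
    exact absurd hm (not_le.2 (lower d (le_trans (le_max_right _ _) hd) _ (not_le.1 hc).le))
  · rw [mul_comm]
    exact Nat.sInf_le h1

end Vale.Agent.P162
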