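import Vale.Agent.P162.Basic

/-! Task A2: the routing probability and an abstract trace bound.
See notes/P162_proof.md, section A2. -/

namespace Vale.Agent.P162

open Finset Matrix

variable {d : ℕ}

lemma const_on_cycle {α β : Type*} [Finite α] {σ : Equiv.Perm α} {θ : α → β}
    (h : ∀ p, θ (σ p) = θ p) {p q : α} (hpq : σ.SameCycle p q) : θ p = θ q := by
  obtain ⟨i, -, hi⟩ := hpq.exists_pow_eq'
  rw [← hi]
  clear hi
  induction i with
  | zero => rfl
  | succ i ih => rw [pow_succ', Equiv.Perm.mul_apply, h]; exact ih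

lemma route_kernel (s : Fin d) (B B' : Equiv.Perm (X d)) (hB' : ∀ p, B' p s = p s)
    (δ δ' : X d → Bool) (hD : ∀ u, δ' (bar s u) = δ (bar s ((B * B'⁻¹) u)))
    (h1 : ∀ p, p s = true → ∃ q, ((B'⁻¹ * flipP s * B') * (B⁻¹ * flipP s * B)).SameCycle q p ∧
      δ (bar s (B q)) = false)
    (h2 : ∀ y, (if y s = true then δ y else δ' (flip s y)) = false) :
    (∀ y, δ y = false) ∧ ∀ y, δ' y = false := by
  have e1 : ∀ w, δ' (bar s (B' w)) = δ (bar s (B w)) := by
    intro w
    rw [hD]
    simp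
  have e2 : ∀ w, δ (bar s (B ((B⁻¹ * flipP s * B) w))) = δ (bar s (B w)) := by
    intro w
    simp
  have e3 : ∀ w, δ (bar s (B ((B'⁻¹ * flipP s * B') w))) = δ (bar s (B w)) := by
    intro w
    rw [← e1, ← e1]
    simp
  have e4 : ∀ p, p s = true → δ (bar s (B p)) = false := by
    intro p hp
    obtain ⟨q, hq1, hq2⟩ := h1 p hp
    rw [← hq2]
    refine (const_on_cycle (θ := fun w => δ (bar s (B w))) (fun w => ?_) hq1).symm
    rw [Equiv.Perm.mul_apply, e3, e2]
  have e5 : ∀ p, δ (bar s (B p)) = false := by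
    intro p
    by_cases hp : p s = true
    · exact e4 p hp
    · rw [← e3]
      refine e4 _ ?_
      have e : B' ((B'⁻¹ * flipP s * B') p) = flip s (B' p) := by simp
      rw [← hB' ((B'⁻¹ * flipP s * B') p), e, flip_self, hB']
      simpa using hp
  constructor
  · intro y
    by_cases hy : y s = true
    · simpa [hy] using h2 y
    · have := e5 (B⁻¹ y)
      rwa [show B (B⁻¹ y) = y by simp, bar_eq_self (by simpa using hy)] at this
  · intro y
    by_cases hy : y s = true
    · have := h2 (flip s y)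
      simpa [hy] using this
    · have := e5 (B'⁻¹ y)
      rwa [← e1, show B' (B'⁻¹ y) = y by simp, bar_eq_self (by simpa using hy)] at this

theorem route_prob (s : Fin d) (B B' : Equiv.Perm (X d)) (_hB : ∀ p, B p s = p s)
    (hB' : ∀ p, B' p s = p s) (U : Finset (X d)) :
    av (fun z : (X d → Bool) × (X d → Bool) =>
        if ∀ u ∈ U, z.2 (bar s u) = z.1 (bar s ((B * B'⁻¹) u)) then (1 : ℝ) else 0)
      ≤ 2 ^ cycCount s ((B'⁻¹ * flipP s * B') * (B⁻¹ * flipP s * B)) / 2 ^ U.card := by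
  classical
  generalize hσ : (B'⁻¹ * flipP s * B') * (B⁻¹ * flipP s * B) = σ
  let Cy : Finset (Finset (X d)) := (Finset.univ.filter (fun p : X d => p s = true)).image
    (fun p => Finset.univ.filter (fun q => σ.SameCycle p q))
  have hpick : ∀ C : Cy, ∃ p : X d, Finset.univ.filter (fun q => σ.SameCycle p q) = C.1 := by
    intro C
    obtain ⟨p, -, hp⟩ := Finset.mem_image.1 C.2
    exact ⟨p, hp⟩
  choose pick hpk using hpick
  let Φ : (X d → Bool) × (X d → Bool) → (Cy → Bool) × (X d → Bool) × ({u // u ∉ U} → Bool) :=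
    fun z => (fun C => z.1 (bar s (B (pick C))),
      fun y => if y s = true then z.1 y else z.2 (flip s y),
      fun u => xor (z.2 (bar s u.1)) (z.1 (bar s ((B * B'⁻¹) u.1))))
  have hcard : (Finset.univ.filter (fun z : (X d → Bool) × (X d → Bool) =>
      ∀ u ∈ U, z.2 (bar s u) = z.1 (bar s ((B * B'⁻¹) u)))).card ≤
      (Finset.univ : Finset ((Cy → Bool) × (X d → Bool) × ({u // u ∉ U} → Bool))).card := by
    refine Finset.card_le_card_of_injOn Φ (fun _ _ => by simp) ?_
    intro z hz z' hz' he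
    simp only [Finset.coe_filter, Finset.mem_univ, true_and, Set.mem_ofPred_eq] at hz hz'
    have k1 := congrFun (congrArg Prod.fst he)
    have k2 := congrFun (congrArg (fun t => t.2.1) he)
    have k3 := congrFun (congrArg (fun t => t.2.2) he)
    simp only [Φ] at k1 k2 k3
    obtain ⟨a1, a2⟩ := route_kernel s B B' hB' (fun y => xor (z.1 y) (z'.1 y))
      (fun y => xor (z.2 y) (z'.2 y)) (fun u => by
        by_cases hu : u ∈ U
        · rw [hz u hu, hz' u hu]
        · have := k3 ⟨u, hu⟩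
          revert this
          simp only []
          cases z.2 (bar s u) <;> cases z'.2 (bar s u) <;> cases z.1 (bar s ((B * B'⁻¹) u)) <;>
            cases z'.1 (bar s ((B * B'⁻¹) u)) <;> simp)
      (fun p hp => by
        let C : Cy := ⟨_, Finset.mem_image_of_mem _ (Finset.mem_filter.2 ⟨Finset.mem_univ p, hp⟩)⟩
        refine ⟨pick C, ?_, ?_⟩
        · rw [hσ]
          have : p ∈ Finset.univ.filter (fun q => σ.SameCycle (pick C) q) := by
            rw [hpk C]
            exact Finset.mem_filter.2 ⟨Finset.mem_univ p, Equiv.Perm.SameCycle.refl _ _⟩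
          exact (Finset.mem_filter.1 this).2
        · rw [k1 C]; simp)
      (fun y => by
        have := k2 y
        by_cases hy : y s = true
        · simp only [hy, if_true] at this ⊢
          rw [this]; simp
        · simp only [hy] at this ⊢
          simp only [Bool.false_eq_true, if_false] at this ⊢
          rw [this]; simp)
    ext y
    · have := a1 y
      revert this
      cases z.1 y <;> cases z'.1 y <;> simp
    · have := a2 y
      revert this
      cases z.2 y <;> cases z'.2 y <;> simp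
  have hU : U.card ≤ Fintype.card (X d) := Finset.card_le_univ U
  simp only [Finset.card_univ, Fintype.card_prod, Fintype.card_fun (α := Cy),
    Fintype.card_fun (α := X d), Fintype.card_fun (α := {u // u ∉ U}), Fintype.card_bool,
    Fintype.card_coe, Fintype.card_subtype_compl] at hcard
  unfold av
  rw [Finset.sum_boole, Fintype.card_prod, Fintype.card_fun (α := X d), Fintype.card_bool,
    div_le_div_iff₀ (by positivity) (by positivity)]
  have e : cycCount s σ = Cy.card := rfl
  rw [e]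
  have h2 : (2 : ℕ) ^ (Fintype.card (X d) - U.card) * 2 ^ U.card = 2 ^ Fintype.card (X d) := by
    rw [← pow_add, Nat.sub_add_cancel hU]
  have h3 := Nat.mul_le_mul_right (2 ^ U.card) hcard
  rw [mul_assoc, mul_assoc, h2] at h3
  exact_mod_cast h3

section trace
variable {ι : Type*} [Fintype ι] [DecidableEq ι]

lemma trace_pow_comm (A B : Matrix ι ι ℝ) (m : ℕ) :
    ((A * B) ^ m).trace = ((B * A) ^ m).trace := by
  cases m with
  | zero => simp
  | succ m =>
    rw [pow_succ, ← mul_assoc, mul_pow_mul, Matrix.trace_mul_comm, ← mul_assoc, ← pow_succ']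

omit [DecidableEq ι] in
lemma trace_tmul (A : Matrix ι ι ℝ) : (Aᵀ * A).trace = ∑ i, ∑ j, A i j ^ 2 := by
  simp only [Matrix.trace, Matrix.diag, Matrix.mul_apply, Matrix.transpose_apply, sq]
  exact Finset.sum_comm

omit [DecidableEq ι] in
lemma trace_amgm (P Q : Matrix ι ι ℝ) :
    2 * (P * Q).trace ≤ (Pᵀ * P).trace + (Qᵀ * Q).trace := by
  have h := trace_tmul (Pᵀ - Q)
  have h0 : 0 ≤ ∑ i, ∑ j, (Pᵀ - Q) i j ^ 2 :=
    Finset.sum_nonneg fun i _ => Finset.sum_nonneg fun j _ => sq_nonneg _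
  rw [← h, Matrix.transpose_sub, Matrix.transpose_transpose, Matrix.sub_mul, Matrix.mul_sub,
    Matrix.mul_sub, Matrix.trace_sub, Matrix.trace_sub, Matrix.trace_sub,
    Matrix.trace_mul_comm P Pᵀ, ← Matrix.transpose_mul, Matrix.trace_transpose] at h0
  linarith

lemma trace_step (m : ℕ)
    (hb : ∀ X Y : Matrix ι ι ℝ, Xᵀ = X → Yᵀ = Y → ((X * Y) ^ m).trace ≤ (X ^ m * Y ^ m).trace)
    (B : Matrix ι ι ℝ) : (((B ^ 2)ᵀ * B ^ 2) ^ m).trace ≤ ((Bᵀ * B) ^ (2 * m)).trace := by
  have e1 : (B ^ 2)ᵀ * B ^ 2 = Bᵀ * (Bᵀ * B * B) := by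
    rw [Matrix.transpose_pow]; simp only [sq, mul_assoc]
  have e2 : Bᵀ * B * B * Bᵀ = (Bᵀ * B) * (B * Bᵀ) := by simp only [mul_assoc]
  have s1 : (Bᵀ * B)ᵀ = Bᵀ * B := by simp
  have s2 : (B * Bᵀ)ᵀ = B * Bᵀ := by simp
  rw [e1, trace_pow_comm, e2]
  have h1 := hb _ _ s1 s2
  have h2 := trace_amgm ((Bᵀ * B) ^ m) ((B * Bᵀ) ^ m)
  rw [Matrix.transpose_pow, Matrix.transpose_pow, s1, s2, ← pow_add, ← pow_add,
    trace_pow_comm B Bᵀ, ← two_mul m] at h2
  linarith

lemma trace_ab (i : ℕ) :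
    (∀ B : Matrix ι ι ℝ, (B ^ (2 * 2 ^ i)).trace ≤ ((Bᵀ * B) ^ 2 ^ i).trace) ∧
    ∀ X Y : Matrix ι ι ℝ, Xᵀ = X → Yᵀ = Y →
      ((X * Y) ^ 2 ^ i).trace ≤ (X ^ 2 ^ i * Y ^ 2 ^ i).trace := by
  induction i with
  | zero =>
    refine ⟨fun B => ?_, fun X Y _ _ => by simp⟩
    have := trace_amgm B B
    simp only [pow_zero, mul_one, pow_one, sq]
    linarith
  | succ i ih =>
    obtain ⟨ha, hb⟩ := ih
    constructor
    · intro B
      have h1 := ha (B ^ 2)
      have h2 := trace_step _ hb B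
      rw [← pow_mul] at h1
      rw [pow_succ' 2 i]
      exact h1.trans h2
    · intro X Y hX hY
      have h1 := ha (X * Y)
      have e : (X * Y)ᵀ * (X * Y) = Y * (X * X * Y) := by
        rw [Matrix.transpose_mul, hX, hY]; simp only [mul_assoc]
      have e2 : X * X * Y * Y = X ^ 2 * Y ^ 2 := by simp only [sq, mul_assoc]
      rw [e, trace_pow_comm Y, e2] at h1
      have h2 := hb (X ^ 2) (Y ^ 2) (by rw [Matrix.transpose_pow, hX])
        (by rw [Matrix.transpose_pow, hY])
      rw [← pow_mul, ← pow_mul] at h2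
      rw [pow_succ' 2 i]
      exact h1.trans h2

lemma trace_chain (j : ℕ) : ∀ (i : ℕ) (K : Matrix ι ι ℝ),
    (((K ^ 2 ^ j)ᵀ * K ^ 2 ^ j) ^ 2 ^ i).trace ≤ ((Kᵀ * K) ^ 2 ^ (i + j)).trace := by
  induction j with
  | zero => intro i K; simp
  | succ j ih =>
    intro i K
    have h1 := trace_step _ (trace_ab (ι := ι) i).2 (K ^ 2 ^ j)
    rw [← pow_mul, ← pow_succ, ← pow_succ'] at h1
    have h2 := ih (i + 1) K
    rw [show i + 1 + j = i + (j + 1) by ring] at h2
    exact h1.trans h2

omit [DecidableEq ι] in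
lemma young_double (M : Matrix ι ι ℝ) (hs : ∀ i j, M i j = M j i) (h0 : ∀ i j, 0 ≤ M i j)
    (p q a : ℝ) (hp : 1 ≤ p) (hq : 0 < q) (hpq : 1 / q = 2 / p - 1) (ha0 : 0 ≤ a)
    (ha : ∀ i, ∑ j, M i j ^ p ≤ a) (x : ι) : ∑ y, (M * M) x y ^ q ≤ a ^ (2 * q / p) := by
  have hp0 : 0 < p := by linarith
  have hM : ∀ x y, 0 ≤ (M * M) x y := fun x y =>
    Finset.sum_nonneg fun z _ => mul_nonneg (h0 _ _) (h0 _ _)
  rcases ha0.eq_or_lt with rfl | ha1
  · have hz : ∀ i j, M i j = 0 := by
      intro i j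
      have h1 : M i j ^ p ≤ 0 := (Finset.single_le_sum (f := fun j => M i j ^ p)
        (fun j _ => Real.rpow_nonneg (h0 i j) p) (Finset.mem_univ j)).trans (ha i)
      by_contra hne
      exact absurd h1 (not_le.2 (Real.rpow_pos_of_pos ((h0 i j).lt_of_ne' hne) p))
    simp only [Matrix.mul_apply, hz, mul_zero, Finset.sum_const_zero]
    rw [Real.zero_rpow hq.ne', Finset.sum_const_zero]
    positivity
  have hr : 0 ≤ 1 - 1 / p := by
    rw [sub_nonneg, div_le_one hp0]; exact hp
  have key : ∀ y, (M * M) x y ^ q ≤ (∑ z, M x z ^ p * M z y ^ p) * a ^ (2 * q / p - 2) := by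
    intro y
    have t0 : ∀ z, 0 ≤ M x z ^ p * M z y ^ p := fun z =>
      mul_nonneg (Real.rpow_nonneg (h0 _ _) _) (Real.rpow_nonneg (h0 _ _) _)
    generalize hS : ∑ z, M x z ^ p * M z y ^ p = S
    have hS0 : 0 ≤ S := hS ▸ Finset.sum_nonneg fun z _ => t0 z
    rcases hS0.eq_or_lt with rfl | hS1
    · have hz : ∀ z, M x z * M z y = 0 := by
        intro z
        have h1 := (Finset.sum_eq_zero_iff_of_nonneg (fun z _ => t0 z)).1 hS z (Finset.mem_univ z)
        rw [← Real.mul_rpow (h0 _ _) (h0 _ _)] at h1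
        exact (Real.rpow_eq_zero (mul_nonneg (h0 _ _) (h0 _ _)) hp0.ne').1 h1
      simp only [Matrix.mul_apply, hz, Finset.sum_const_zero]
      rw [Real.zero_rpow hq.ne', zero_mul]
    have h1 : ∀ z, M x z * M z y ≤ (S ^ (1 / q) * a ^ (1 - 1 / p) * a ^ (1 - 1 / p)) *
        (1 / q * (M x z ^ p * M z y ^ p / S) + (1 - 1 / p) * (M x z ^ p / a) +
          (1 - 1 / p) * (M z y ^ p / a)) := by
      intro z
      have u0 := h0 x z
      have v0 := h0 z y
      have g := Real.geom_mean_le_arith_mean3_weighted (w₁ := 1 / q) (w₂ := 1 - 1 / p)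
        (w₃ := 1 - 1 / p) (p₁ := M x z ^ p * M z y ^ p / S) (p₂ := M x z ^ p / a)
        (p₃ := M z y ^ p / a) (by positivity) hr hr (by positivity) (by positivity) (by positivity)
        (by rw [hpq]; ring)
      refine le_trans (le_of_eq ?_) (mul_le_mul_of_nonneg_left g (by positivity))
      rw [Real.div_rpow (t0 z) hS0, Real.div_rpow (by positivity) ha0,
        Real.div_rpow (by positivity) ha0, Real.mul_rpow (by positivity) (by positivity),
        ← Real.rpow_mul u0, ← Real.rpow_mul u0, ← Real.rpow_mul v0, ← Real.rpow_mul v0]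
      have b1 : S ^ (1 / q) ≠ 0 := by positivity
      have b2 : a ^ (1 - 1 / p) ≠ 0 := by positivity
      have b3 : p * (1 / q) + p * (1 - 1 / p) = 1 := by rw [hpq]; field_simp; ring
      have b4 : M x z ^ (p * (1 / q)) * M x z ^ (p * (1 - 1 / p)) = M x z := by
        rw [← Real.rpow_add' u0 (by rw [b3]; norm_num), b3, Real.rpow_one]
      have b5 : M z y ^ (p * (1 / q)) * M z y ^ (p * (1 - 1 / p)) = M z y := by
        rw [← Real.rpow_add' v0 (by rw [b3]; norm_num), b3, Real.rpow_one]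
      generalize S ^ (1 / q) = A1 at *
      generalize a ^ (1 - 1 / p) = A2 at *
      generalize M x z ^ (p * (1 / q)) = U1 at *
      generalize M x z ^ (p * (1 - 1 / p)) = U2 at *
      generalize M z y ^ (p * (1 / q)) = V1 at *
      generalize M z y ^ (p * (1 - 1 / p)) = V2 at *
      rw [← b4, ← b5]
      field_simp
    have h2 : (M * M) x y ≤ S ^ (1 / q) * a ^ (1 - 1 / p) * a ^ (1 - 1 / p) := by
      rw [Matrix.mul_apply]
      refine (Finset.sum_le_sum fun z _ => h1 z).trans ?_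
      rw [← Finset.mul_sum]
      refine mul_le_of_le_one_right (by positivity) ?_
      rw [Finset.sum_add_distrib, Finset.sum_add_distrib, ← Finset.mul_sum, ← Finset.mul_sum,
        ← Finset.mul_sum, ← Finset.sum_div, ← Finset.sum_div, ← Finset.sum_div, hS,
        div_self hS1.ne']
      have c1 : (∑ z, M x z ^ p) / a ≤ 1 := (div_le_one ha1).2 (ha x)
      have c2 : (∑ z, M z y ^ p) / a ≤ 1 := by
        refine (div_le_one ha1).2 ?_
        simp only [hs _ y]
        exact ha y
      have c3 := mul_le_mul_of_nonneg_left c1 hr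
      have c4 := mul_le_mul_of_nonneg_left c2 hr
      have c5 : 1 / q + (1 - 1 / p) + (1 - 1 / p) = 1 := by rw [hpq]; ring
      linarith
    refine (Real.rpow_le_rpow (hM x y) h2 hq.le).trans (le_of_eq ?_)
    rw [mul_assoc, ← Real.rpow_add ha1, Real.mul_rpow (by positivity) (by positivity),
      ← Real.rpow_mul hS0, ← Real.rpow_mul ha0, one_div_mul_cancel hq.ne', Real.rpow_one]
    congr 2
    have : 1 / q * q = 1 := one_div_mul_cancel hq.ne'
    rw [hpq] at this
    have e : 2 * q / p = 2 / p * q := by ring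
    have e2 : (1 - 1 / p + (1 - 1 / p)) * q = 2 * q - 2 / p * q := by ring
    rw [e, e2]
    linarith
  refine (Finset.sum_le_sum fun y _ => key y).trans ?_
  rw [← Finset.sum_mul, Finset.sum_comm]
  have h3 : ∑ z, ∑ y, M x z ^ p * M z y ^ p ≤ a * a := by
    refine le_trans (Finset.sum_le_sum fun z _ => ?_) (by
      rw [← Finset.sum_mul (f := fun z => M x z ^ p)]
      exact mul_le_mul_of_nonneg_right (ha x) ha0)
    rw [← Finset.mul_sum]
    exact mul_le_mul_of_nonneg_left (ha z) (Real.rpow_nonneg (h0 _ _) _)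
  refine (mul_le_mul_of_nonneg_right h3 (by positivity)).trans (le_of_eq ?_)
  rw [← sq, ← Real.rpow_natCast, ← Real.rpow_add ha1]
  congr 1
  push_cast
  ring

end trace

theorem trace_bound {ι : Type*} [Fintype ι] [DecidableEq ι] (K : Matrix ι ι ℝ)
    (hK : ∀ i j, 0 ≤ K i j) (a : ℝ) (ha0 : 0 ≤ a)
    (ha : ∀ i, ∑ j, ((Kᵀ * K) i j) ^ ((64 : ℝ) / 63) ≤ a) :
    ∑ i, ∑ j, ((K ^ 64) i j) ^ 2 ≤ Fintype.card ι * a ^ 63 := by
  have h1 := trace_chain 6 0 K
  rw [pow_zero, pow_one, trace_tmul] at h1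
  refine le_trans (le_of_eq (by norm_num)) (h1.trans ?_)
  have hs : (Kᵀ * K)ᵀ = Kᵀ * K := by simp
  have h0 : ∀ i j, 0 ≤ (Kᵀ * K) i j := fun i j =>
    Finset.sum_nonneg fun z _ => mul_nonneg (hK _ _) (hK _ _)
  generalize Kᵀ * K = τ at *
  have p0 : ∀ (n : ℕ) i j, 0 ≤ (τ ^ n) i j := by
    intro n
    induction n with
    | zero => intro i j; rw [pow_zero, Matrix.one_apply]; split_ifs <;> norm_num
    | succ n ih =>
      intro i j
      rw [pow_succ]
      exact Finset.sum_nonneg fun z _ => mul_nonneg (ih _ _) (h0 _ _)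
  have ps : ∀ (n : ℕ) i j, (τ ^ n) i j = (τ ^ n) j i := by
    intro n i j
    rw [← Matrix.transpose_apply (τ ^ n) i j, Matrix.transpose_pow, hs]
  have s0 : ∀ i, ∑ j, (τ ^ 1) i j ^ ((64 : ℝ) / 63) ≤ a := by simpa using ha
  have s1 := young_double _ (ps 1) (p0 1) (64 / 63) (64 / 62) _ (by norm_num) (by norm_num)
    (by norm_num) ha0 s0
  rw [← pow_add] at s1
  have s2 := young_double _ (ps _) (p0 _) (64 / 62) (64 / 60) _ (by norm_num) (by norm_num)
    (by norm_num) (by positivity) s1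
  rw [← pow_add] at s2
  have s3 := young_double _ (ps _) (p0 _) (64 / 60) (64 / 56) _ (by norm_num) (by norm_num)
    (by norm_num) (by positivity) s2
  rw [← pow_add] at s3
  have s4 := young_double _ (ps _) (p0 _) (64 / 56) (64 / 48) _ (by norm_num) (by norm_num)
    (by norm_num) (by positivity) s3
  rw [← pow_add] at s4
  have s5 := young_double _ (ps _) (p0 _) (64 / 48) 2 _ (by norm_num) (by norm_num)
    (by norm_num) (by positivity) s4
  rw [← pow_add, ← Real.rpow_mul ha0, ← Real.rpow_mul ha0, ← Real.rpow_mul ha0,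
    ← Real.rpow_mul ha0] at s5
  have e1 : τ ^ 2 ^ (0 + 6) = (τ ^ 32)ᵀ * τ ^ 32 := by
    rw [Matrix.transpose_pow, hs, ← pow_add]; norm_num
  rw [e1, trace_tmul, ← Finset.card_univ, ← nsmul_eq_mul, ← Finset.sum_const]
  refine Finset.sum_le_sum fun i _ => ?_
  have s6 := s5 i
  norm_num at s6
  exact s6

end Vale.Agent.P162
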