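import Vale.Agent.P162.Cycle
import Vale.Agent.P162.Route

/-! Task A3: the Hilbert-Schmidt bound for `k` cards. See notes/P162_proof.md, section A3. -/

namespace Vale.Agent.P162

open Finset

namespace PA

variable {d k : ℕ}

lemma av_holder {α : Type*} [Fintype α] [Nonempty α] (P : α → Prop) [DecidablePred P]
    (F : α → ℝ) (hF : ∀ a, 0 ≤ F a) (hz : ∀ a, ¬ P a → F a = 0) {p : ℝ} (hp : 1 ≤ p) :
    av F ^ p ≤ av (fun a => if P a then (1 : ℝ) else 0) ^ (p - 1) * av (fun a => F a ^ p) := by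
  have hN : (0 : ℝ) < Fintype.card α := by exact_mod_cast Fintype.card_pos
  have h1 : ∑ a, F a = ∑ a ∈ univ.filter P, F a :=
    (Finset.sum_filter_of_ne fun a _ ha => by_contra fun h => ha (hz a h)).symm
  have h2 := Real.rpow_sum_le_const_mul_sum_rpow_of_nonneg (s := univ.filter P) (f := F) hp
    fun a _ => hF a
  have h3 : ∑ a ∈ univ.filter P, F a ^ p ≤ ∑ a, F a ^ p :=
    Finset.sum_le_sum_of_subset_of_nonneg (Finset.filter_subset _ _)
      fun a _ _ => Real.rpow_nonneg (hF a) p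
  have h4 : ∑ a, (if P a then (1 : ℝ) else 0) = ((univ.filter P).card : ℝ) := by simp
  have h5 : (Fintype.card α : ℝ) ^ p = (Fintype.card α : ℝ) ^ (p - 1) * Fintype.card α := by
    rw [Real.rpow_sub_one hN.ne']; field_simp
  simp only [av]
  rw [h4, h1, Real.div_rpow (Finset.sum_nonneg fun a _ => hF a) hN.le,
    Real.div_rpow (Nat.cast_nonneg _) hN.le, div_mul_div_comm, ← h5]
  refine div_le_div_of_nonneg_right (h2.trans ?_) (Real.rpow_nonneg hN.le _)
  exact mul_le_mul_of_nonneg_left h3 (Real.rpow_nonneg (Nat.cast_nonneg _) _)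

abbrev Om (d : ℕ) : Type := Coins d × Coins d

abbrev Lay (d : ℕ) : Type := (X d → Bool) × (X d → Bool)

lemma av_layer2 {s : ℕ} (h : s < d) (F : Lay d → Om d → ℝ)
    (hF : ∀ e (z z' : Om d), (∀ q : Fin d × X d, q.1.val < s → z'.1 q = z.1 q) →
      (∀ q : Fin d × X d, q.1.val < s → z'.2 q = z.2 q) → F e z' = F e z) :
    av (fun z : Om d => F (fun p => z.1 (⟨s, h⟩, p), fun p => z.2 (⟨s, h⟩, p)) z)
      = av (fun z : Om d => av (fun e => F e z)) := by
  rw [av_prod, av_prod]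
  have h1 : ∀ ω : Coins d, av (fun ω' : Coins d =>
      F (fun p => ω (⟨s, h⟩, p), fun p => ω' (⟨s, h⟩, p)) (ω, ω'))
      = av (fun ω' : Coins d => av (fun ε' => F (fun p => ω (⟨s, h⟩, p), ε') (ω, ω'))) :=
    fun ω => av_layer h (fun ε' ω' => F (fun p => ω (⟨s, h⟩, p), ε') (ω, ω'))
      fun ε a b hab => hF _ (ω, a) (ω, b) (fun _ _ => rfl) hab
  simp only [h1]
  rw [av_layer h (fun ε ω => av (fun ω' : Coins d => av (fun ε' => F (ε, ε') (ω, ω'))))
    fun ε a b hab => av_congr fun ω' => av_congr fun ε' =>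
      hF _ (a, ω') (b, ω') hab (fun _ _ => rfl)]
  refine av_congr fun ω => ?_
  rw [av_comm]
  exact av_congr fun ω' => (av_prod (fun e => F e (ω, ω'))).symm

/-- indicator of a routing -/
noncomputable def ind (s : ℕ) (z : Om d) (x y : Fin k → X d) : ℝ :=
  if (Bf z.1 s * (Bf z.2 s)⁻¹) • x = y then 1 else 0

noncomputable def tau (d s : ℕ) (x y : Fin k → X d) : ℝ := av fun z : Om d => ind s z x y

noncomputable def NN (l : ℕ) (z : Om d) : ℝ :=
  if h : l < d then 2 ^ cycCount ⟨l, h⟩ (((Bf z.2 l)⁻¹ * flipP ⟨l, h⟩ * Bf z.2 l)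
    * ((Bf z.1 l)⁻¹ * flipP ⟨l, h⟩ * Bf z.1 l)) else 1

noncomputable def RR (k s₀ l : ℕ) (z : Om d) : ℝ := (if l < s₀ then 2 ^ k else NN l z) / 2 ^ k

lemma ind_nonneg (s : ℕ) (z : Om d) (x y : Fin k → X d) : 0 ≤ ind s z x y := by
  unfold ind; split_ifs <;> norm_num

lemma one_le_NN (l : ℕ) (z : Om d) : 1 ≤ NN l z := by
  unfold NN; split_ifs
  · exact one_le_pow₀ (by norm_num)
  · exact le_rfl

lemma NN_nonneg (l : ℕ) (z : Om d) : 0 ≤ NN l z := zero_le_one.trans (one_le_NN l z)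

lemma RR_nonneg (k s₀ l : ℕ) (z : Om d) : 0 ≤ RR k s₀ l z := by
  have := NN_nonneg l z
  unfold RR; split_ifs <;> positivity

lemma NN_congr {l s : ℕ} (hl : l ≤ s) {z z' : Om d}
    (h1 : ∀ q : Fin d × X d, q.1.val < s → z'.1 q = z.1 q)
    (h2 : ∀ q : Fin d × X d, q.1.val < s → z'.2 q = z.2 q) : NN l z' = NN l z := by
  unfold NN
  rw [Bf_congr z.1 z'.1 l fun q hq => h1 q (by omega), Bf_congr z.2 z'.2 l fun q hq => h2 q (by omega)]

lemma ind_succ {s : ℕ} (h : s < d) (z : Om d) (x y : Fin k → X d) :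
    ind (s + 1) z x y = ind s z (H ⟨s, h⟩ (fun p => z.2 (⟨s, h⟩, p)) • x)
      (H ⟨s, h⟩ (fun p => z.1 (⟨s, h⟩, p)) • y) := by
  unfold ind
  refine if_congr ?_ rfl rfl
  rw [Bf_succ _ h, Bf_succ _ h, mul_inv_rev, H_inv]
  simp only [mul_smul]
  rw [smul_eq_iff_eq_inv_smul, H_inv]

lemma inv_high (ω : Coins d) (s : ℕ) (p : X d) (i : Fin d) (hi : s ≤ i.val) :
    (Bf ω s)⁻¹ p i = p i := by
  have := Bf_high ω s ((Bf ω s)⁻¹ p) i hi
  simpa using this.symm

lemma good_of_ind {s : ℕ} (h : s < d) (z : Om d) {x y : Fin k → X d}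
    (hz : (Bf z.1 s * (Bf z.2 s)⁻¹) • x = y) (i : Fin k) : x i ⟨s, h⟩ = y i ⟨s, h⟩ := by
  rw [← hz]
  change _ = Bf z.1 s ((Bf z.2 s)⁻¹ (x i)) ⟨s, h⟩
  rw [Bf_high _ s _ ⟨s, h⟩ (le_refl s), inv_high _ s _ ⟨s, h⟩ (le_refl s)]

lemma good_prob {s : ℕ} (h : s < d) (s₀ : ℕ) (z : Om d) {x y : Fin k → X d}
    (hx : Function.Injective x) (e₀ : Lay d)
    (hz : (Bf z.1 s * (Bf z.2 s)⁻¹) • (H ⟨s, h⟩ e₀.2 • x) = H ⟨s, h⟩ e₀.1 • y) :
    av (fun e : Lay d => if ∀ i, (H ⟨s, h⟩ e.2 • x) i ⟨s, h⟩ = (H ⟨s, h⟩ e.1 • y) i ⟨s, h⟩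
      then (1 : ℝ) else 0) ≤ RR k s₀ s z := by
  unfold RR
  split_ifs with hs
  · rw [div_self (by positivity)]
    exact av_le_of_le fun e => by split_ifs <;> norm_num
  · have hU : (univ.image (H ⟨s, h⟩ e₀.2 • x)).card = k := by
      have : Function.Injective (H ⟨s, h⟩ e₀.2 • x) := (H ⟨s, h⟩ e₀.2).injective.comp hx
      rw [Finset.card_image_of_injective _ this]; simp
    have hr := route_prob ⟨s, h⟩ (Bf z.1 s) (Bf z.2 s) (fun p => Bf_high _ _ _ _ le_rfl)
      (fun p => Bf_high _ _ _ _ le_rfl) (univ.image (H ⟨s, h⟩ e₀.2 • x))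
    rw [hU] at hr
    rw [NN, dif_pos h]
    refine le_trans (le_of_eq ?_) hr
    have hb : Function.Bijective (fun e : Lay d =>
        ((fun p => xor (e₀.1 p) (e.1 p), fun p => xor (e₀.2 p) (e.2 p)) : Lay d)) :=
      Function.Involutive.bijective fun e => by ext p <;> simp
    rw [← av_bij hb]
    refine av_congr fun e => if_congr ?_ rfl rfl
    simp only [Finset.mem_image, Finset.mem_univ, true_and, forall_exists_index,
      forall_apply_eq_imp_iff]
    refine forall_congr' fun i => ?_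
    have h1 := good_of_ind h z hz i
    have h2 : (Bf z.1 s * (Bf z.2 s)⁻¹) ((H ⟨s, h⟩ e₀.2 • x) i) = H ⟨s, h⟩ e₀.1 (y i) :=
      congrFun hz i
    rw [h2]
    change H _ _ (x i) _ = H _ _ (y i) _ at h1
    change H _ _ (x i) _ = H _ _ (y i) _ ↔ e.2 (bar _ (H _ _ (x i))) = _
    rw [H_self, H_self] at h1
    rw [H_self, H_self, bar_H, bar_H, ← Bool.xor_assoc, ← Bool.xor_assoc, h1, Bool.xor_right_inj]

lemma tau_bound (s₀ : ℕ) : ∀ s ≤ d, ∀ x y : Fin k → X d, Function.Injective x →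
    tau d s x y ^ ((64 : ℝ) / 63)
      ≤ av (fun z : Om d => ind s z x y * ∏ l ∈ range s, RR k s₀ l z ^ ((1 : ℝ) / 63)) := by
  intro s
  induction s with
  | zero =>
    intro _ x y _
    have h0 : ∀ z : Om d, ind 0 z x y = if x = y then 1 else 0 := fun z => by
      unfold ind
      refine if_congr ?_ rfl rfl
      simp [Bf_zero]
    simp only [tau, h0, Finset.range_zero, Finset.prod_empty, mul_one, av_const]
    split_ifs
    · simp
    · rw [Real.zero_rpow (by norm_num)]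
  | succ s ih =>
    intro hs x y hx
    have h : s < d := hs
    have hi : ∀ e : Lay d, Function.Injective (H ⟨s, h⟩ e.2 • x) := fun e =>
      (H ⟨s, h⟩ e.2).injective.comp hx
    have hic : ∀ (a b : Fin k → X d) (z z' : Om d),
        (∀ q : Fin d × X d, q.1.val < s → z'.1 q = z.1 q) →
        (∀ q : Fin d × X d, q.1.val < s → z'.2 q = z.2 q) → ind s z' a b = ind s z a b := by
      intro a b z z' h1 h2
      unfold ind
      rw [Bf_congr z.1 z'.1 s h1, Bf_congr z.2 z'.2 s h2]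
    have e1 : tau d (s + 1) x y
        = av (fun e : Lay d => tau d s (H ⟨s, h⟩ e.2 • x) (H ⟨s, h⟩ e.1 • y)) := by
      unfold tau
      simp only [ind_succ h]
      rw [av_layer2 h (fun e z => ind s z (H ⟨s, h⟩ e.2 • x) (H ⟨s, h⟩ e.1 • y))
        fun e z z' h1 h2 => hic _ _ z z' h1 h2, av_comm]
    have e2 : av (fun z : Om d => ind (s + 1) z x y
          * ∏ l ∈ range (s + 1), RR k s₀ l z ^ ((1 : ℝ) / 63))
        = av (fun e : Lay d => av (fun z : Om d => ind s z (H ⟨s, h⟩ e.2 • x) (H ⟨s, h⟩ e.1 • y)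
          * ∏ l ∈ range (s + 1), RR k s₀ l z ^ ((1 : ℝ) / 63))) := by
      simp only [ind_succ h]
      rw [av_layer2 h (fun e z => ind s z (H ⟨s, h⟩ e.2 • x) (H ⟨s, h⟩ e.1 • y)
          * ∏ l ∈ range (s + 1), RR k s₀ l z ^ ((1 : ℝ) / 63)), av_comm]
      intro e z z' h1 h2
      have h3 : ∏ l ∈ range (s + 1), RR k s₀ l z' ^ ((1 : ℝ) / 63)
          = ∏ l ∈ range (s + 1), RR k s₀ l z ^ ((1 : ℝ) / 63) := by
        refine Finset.prod_congr rfl fun l hl => ?_
        unfold RR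
        rw [NN_congr (Nat.lt_succ_iff.1 (Finset.mem_range.1 hl)) h1 h2]
      rw [hic _ _ z z' h1 h2, h3]
    rw [e1, e2]
    refine (av_holder (fun e : Lay d =>
      ∀ i, (H ⟨s, h⟩ e.2 • x) i ⟨s, h⟩ = (H ⟨s, h⟩ e.1 • y) i ⟨s, h⟩) _
      (fun e => av_nonneg fun z => ind_nonneg _ _ _ _) ?_ (by norm_num)).trans ?_
    · intro e he
      refine (av_congr fun z => ?_).trans (av_zero (α := Om d))
      exact if_neg fun hz => he (good_of_ind h z hz)
    · set PG := av (fun e : Lay d => if ∀ i, (H ⟨s, h⟩ e.2 • x) i ⟨s, h⟩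
        = (H ⟨s, h⟩ e.1 • y) i ⟨s, h⟩ then (1 : ℝ) else 0) with hPG
      have hPG0 : 0 ≤ PG := av_nonneg fun e => by split_ifs <;> norm_num
      rw [← av_mul_left, show (64 : ℝ) / 63 - 1 = 1 / 63 by norm_num]
      refine av_mono fun e => ?_
      refine (mul_le_mul_of_nonneg_left (ih h.le _ _ (hi e)) (Real.rpow_nonneg hPG0 _)).trans ?_
      rw [← av_mul_left]
      refine av_mono fun z => ?_
      rw [Finset.prod_range_succ]
      unfold ind
      split_ifs with hz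
      · rw [one_mul, one_mul, mul_comm]
        refine mul_le_mul_of_nonneg_left ?_
          (Finset.prod_nonneg fun l _ => Real.rpow_nonneg (RR_nonneg _ _ _ _) _)
        exact Real.rpow_le_rpow hPG0 (good_prob h s₀ z hx e hz) (by norm_num)
      · simp

lemma prod_RR (s₀ M : ℕ) (h1 : d ≤ M) (h2 : s₀ ≤ M) (z : Om d) :
    ∏ l ∈ range d, RR k s₀ l z ^ ((1 : ℝ) / 63)
      ≤ (2 ^ (k * s₀) / 2 ^ (k * d)) ^ ((1 : ℝ) / 63)
        * ∏ l ∈ Ico s₀ M, NN l z ^ ((1 : ℝ) / 63) := by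
  rw [Real.finsetProd_rpow _ _ (fun l _ => RR_nonneg _ _ _ _),
    Real.finsetProd_rpow _ _ (fun l _ => NN_nonneg _ _),
    ← Real.mul_rpow (by positivity) (Finset.prod_nonneg fun l _ => NN_nonneg _ _)]
  refine Real.rpow_le_rpow (Finset.prod_nonneg fun l _ => RR_nonneg _ _ _ _) ?_ (by norm_num)
  unfold RR
  rw [Finset.prod_div_distrib, Finset.prod_const, Finset.card_range, ← pow_mul,
    div_mul_eq_mul_div]
  refine div_le_div_of_nonneg_right ?_ (by positivity)
  have h3 : ∀ l, (1 : ℝ) ≤ if l < s₀ then 2 ^ k else NN l z := fun l => by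
    split_ifs
    · exact one_le_pow₀ (by norm_num)
    · exact one_le_NN l z
  refine (Finset.prod_le_prod_of_subset_of_one_le (Finset.range_subset_range.2 h1)
    (fun l _ => zero_le_one.trans (h3 l)) fun l _ _ => h3 l).trans (le_of_eq ?_)
  rw [← Finset.prod_range_mul_prod_Ico _ h2]
  congr 1
  · rw [Finset.prod_congr rfl (g := fun _ => (2 : ℝ) ^ k)
      fun l hl => if_pos (Finset.mem_range.1 hl), Finset.prod_const, Finset.card_range, ← pow_mul]
  · exact Finset.prod_congr rfl fun l hl => if_neg (not_lt.2 (Finset.mem_Ico.1 hl).1)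

lemma tower (t : ℕ → ℕ) (ht : Monotone t) (V : ℕ → Coins d → ℝ) (hV : ∀ j ω, 0 ≤ V j ω)
    (hdep : ∀ j ω ω', (∀ q : Fin d × X d, q.1.val < t (j + 1) → ω' q = ω q) → V j ω' = V j ω)
    (c : ℕ → ℝ) (hc0 : ∀ j, 0 ≤ c j)
    (hc : ∀ j ω₀, av (fun ω => V j ((low d (t j)).piecewise ω₀ ω)) ≤ c j) (m : ℕ) :
    av (fun ω => ∏ j ∈ range m, V j ω) ≤ ∏ j ∈ range m, c j := by
  induction m with
  | zero => simp [av_const]
  | succ m ih =>
    simp only [Finset.prod_range_succ]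
    rw [av_pw (low d (t m))]
    refine le_trans ?_ (mul_le_mul_of_nonneg_right ih (hc0 m))
    rw [← av_mul_right]
    refine av_mono fun ω₀ => ?_
    have h1 : ∀ ω, ∏ j ∈ range m, V j ((low d (t m)).piecewise ω₀ ω) = ∏ j ∈ range m, V j ω₀ := by
      intro ω
      refine Finset.prod_congr rfl fun j hj => hdep j _ _ fun q hq => ?_
      refine Finset.piecewise_eq_of_mem _ _ _ ?_
      have := ht (Nat.succ_le_of_lt (Finset.mem_range.1 hj))
      simp only [low, Finset.mem_filter, Finset.mem_univ, true_and]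
      exact lt_of_lt_of_le hq this
    simp only [h1]
    rw [av_mul_left]
    exact mul_le_mul_of_nonneg_left (hc m ω₀) (Finset.prod_nonneg fun j _ => hV j ω₀)

lemma group_bound (b : ℕ) (hb : 1 ≤ b) (ω' ω₀ : Coins d) :
    av (fun ω => (∏ l ∈ Ico (40 * b) (80 * b),
      NN l ((low d (20 * b)).piecewise ω₀ ω, ω') ^ ((1 : ℝ) / 63)) ^ 2)
      ≤ Real.exp (3 * 2 ^ d / 2 ^ b) := by
  have hb0 : (0 : ℝ) < b := by exact_mod_cast hb
  have hw : ∑ _l ∈ Ico (40 * b) (80 * b), (1 : ℝ) / (40 * b) = 1 := by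
    rw [Finset.sum_const, Nat.card_Ico, nsmul_eq_mul, show 80 * b - 40 * b = 40 * b by omega]
    push_cast; field_simp
  have h1 : ∀ z : Om d, (∏ l ∈ Ico (40 * b) (80 * b), NN l z ^ ((1 : ℝ) / 63)) ^ 2
      ≤ ∑ l ∈ Ico (40 * b) (80 * b), (1 : ℝ) / (40 * b) * NN l z ^ (2 * b) := by
    intro z
    refine le_trans ?_ (Real.geom_mean_le_arith_mean_weighted _ (fun _ => (1 : ℝ) / (40 * b))
      (fun l => NN l z ^ (2 * b)) (fun _ _ => by positivity) hw
      fun l _ => pow_nonneg (NN_nonneg _ _) _)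
    rw [← Finset.prod_pow]
    refine Finset.prod_le_prod (fun l _ => sq_nonneg _) fun l _ => ?_
    rw [← Real.rpow_natCast, ← Real.rpow_natCast, ← Real.rpow_mul (NN_nonneg _ _),
      ← Real.rpow_mul (NN_nonneg _ _)]
    refine Real.rpow_le_rpow_of_exponent_le (one_le_NN _ _) ?_
    push_cast
    rw [show 2 * (b : ℝ) * (1 / (40 * b)) = 1 / 20 by field_simp; norm_num]
    norm_num
  refine (av_mono fun ω => h1 _).trans ?_
  have hw' : Real.exp (3 * 2 ^ d / 2 ^ b) = ∑ _l ∈ Ico (40 * b) (80 * b),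
      (1 : ℝ) / (40 * b) * Real.exp (3 * 2 ^ d / 2 ^ b) := by
    rw [← Finset.sum_mul, hw, one_mul]
  rw [av_sum, hw']
  refine Finset.sum_le_sum fun l hl => ?_
  rw [av_mul_left]
  refine mul_le_mul_of_nonneg_left ?_ (by positivity)
  by_cases h : l < d
  · simp only [NN, dif_pos h]
    refine cyc_moment ⟨l, h⟩ b hb (Finset.mem_Ico.1 hl).1 _ (fun p => ?_) ω₀
    change (Bf ω' l)⁻¹ (flip ⟨l, h⟩ (Bf ω' l p)) ⟨l, h⟩ = _
    rw [inv_high _ l _ ⟨l, h⟩ (le_refl l), flip_self, Bf_high _ l _ ⟨l, h⟩ (le_refl l)]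
  · simp only [NN, dif_neg h, one_pow, av_const]
    exact Real.one_le_exp (by positivity)

lemma chain_bound (b : ℕ) (hb : 1 ≤ b) (ω' : Coins d) (m : ℕ) :
    av (fun ω => (∏ j ∈ range m, ∏ l ∈ Ico (40 * (b * 4 ^ j)) (80 * (b * 4 ^ j)),
      NN l (ω, ω') ^ ((1 : ℝ) / 63)) ^ 2) ≤ Real.exp (6 * 2 ^ d / 2 ^ b) := by
  simp only [← Finset.prod_pow (range m)]
  refine (tower (fun j => 20 * (b * 4 ^ j)) (fun i j hij => ?_)
    (fun j ω => (∏ l ∈ Ico (40 * (b * 4 ^ j)) (80 * (b * 4 ^ j)),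
      NN l (ω, ω') ^ ((1 : ℝ) / 63)) ^ 2) (fun _ _ => sq_nonneg _) ?_
    (fun j => Real.exp (3 * 2 ^ d / 2 ^ (b * 4 ^ j))) (fun _ => (Real.exp_pos _).le)
    (fun j ω₀ => group_bound (b * 4 ^ j) (Nat.mul_pos hb (by positivity)) ω' ω₀) m).trans ?_
  · have := Nat.pow_le_pow_right (by norm_num : 0 < 4) hij
    simp only
    gcongr
  · intro j ω ω'' h
    refine congrArg (· ^ 2) (Finset.prod_congr rfl fun l hl => ?_)
    rw [NN_congr (z := (ω, ω')) (z' := (ω'', ω')) (s := 20 * (b * 4 ^ (j + 1))) ?_ h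
      fun _ _ => rfl]
    have := (Finset.mem_Ico.1 hl).2
    rw [pow_succ, ← mul_assoc b]
    omega
  · rw [← Real.exp_sum, Real.exp_le_exp]
    have h1 : ∀ j ∈ range m, (3 * 2 ^ d / 2 ^ (b * 4 ^ j) : ℝ) ≤ 3 * 2 ^ d / 2 ^ b * (1 / 2) ^ j := by
      intro j _
      have h2 : b + j ≤ b * 4 ^ j := by
        have := Nat.lt_pow_self (n := j) (by norm_num : 1 < 4)
        nlinarith
      rw [one_div, inv_pow, ← div_eq_mul_inv, div_div, ← pow_add]
      exact div_le_div_of_nonneg_left (by positivity) (by positivity)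
        (pow_le_pow_right₀ (by norm_num) h2)
    refine (Finset.sum_le_sum h1).trans ?_
    rw [← Finset.mul_sum]
    have h3 : (0 : ℝ) ≤ 3 * 2 ^ d / 2 ^ b := by positivity
    calc _ ≤ 3 * 2 ^ d / 2 ^ b * 2 := mul_le_mul_of_nonneg_left (sum_geometric_two_le m) h3
      _ = _ := by ring

lemma prod_split (f : ℕ → ℝ) (v m : ℕ) : ∏ l ∈ Ico (40 * v) (40 * (v * 4 ^ m)), f l
    = (∏ j ∈ range m, ∏ l ∈ Ico (40 * (v * 4 ^ j)) (80 * (v * 4 ^ j)), f l)
      * ∏ j ∈ range m, ∏ l ∈ Ico (40 * (2 * v * 4 ^ j)) (80 * (2 * v * 4 ^ j)), f l := by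
  induction m with
  | zero => simp
  | succ m ih =>
    have h1 : v ≤ v * 4 ^ m := Nat.le_mul_of_pos_right _ (by positivity)
    have e1 : 40 * (2 * v * 4 ^ m) = 80 * (v * 4 ^ m) := by ring
    have e2 : 80 * (2 * v * 4 ^ m) = 160 * (v * 4 ^ m) := by ring
    have e3 : 40 * (v * 4 ^ (m + 1)) = 160 * (v * 4 ^ m) := by ring
    rw [Finset.prod_range_succ, Finset.prod_range_succ, mul_mul_mul_comm, ← ih, e1, e2, e3,
      Finset.prod_Ico_consecutive _ (by omega) (by omega),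
      Finset.prod_Ico_consecutive _ (by omega) (by omega)]

lemma moment_bound (v : ℕ) (hv : 1 ≤ v) (hk : 2 ^ d ≤ k * 2 ^ v) (m : ℕ) :
    av (fun z : Om d => ∏ l ∈ Ico (40 * v) (40 * (v * 4 ^ m)), NN l z ^ ((1 : ℝ) / 63))
      ≤ Real.exp (6 * k) := by
  rw [av_prod, av_comm]
  refine av_le_of_le fun ω' => ?_
  have h1 := chain_bound v hv ω' m
  have h2 := chain_bound (2 * v) (by omega) ω' m
  have h3 : (6 * 2 ^ d / 2 ^ v : ℝ) ≤ 6 * k := by
    rw [div_le_iff₀ (by positivity)]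
    have : ((2 : ℝ) ^ d) ≤ k * 2 ^ v := by exact_mod_cast hk
    linarith
  have h4 : (6 * 2 ^ d / 2 ^ (2 * v) : ℝ) ≤ 6 * 2 ^ d / 2 ^ v :=
    div_le_div_of_nonneg_left (by positivity) (by positivity)
      (pow_le_pow_right₀ (by norm_num) (by omega))
  have h5 := h1.trans (Real.exp_le_exp.2 h3)
  have h6 := h2.trans (Real.exp_le_exp.2 (h4.trans h3))
  simp only [prod_split]
  refine abs_le_of_sq_le_sq' ((av_cs _ _).trans ?_) (Real.exp_pos _).le |>.2
  rw [sq]
  exact mul_le_mul h5 h6 (av_nonneg fun _ => sq_nonneg _) (Real.exp_pos _).le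

abbrev Inj (k d : ℕ) : Type := {x : Fin k → X d // Function.Injective x}

noncomputable def KK (k d : ℕ) : Matrix (Inj k d) (Inj k d) ℝ :=
  fun x y => av fun ω : Coins d => if Bf ω d • x.1 = y.1 then 1 else 0

lemma sum_ind (g : Equiv.Perm (X d)) (x : Inj k d) (f : (Fin k → X d) → ℝ) :
    ∑ y : Inj k d, (if g • x.1 = y.1 then (1 : ℝ) else 0) * f y.1 = f (g • x.1) := by
  rw [Finset.sum_eq_single (⟨g • x.1, g.injective.comp x.2⟩ : Inj k d)]
  · simp
  · intro y _ hy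
    rw [if_neg fun h => hy (Subtype.ext h.symm), zero_mul]
  · intro h; exact absurd (Finset.mem_univ _) h

lemma iter_inj (x₀ : Inj k d) (t : ℕ) (y : Inj k d) :
    (Qop d)^[t] (Pi.single x₀.1 (1 : ℝ)) y.1 = (KK k d ^ t) y x₀ := by
  induction t generalizing y with
  | zero =>
    simp only [Function.iterate_zero, id, pow_zero, Matrix.one_apply, Pi.single_apply,
      Subtype.ext_iff]
  | succ t ih =>
    rw [Function.iterate_succ_apply', pow_succ', Matrix.mul_apply]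
    simp only [← ih, KK, ← av_mul_right]
    rw [← av_sum]
    exact av_congr fun ω => (sum_ind _ _ _).symm

lemma iter_noninj (x₀ : Inj k d) (t : ℕ) (y : Fin k → X d) (hy : ¬ Function.Injective y) :
    (Qop d)^[t] (Pi.single x₀.1 (1 : ℝ)) y = 0 := by
  induction t generalizing y with
  | zero =>
    have : y ≠ x₀.1 := fun h => hy (h ▸ x₀.2)
    simp [this]
  | succ t ih =>
    rw [Function.iterate_succ_apply', ← av_zero (α := Coins d)]
    exact av_congr fun ω => ih _ fun h => hy (Function.Injective.of_comp (f := Bf ω d) h)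

lemma KtK (i j : Inj k d) : ((KK k d).transpose * KK k d) i j = tau d d i.1 j.1 := by
  rw [Matrix.mul_apply, tau, av_prod]
  simp only [Matrix.transpose_apply, KK, ← av_mul_left]
  rw [← av_sum]
  refine av_congr fun ω => ?_
  simp only [← av_mul_right]
  rw [← av_sum]
  refine av_congr fun ω' => ?_
  have h := sum_ind (Bf ω' d)⁻¹ i (fun z => if Bf ω d • z = j.1 then (1 : ℝ) else 0)
  simp only [inv_smul_eq_iff] at h
  simp only [ind, mul_smul]
  rw [← h]
  exact Finset.sum_congr rfl fun z _ => by simp only [eq_comm]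

end PA

open PA in
theorem partA (d k v : ℕ) (hv : 1 ≤ v) (hk : 2 ^ d ≤ k * 2 ^ v) :
    ∑ x₀ ∈ Finset.univ.filter (fun x : Fin k → X d => Function.Injective x),
      ∑ y : Fin k → X d, ((Qop d)^[64] (Pi.single x₀ (1 : ℝ)) y) ^ 2
      ≤ 2 ^ (40 * k * v) * Real.exp (378 * k) := by
  set c : ℝ := 2 ^ (k * (40 * v)) / 2 ^ (k * d) with hc
  have hc0 : 0 ≤ c := by positivity
  have hrow : ∀ i : Inj k d, ∑ j, (((KK k d).transpose * KK k d) i j) ^ ((64 : ℝ) / 63)
      ≤ c ^ ((1 : ℝ) / 63) * Real.exp (6 * k) := by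
    intro i
    simp only [KtK]
    refine (Finset.sum_le_sum fun j _ => tau_bound (40 * v) d le_rfl i.1 j.1 i.2).trans ?_
    refine le_trans ?_ (mul_le_mul_of_nonneg_left (moment_bound v hv hk d)
      (Real.rpow_nonneg hc0 _))
    rw [← av_sum, ← av_mul_left]
    refine av_mono fun z => ?_
    have h1 := sum_ind (Bf z.1 d * (Bf z.2 d)⁻¹) i
      (fun _ => ∏ l ∈ range d, RR k (40 * v) l z ^ ((1 : ℝ) / 63))
    simp only [ind]
    rw [h1]
    have h2 := Nat.lt_pow_self (n := d) (by norm_num : 1 < 4)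
    have h3 : 4 ^ d ≤ v * 4 ^ d := Nat.le_mul_of_pos_left _ hv
    have h4 : v ≤ v * 4 ^ d := Nat.le_mul_of_pos_right _ (by positivity)
    exact prod_RR _ _ (by omega) (by omega) z
  have ht := trace_bound (KK k d) (fun i j => av_nonneg fun ω => by split_ifs <;> norm_num) _
    (by positivity) hrow
  have hsub : ∀ F : (Fin k → X d) → ℝ,
      ∑ x ∈ Finset.univ.filter (fun x : Fin k → X d => Function.Injective x), F x
        = ∑ x : Inj k d, F x.1 := fun F =>
    Finset.sum_subtype _ (fun x => by simp) F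
  have e1 : ∀ x₀ : Inj k d, ∑ y : Fin k → X d, ((Qop d)^[64] (Pi.single x₀.1 (1 : ℝ)) y) ^ 2
      = ∑ y : Inj k d, ((KK k d ^ 64) y x₀) ^ 2 := by
    intro x₀
    simp only [← iter_inj]
    rw [← hsub (fun y => ((Qop d)^[64] (Pi.single x₀.1 (1 : ℝ)) y) ^ 2)]
    refine (Finset.sum_filter_of_ne fun y _ hy => by_contra fun h => hy ?_).symm
    rw [iter_noninj x₀ 64 y h]; norm_num
  rw [hsub, Finset.sum_congr rfl fun x₀ _ => e1 x₀, Finset.sum_comm]
  refine ht.trans ?_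
  have hcard : (Fintype.card (Inj k d) : ℝ) ≤ 2 ^ (k * d) := by
    have := Fintype.card_subtype_le (fun x : Fin k → X d => Function.Injective x)
    simp only [Fintype.card_fun, Fintype.card_bool, Fintype.card_fin, ← pow_mul] at this
    rw [mul_comm]
    exact_mod_cast this
  have e2 : (c ^ ((1 : ℝ) / 63) * Real.exp (6 * k)) ^ 63 = c * Real.exp (378 * k) := by
    rw [mul_pow, ← Real.rpow_natCast, ← Real.rpow_mul hc0, ← Real.exp_nat_mul]
    norm_num
    left; ring_nf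
  rw [e2]
  calc _ ≤ (2 : ℝ) ^ (k * d) * (c * Real.exp (378 * k)) := by gcongr
    _ = _ := by
      rw [hc, show 40 * k * v = k * (40 * v) by ring]
      field_simp

end Vale.Agent.P162
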