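import Vale.Agent.P162.B5

/-! Task B: operator norm at low density. See notes/P162_proof.md, section B. -/

namespace Vale.Agent.P162

open Finset

lemma Qs_le_Dq {d : ℕ} {Λ : Type*} [Fintype Λ] [DecidableEq Λ] (s : ℕ) : s ≤ d →
    ∀ f : (Λ → X d) → ℝ, (∀ x, ¬ Function.Injective x → f x = 0) →
      av (fun x => Qs d s f x ^ 2) ≤ Dq s f := by
  induction s with
  | zero =>
    intro _ f _
    rw [Qs_zero]
    refine le_trans (le_of_eq (av_congr fun x => ?_)) (Finset.single_le_sum
      (f := fun W : Finset Λ => av (fun x => wgt W 0 x * cnd (JW d W 0) f x ^ 2))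
      (fun W _ => av_nonneg fun x => mul_nonneg (wgt_nonneg _ _ _) (sq_nonneg _))
      (Finset.mem_univ ∅))
    have : ∀ u, mix (JW d (∅ : Finset Λ) 0) x u = x := fun u =>
      funext fun i => funext fun m => mix_mem _ _ (mem_JW.2 (Or.inr (Nat.zero_le _)))
    simp [wgt, cnt, Phi_zero, cnd, this, av_const]
  | succ s ih =>
    intro hs f hf
    rw [Qs_succ hs]
    exact (ih (by omega) _ (Pop_inj _ f hf)).trans (Dq_step ⟨s, hs⟩ f hf)

theorem partB {d : ℕ} {Λ : Type*} [Fintype Λ] [DecidableEq Λ] (hΛ : 1 ≤ Fintype.card Λ)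
    (f : (Λ → X d) → ℝ) (hinj : ∀ x, ¬ Function.Injective x → f x = 0)
    (hmar : ∀ i x, ∑ p, f (Function.update x i p) = 0) :
    ∑ x, (Qop d f x) ^ 2
      ≤ (2 ^ 256 * (Fintype.card Λ : ℝ) / 2 ^ d) ^ ((Fintype.card Λ : ℝ) / 16) * ∑ x, f x ^ 2 := by
  have h := Qs_le_Dq d le_rfl f hinj
  rw [Dq, Finset.sum_eq_single Finset.univ] at h
  · have e1 : ∀ x u : Λ → X d, mix (JW d Finset.univ d) x u = x := fun x u =>
      funext fun i => mix_JW_mem x u (Finset.mem_univ i)
    have e2 : ∀ x : Λ → X d, wgt Finset.univ d x = Phi (Fintype.card Λ) (2 ^ d) := by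
      intro x
      have e3 : ∀ i, hi d (x i) = fun _ => false := fun i => funext fun m => by
        simp [hi, not_le.2 m.isLt]
      rw [wgt, Finset.prod_eq_single (fun _ => false)]
      · simp [cnt, e3]
      · intro c _ hc
        simp [cnt, e3, Ne.symm hc, Phi_zero]
      · simp
    simp only [cnd, e1, e2, av_const, av_mul_left] at h
    have hk : (0 : ℝ) < Fintype.card Λ := by exact_mod_cast hΛ
    have h2 : Phi (Fintype.card Λ) (2 ^ d)
        ≤ (2 ^ 256 * (Fintype.card Λ : ℝ) / 2 ^ d) ^ ((Fintype.card Λ : ℝ) / 16) := by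
      refine (Phi_le hΛ _).trans ?_
      rw [Real.rpow_def_of_pos (by positivity), lphi, mul_comm (Real.log _)]
      have := Real.exp_pos ((Fintype.card Λ : ℝ) / 16 *
        Real.log (2 ^ 256 * (Fintype.card Λ : ℝ) / 2 ^ d))
      linarith
    have h3 := h.trans (mul_le_mul_of_nonneg_right h2 (av_nonneg fun _ => sq_nonneg _))
    have hc : (0 : ℝ) < Fintype.card (Λ → X d) := by exact_mod_cast Fintype.card_pos
    simp only [av, ← mul_div_assoc] at h3
    exact (div_le_div_iff_of_pos_right hc).1 h3
  · intro W _ hW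
    obtain ⟨i, hi⟩ : ∃ i, i ∉ W := by
      by_contra hc
      push Not at hc
      exact hW (Finset.eq_univ_iff_forall.2 hc)
    have : ∀ x, cnd (JW d W d) f x = 0 := by
      intro x
      rw [cnd, av_update i, ← av_zero (α := Λ → X d)]
      refine av_congr fun u => ?_
      have e : ∀ p, mix (JW d W d) x (Function.update u i p)
          = Function.update (mix (JW d W d) x u) i p := by
        intro p
        funext j
        by_cases hj : j = i
        · subst hj
          funext m
          rw [mix_notMem _ _ (fun h => (mem_JW.1 h).elim hi (not_le.2 m.isLt))]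
          simp
        · rw [mix_update_ne _ _ _ hj, Function.update_of_ne hj]
      simp only [e, av, hmar, zero_div]
    simp [this, av_zero]
  · simp

end Vale.Agent.P162
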