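import Vale.Agent.P162.PartC3

/-! Task C2: operator norm at high density. See notes/P162_proof.md, section C2. -/

namespace Vale.Agent.P162

open Finset NormedSpace
open scoped InnerProductSpace

section
variable {d : ℕ}

/-- the block of points agreeing with `c` on the bits `≥ s` -/
def Blk (s : ℕ) (c : X d) : Finset (X d) :=
  Finset.univ.filter (fun p => ∀ l : Fin d, s ≤ l.val → p l = c l)

lemma mem_Blk {s : ℕ} {c p : X d} : p ∈ Blk s c ↔ ∀ l : Fin d, s ≤ l.val → p l = c l := by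
  simp [Blk]

lemma Blk_flip (s : ℕ) (c : X d) : ∀ l : Fin d, l.val < s → ∀ p ∈ Blk s c, flip l p ∈ Blk s c := by
  intro l hl p hp
  rw [mem_Blk] at *
  intro i hi
  rw [flip_ne (fun e => by rw [e] at hi; omega), hp i hi]

lemma mem_Blk_update {s : ℕ} (h : s < d) (c p : X d) (b : Bool) :
    p ∈ Blk s (Function.update c ⟨s, h⟩ b) ↔ p ∈ Blk (s + 1) c ∧ p ⟨s, h⟩ = b := by
  rw [mem_Blk, mem_Blk]
  constructor
  · intro hp
    refine ⟨fun l hl => ?_, by simpa using hp ⟨s, h⟩ le_rfl⟩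
    rw [hp l (by omega), Function.update_of_ne (fun e => by rw [e] at hl; simp at hl)]
  · rintro ⟨h1, h2⟩ l hl
    by_cases e : l = ⟨s, h⟩
    · rw [e, h2, Function.update_self]
    · rw [Function.update_of_ne e]
      refine h1 l (Nat.lt_of_le_of_ne hl fun e' => e (Fin.ext e'.symm))

lemma Blk_succ {s : ℕ} (h : s < d) (c : X d) : Blk (s + 1) c =
    Blk s (Function.update c ⟨s, h⟩ false) ∪ Blk s (Function.update c ⟨s, h⟩ true) := by
  ext p
  rw [Finset.mem_union, mem_Blk_update, mem_Blk_update]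
  cases p ⟨s, h⟩ <;> simp

lemma Blk_disj {s : ℕ} (h : s < d) (c : X d) :
    Disjoint (Blk s (Function.update c ⟨s, h⟩ false)) (Blk s (Function.update c ⟨s, h⟩ true)) := by
  rw [Finset.disjoint_left]
  intro p h1 h2
  rw [mem_Blk_update] at h1 h2
  simp [h1.2] at h2

lemma card_Blk {s : ℕ} (hs : s ≤ d) : ∀ c : X d, (Blk s c).card = 2 ^ s := by
  induction s with
  | zero =>
    intro c
    have : Blk 0 c = {c} := by
      ext p
      simp [mem_Blk, funext_iff]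
    rw [this]; rfl
  | succ s ih =>
    intro c
    have h : s < d := by omega
    rw [Blk_succ h, Finset.card_union_of_disjoint (Blk_disj h c), ih h.le, ih h.le]
    ring

lemma TT_split {l : Fin d} {Z0 Z1 : Finset (X d)} (hd : Disjoint Z0 Z1)
    (h0 : ∀ p ∈ Z0, p l = false) (h1 : ∀ p ∈ Z1, p l = true) (c : ℝ) :
    (2 * c) • TT Z1 + (2 * c) • TT Z0 = c • TC l (Z0 ∪ Z1) + c • TT (Z0 ∪ Z1) := by
  have e : ∀ (A B : Finset (X d)) (a b : Bool), (∀ p ∈ A, p l = a) → (∀ p ∈ B, p l = b) →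
      ∑ p ∈ A, ∑ q ∈ B, (sg (p l) * sg (q l)) • lrep d (Equiv.swap p q) =
        (sg a * sg b) • ∑ p ∈ A, ∑ q ∈ B, lrep d (Equiv.swap p q) := by
    intro A B a b hA hB
    simp only [Finset.smul_sum]
    exact Finset.sum_congr rfl fun p hp => Finset.sum_congr rfl fun q hq => by
      rw [hA p hp, hB q hq]
  simp only [TT, TC, Finset.sum_union hd, Finset.sum_add_distrib]
  rw [e _ _ _ _ h0 h0, e _ _ _ _ h0 h1, e _ _ _ _ h1 h0, e _ _ _ _ h1 h1]
  simp only [sg, if_true, Bool.false_eq_true, if_false]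
  module

lemma step_est {s : ℕ} (h : s < d) (c : X d) {η κ : ℝ} (hη0 : 0 ≤ η) (hη : 4 * η ≤ 1)
    (hκ : 0 ≤ κ) (ih : ∀ (c : X d) (g : EE d),
      ‖QQ (Blk s c) s g‖ ^ 2 ≤ κ * ‖exp ((η / (4 * 2 ^ s)) • TT (Blk s c)) g‖ ^ 2) (g : EE d) :
    ‖QQ (Blk (s + 1) c) (s + 1) g‖ ^ 2 ≤ κ * κ * Real.exp (2 * η) *
      ‖exp ((η / (4 * 2 ^ (s + 1))) • TT (Blk (s + 1) c)) g‖ ^ 2 := by
  have hd := Blk_disj h c
  have hu := Blk_succ h c
  have hfl := Blk_flip (s + 1) c ⟨s, h⟩ (by simp)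
  have hcard := card_Blk (s := s + 1) h c
  have e0 : η / (4 * 2 ^ s) = 2 * (η / (4 * 2 ^ (s + 1))) := by field_simp; ring
  have hsplit := TT_split (l := ⟨s, h⟩) hd (fun p hp => ((mem_Blk_update h c p _).1 hp).2)
    (fun p hp => ((mem_Blk_update h c p _).1 hp).2) (η / (4 * 2 ^ (s + 1)))
  rw [← e0, ← hu] at hsplit
  have hQ := QQ_union hd h.le (Blk_flip s _) (Blk_flip s _)
  rw [← hu] at hQ
  have c1 := Cm.comm hd ((Cm_TT _).smul (η / (4 * 2 ^ s))).exp (Cm_QQ h.le (Blk_flip s _))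
  have c2 := Cm.comm hd ((Cm_TT _).smul (η / (4 * 2 ^ s))) ((Cm_TT _).smul (η / (4 * 2 ^ s)))
  have c3 := comm_smul (TT_comm ((Cm_TC ⟨s, h⟩ (Blk (s + 1) c)).smul
    (η / (4 * 2 ^ (s + 1))))).symm (η / (4 * 2 ^ (s + 1)))
  have c4 := (comm_smul (TT_comm (Cm_PP hfl)).symm (η / (4 * 2 ^ (s + 1)))).exp_right
  have i0 := ih (Function.update c ⟨s, h⟩ false)
  have i1 := ih (Function.update c ⟨s, h⟩ true)
  have hm := merge_est hfl (t := η / (4 * 2 ^ (s + 1))) (by positivity) (by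
    rw [hcard]; push_cast
    refine le_trans (le_of_eq ?_) hη
    field_simp; ring)
  have e1 : 8 * (η / (4 * 2 ^ (s + 1))) * ((Blk (s + 1) c).card : ℝ) = 2 * η := by
    rw [hcard]; push_cast; field_simp; ring
  rw [e1] at hm
  have e2 := exp_add_comm c2.symm
  rw [hsplit, exp_add_comm c3] at e2
  rw [QQ_succ _ h, hQ, mul_apply_eq_comp, mul_apply_eq_comp]
  refine (i0 _).trans ?_
  rw [← mul_apply_eq_comp (exp _), c1.eq, mul_apply_eq_comp, mul_assoc, mul_assoc]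
  refine mul_le_mul_of_nonneg_left ((i1 _).trans (mul_le_mul_of_nonneg_left ?_ hκ)) hκ
  rw [← mul_apply_eq_comp (exp _), ← e2, mul_apply_eq_comp, ← mul_apply_eq_comp (exp _) (PP _ _),
    ← c4.eq, mul_apply_eq_comp]
  exact (hm _ fun ε => rho_PP _ _ _ _).trans
    (mul_le_mul_of_nonneg_left (norm_PP_sq _ _ _) (Real.exp_pos _).le)

lemma block_est {s1 : ℕ} {η : ℝ} (hη : η = (((2 : ℝ) ^ s1) ^ 3)⁻¹) (hη' : 4 * η ≤ 1) (s : ℕ)
    (h1 : s1 ≤ s) (hs : s ≤ d) : ∀ (c : X d) (g : EE d),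
      ‖QQ (Blk s c) s g‖ ^ 2 ≤ Real.exp (-(η * 2 ^ s / 2) + 2 * η * (2 ^ s / 2 ^ s1 - 1)) *
        ‖exp ((η / (4 * 2 ^ s)) • TT (Blk s c)) g‖ ^ 2 := by
  induction s, h1 using Nat.le_induction with
  | base =>
    intro c g
    rw [div_self (by positivity), sub_self, mul_zero, add_zero]
    exact base_est hs (Blk_flip _ c) (card_Blk hs c)
      (fun p hp q hq l hl => by rw [mem_Blk.1 hp l hl, mem_Blk.1 hq l hl]) hη g
  | succ s h1 ih =>
    intro c g
    refine (step_est hs c (by rw [hη]; positivity) hη' (Real.exp_pos _).le (ih (by omega))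
      g).trans (le_of_eq ?_)
    rw [← Real.exp_add, ← Real.exp_add]
    congr 2
    ring

/-- functions all of whose `k`-point marginals vanish -/
def KK (d k : ℕ) : Submodule ℝ (EE d) where
  carrier := {f | ∀ T : Finset (X d), T.card = k → ETL T f = 0}
  add_mem' ha hb T hT := by rw [map_add, ha T hT, hb T hT, add_zero]
  zero_mem' T _ := map_zero _
  smul_mem' c _ ha T hT := by rw [map_smul, ha T hT, smul_zero]

lemma rho_mem_KK {k : ℕ} (g : Equiv.Perm (X d)) {f : EE d} (hf : f ∈ KK d k) :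
    lrep d g f ∈ KK d k := by
  intro T hT
  ext x
  have := congrFun (congrArg WithLp.ofLp (hf T hT)) (g⁻¹ * x)
  simpa only [ETL_apply, ET_eq, rho_apply, mul_assoc, WithLp.ofLp_zero, Pi.zero_apply] using this

lemma top_est {k : ℕ} (hk : k < 2 ^ d) {c : ℝ} (hc : 0 < c) {f : EE d} (hf : f ∈ KK d k) :
    ‖exp (c • TT Finset.univ) f‖ ^ 2 ≤ Real.exp (2 * (c * (2 ^ d * (2 ^ d - k)))) * ‖f‖ ^ 2 := by
  refine exp_le (sa_smul _ (sa_TT _)) (KK d k) (fun x hx => ?_) _ (fun v μ hv hK hμ => ?_) hf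
  · simp only [TT, _root_.smul_apply, _root_.sum_apply]
    exact Submodule.smul_mem _ _ (Submodule.sum_mem _ fun p _ => Submodule.sum_mem _ fun q _ =>
      rho_mem_KK _ hx)
  · have hn : (Finset.univ : Finset (X d)).card = 2 ^ d := by simp
    have := casimir' _ Finset.univ rfl (2 ^ d - k - 1) v.ofLp (μ / c)
      (fun h => hv (by ext x; exact congrFun h x)) (fun g => by
        have h1 := congrFun (congrArg WithLp.ofLp hμ) g
        simp only [TT, _root_.smul_apply, _root_.sum_apply, WithLp.ofLp_smul, WithLp.ofLp_sum,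
          Pi.smul_apply, Finset.sum_apply, rho_apply, Equiv.swap_inv, smul_eq_mul] at h1
        rw [← sum_swap_conj (by simp [mem_Stab]) v.ofLp, div_mul_eq_mul_div, ← h1]
        field_simp)
      (fun R _ hR => congrArg WithLp.ofLp (hK Rᶜ (by
        rw [Finset.card_compl, hR, ← Finset.card_univ, hn]; omega)))
    rw [div_le_iff₀ hc, hn] at this
    refine this.trans ?_
    rw [mul_comm]
    refine mul_le_mul_of_nonneg_left ?_ hc.le
    push_cast
    refine mul_le_mul_of_nonneg_left ?_ (by positivity)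
    have h2 : ((2 ^ d - k : ℕ) : ℝ) = 2 ^ d - k := by rw [Nat.cast_sub hk.le]; push_cast; rfl
    rw [← h2]
    exact_mod_cast Nat.sub_le _ _

end

theorem partC (e : ℕ) (he : 1 ≤ e) : ∃ γ : ℝ, 0 < γ ∧ ∀ d : ℕ, e + 3 ≤ d → ∀ f : Equiv.Perm (X d) → ℝ,
    (∀ T : Finset (X d), T.card = 2 ^ (d - e) → ET T f = 0) →
    ∑ g, (Qop d f g) ^ 2 ≤ Real.exp (-(γ * 2 ^ d)) * ∑ g, f g ^ 2 := by
  set η : ℝ := (((2 : ℝ) ^ (e + 3)) ^ 3)⁻¹ with hη
  have hη0 : 0 < η := by positivity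
  have hη1 : 4 * η ≤ 1 := by
    have h1 : (1 : ℝ) ≤ 2 ^ e := one_le_pow₀ (by norm_num)
    have h2 : (8 : ℝ) ^ 3 ≤ (2 ^ (e + 3)) ^ 3 :=
      pow_le_pow_left₀ (by norm_num) (by rw [pow_add]; linarith) 3
    rw [hη, ← div_eq_mul_inv, div_le_one (by positivity)]
    linarith
  refine ⟨η / (4 * 2 ^ e), by positivity, fun d hd f hf => ?_⟩
  have h1 := block_est hη hη1 d hd le_rfl (fun _ => false) (WithLp.toLp 2 f)
  have hB : Blk d (fun _ : Fin d => false) = Finset.univ := by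
    ext p
    simp only [mem_Blk, Finset.mem_univ, iff_true]
    intro l hl
    omega
  have h2 := top_est (d := d) (k := 2 ^ (d - e)) (Nat.pow_lt_pow_right (by norm_num) (by omega))
    (c := η / (4 * 2 ^ d)) (by positivity) (f := WithLp.toLp 2 f)
    (fun T hT => by ext x; exact congrFun (hf T hT) x)
  rw [hB] at h1
  have h3 := h1.trans (mul_le_mul_of_nonneg_left h2 (Real.exp_pos _).le)
  rw [EuclideanSpace.real_norm_sq_eq, EuclideanSpace.real_norm_sq_eq, QQ_univ le_rfl,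
    ← mul_assoc, ← Real.exp_add] at h3
  refine h3.trans (mul_le_mul_of_nonneg_right (Real.exp_le_exp.2 ?_)
    (Finset.sum_nonneg fun _ _ => sq_nonneg _))
  obtain ⟨k, rfl⟩ : ∃ k, d = k + e := ⟨d - e, by omega⟩
  rw [Nat.add_sub_cancel]
  push_cast
  have e1 : -(η * 2 ^ (k + e) / 2) + 2 * η * (2 ^ (k + e) / 2 ^ (e + 3) - 1) +
      2 * (η / (4 * 2 ^ (k + e)) * (2 ^ (k + e) * (2 ^ (k + e) - 2 ^ k))) =
      -(η / (4 * 2 ^ e) * 2 ^ (k + e)) - 2 * η := by
    field_simp; ring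
  rw [e1]
  linarith

end Vale.Agent.P162
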