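import Vale.Agent.P162.Casimir

/-! Operator exponentials on a finite-dimensional Euclidean space, and chaos domination. -/

set_option linter.unusedSectionVars false

namespace Vale.Agent.P162

open Finset NormedSpace
open scoped InnerProductSpace Nat

variable {E : Type*} [NormedAddCommGroup E] [InnerProductSpace ℝ E] [FiniteDimensional ℝ E]
  [CompleteSpace E]

lemma exp_add_comm {A B : E →L[ℝ] E} (h : Commute A B) : exp (A + B) = exp A * exp B :=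
  exp_add_of_commute_of_mem_ball (𝕂 := ℝ) h
    ((expSeries_radius_eq_top ℝ (E →L[ℝ] E)).symm ▸ edist_lt_top _ _)
    ((expSeries_radius_eq_top ℝ (E →L[ℝ] E)).symm ▸ edist_lt_top _ _)

lemma hasSum_inner_exp (A : E →L[ℝ] E) (x y : E) :
    HasSum (fun n : ℕ => (n !⁻¹ : ℝ) * ⟪x, (A ^ n) y⟫_ℝ) ⟪x, exp A y⟫_ℝ := by
  have := (exp_series_hasSum_exp' (𝕂 := ℝ) A).mapL
    ((innerSL ℝ x).comp (ContinuousLinearMap.apply ℝ E y))
  simpa using this

lemma hasSum_real_exp (x : ℝ) : HasSum (fun n : ℕ => (n !⁻¹ : ℝ) * x ^ n) (Real.exp x) := by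
  rw [Real.exp_eq_exp_ℝ]
  exact exp_series_hasSum_exp' (𝕂 := ℝ) x

lemma exp_eigen {A : E →L[ℝ] E} {v : E} {θ : ℝ} (h : A v = θ • v) :
    exp A v = Real.exp θ • v := by
  have h1 : ∀ n : ℕ, (A ^ n) v = θ ^ n • v := by
    intro n
    induction n with
    | zero => simp
    | succ n ih => rw [pow_succ', mul_apply_eq_comp, ih, map_smul, h, smul_smul, pow_succ]
  refine ext_inner_left ℝ fun x => ?_
  refine (hasSum_inner_exp A x v).unique ?_
  simp only [h1, inner_smul_right, ← mul_assoc]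
  exact (hasSum_real_exp θ).mul_right _

lemma sa_inner {A : E →L[ℝ] E} (hA : IsSelfAdjoint A) (x y : E) : ⟪A x, y⟫_ℝ = ⟪x, A y⟫_ℝ :=
  ContinuousLinearMap.isSelfAdjoint_iff_isSymmetric.1 hA x y

lemma sa_sum {ι : Type*} (I : Finset ι) {A : ι → E →L[ℝ] E} (h : ∀ i ∈ I, IsSelfAdjoint (A i)) :
    IsSelfAdjoint (∑ i ∈ I, A i) := isSelfAdjoint_sum _ h

lemma sa_smul {A : E →L[ℝ] E} (c : ℝ) (h : IsSelfAdjoint A) : IsSelfAdjoint (c • A) :=
  (IsSelfAdjoint.all c).smul h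

lemma comm_smul {A B : E →L[ℝ] E} (h : Commute A B) (c : ℝ) : Commute A (c • B) :=
  h.smul_right c

lemma norm_exp_sq {A : E →L[ℝ] E} (hA : IsSelfAdjoint A) (x : E) :
    ‖exp A x‖ ^ 2 = ⟪x, exp (A + A) x⟫_ℝ := by
  rw [← real_inner_self_eq_norm_sq, sa_inner hA.exp, exp_add_comm (Commute.refl A)]
  rfl

lemma exp_ge {A : E →L[ℝ] E} (hA : IsSelfAdjoint A) (c : ℝ) (x : E) :
    (1 - c) * ‖x‖ ^ 2 + 2 * ⟪x, A x⟫_ℝ ≤ Real.exp (-c) * ‖exp A x‖ ^ 2 := by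
  obtain ⟨n, b, θ, hb, hB⟩ := spec (A : E →ₗ[ℝ] E)
    (ContinuousLinearMap.isSelfAdjoint_iff_isSymmetric.1 hA) ⊤ (fun _ _ => Submodule.mem_top)
  have h1 := hB x Submodule.mem_top LinearMap.id (fun _ => 1) (fun i => by simp)
  have h2 := hB x Submodule.mem_top _ θ (fun i => (hb i).2.2)
  have h3 := hB x Submodule.mem_top (exp (A + A) : E →L[ℝ] E) (fun i => Real.exp (θ i + θ i))
    (fun i => exp_eigen (by
      rw [_root_.add_apply, add_smul]
      exact congrArg₂ _ (hb i).2.2 (hb i).2.2))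
  rw [LinearMap.id_apply, real_inner_self_eq_norm_sq] at h1
  rw [norm_exp_sq hA, h1]
  erw [h2, h3]
  rw [Finset.mul_sum, Finset.mul_sum, Finset.mul_sum, ← Finset.sum_add_distrib]
  refine Finset.sum_le_sum fun i _ => ?_
  have := Real.add_one_le_exp (-c + (θ i + θ i))
  rw [Real.exp_add] at this
  nlinarith [mul_le_mul_of_nonneg_right this (sq_nonneg ⟪b i, x⟫_ℝ)]

lemma exp_le {A : E →L[ℝ] E} (hA : IsSelfAdjoint A) (K : Submodule ℝ E) (hK : ∀ x ∈ K, A x ∈ K)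
    (c : ℝ) (h : ∀ (v : E) (μ : ℝ), v ≠ 0 → v ∈ K → A v = μ • v → μ ≤ c) {x : E} (hx : x ∈ K) :
    ‖exp A x‖ ^ 2 ≤ Real.exp (2 * c) * ‖x‖ ^ 2 := by
  obtain ⟨n, b, θ, hb, hB⟩ := spec (A : E →ₗ[ℝ] E)
    (ContinuousLinearMap.isSelfAdjoint_iff_isSymmetric.1 hA) K hK
  have h1 := hB x hx LinearMap.id (fun _ => 1) (fun i => by simp)
  have h3 := hB x hx (exp (A + A) : E →L[ℝ] E) (fun i => Real.exp (θ i + θ i))
    (fun i => exp_eigen (by
      rw [_root_.add_apply, add_smul]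
      exact congrArg₂ _ (hb i).2.2 (hb i).2.2))
  rw [LinearMap.id_apply, real_inner_self_eq_norm_sq] at h1
  rw [norm_exp_sq hA, h1]
  erw [h3]
  rw [Finset.mul_sum]
  refine Finset.sum_le_sum fun i _ => ?_
  rw [one_mul]
  refine mul_le_mul_of_nonneg_right (Real.exp_le_exp.2 ?_) (sq_nonneg _)
  have := h _ _ (hb i).1 (hb i).2.1 (hb i).2.2
  linarith

section dom
variable {ι κ : Type*} [Fintype ι] [DecidableEq ι]

/-- a monomial in the signs -/
noncomputable def mono (e : ι → ℕ) (ε : ι → Bool) : ℝ := ∏ y, sg (ε y) ^ e y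

lemma av_mono_nonneg (e : ι → ℕ) : 0 ≤ av (mono e) := by
  unfold mono
  rw [av_pi_prod (fun y b => sg b ^ e y)]
  refine Finset.prod_nonneg fun y _ => ?_
  have : (-1 : ℝ) ≤ (-1) ^ e y := by
    rcases neg_one_pow_eq_or ℝ (e y) with h | h <;> simp [h]
  simp only [av, sg, Fintype.univ_bool, Finset.mem_singleton, Bool.true_eq_false,
    not_false_eq_true, Finset.sum_insert, Finset.sum_singleton, if_true, Bool.false_eq_true,
    if_false, one_pow]
  apply div_nonneg (by linarith) (Nat.cast_nonneg _)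

lemma mono_add_single (e : ι → ℕ) (y : ι) (ε : ι → Bool) :
    mono (e + Pi.single y 1) ε = mono e ε * sg (ε y) := by
  unfold mono
  simp only [Pi.add_apply, pow_add, Finset.prod_mul_distrib]
  congr 1
  rw [Finset.prod_eq_single y (fun z _ hz => by simp [hz]) (by simp)]
  simp

lemma dom (I : Finset κ) (U : κ → E →L[ℝ] E) (hU : ∀ a x, ‖U a x‖ ≤ ‖x‖) (t : ℝ) (ht : 0 ≤ t)
    (y1 y2 : κ → ι) (h1 : E) (r : ℝ) (j : ℕ) : ∀ (e : ι → ℕ) (h2 : E), ‖h2‖ ≤ r →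
    av (fun ε : ι → Bool => mono e ε *
        ⟪h1, ((∑ a ∈ I, (t * (sg (ε (y1 a)) * sg (ε (y2 a)))) • U a) ^ j) h2⟫_ℝ)
      ≤ av (fun ε : ι → Bool => mono e ε *
        (∑ a ∈ I, t * (sg (ε (y1 a)) * sg (ε (y2 a)))) ^ j) * (‖h1‖ * r) := by
  induction j with
  | zero =>
    intro e h2 hr
    simp only [pow_zero, mul_one, one_apply_eq_self]
    rw [av_mul_right]
    exact mul_le_mul_of_nonneg_left ((real_inner_le_norm _ _).trans
      (mul_le_mul_of_nonneg_left hr (norm_nonneg _))) (av_mono_nonneg e)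
  | succ j ih =>
    intro e h2 hr
    have e1 : ∀ ε : ι → Bool, mono e ε *
        ⟪h1, ((∑ a ∈ I, (t * (sg (ε (y1 a)) * sg (ε (y2 a)))) • U a) ^ (j + 1)) h2⟫_ℝ =
        ∑ b ∈ I, t * (mono (e + Pi.single (y1 b) 1 + Pi.single (y2 b) 1) ε *
          ⟪h1, ((∑ a ∈ I, (t * (sg (ε (y1 a)) * sg (ε (y2 a)))) • U a) ^ j) (U b h2)⟫_ℝ) := by
      intro ε
      rw [pow_succ, mul_apply_eq_comp]
      generalize (∑ a ∈ I, (t * (sg (ε (y1 a)) * sg (ε (y2 a)))) • U a) ^ j = W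
      rw [_root_.sum_apply, map_sum, inner_sum, Finset.mul_sum]
      refine Finset.sum_congr rfl fun b _ => ?_
      rw [_root_.smul_apply, map_smul, inner_smul_right, mono_add_single,
        mono_add_single]
      ring
    have e2 : ∀ ε : ι → Bool, mono e ε *
        (∑ a ∈ I, t * (sg (ε (y1 a)) * sg (ε (y2 a)))) ^ (j + 1) =
        ∑ b ∈ I, t * (mono (e + Pi.single (y1 b) 1 + Pi.single (y2 b) 1) ε *
          (∑ a ∈ I, t * (sg (ε (y1 a)) * sg (ε (y2 a)))) ^ j) := by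
      intro ε
      rw [pow_succ]
      generalize (∑ a ∈ I, t * (sg (ε (y1 a)) * sg (ε (y2 a)))) ^ j = W
      rw [Finset.mul_sum, Finset.mul_sum]
      refine Finset.sum_congr rfl fun b _ => ?_
      rw [mono_add_single, mono_add_single]
      ring
    simp only [e1, e2]
    rw [av_sum, av_sum, Finset.sum_mul]
    refine Finset.sum_le_sum fun b _ => ?_
    rw [av_mul_left, av_mul_left, mul_assoc]
    exact mul_le_mul_of_nonneg_left (ih _ _ ((hU b h2).trans hr)) ht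

lemma dom_exp (I : Finset κ) (U : κ → E →L[ℝ] E) (hU : ∀ a x, ‖U a x‖ ≤ ‖x‖) (t : ℝ) (ht : 0 ≤ t)
    (y1 y2 : κ → ι) (h : E) (B : E →L[ℝ] E)
    (hB : ∀ (ε : ι → Bool) (j : ℕ), ⟪h, (B ^ j) h⟫_ℝ =
      ⟪h, ((∑ a ∈ I, (t * (sg (ε (y1 a)) * sg (ε (y2 a)))) • U a) ^ j) h⟫_ℝ) :
    ⟪h, exp B h⟫_ℝ ≤ av (fun ε : ι → Bool =>
      Real.exp (∑ a ∈ I, t * (sg (ε (y1 a)) * sg (ε (y2 a))))) * ‖h‖ ^ 2 := by
  have h1 : HasSum (fun j : ℕ => av (fun ε : ι → Bool =>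
      (j !⁻¹ : ℝ) * (∑ a ∈ I, t * (sg (ε (y1 a)) * sg (ε (y2 a)))) ^ j) * ‖h‖ ^ 2)
      (av (fun ε : ι → Bool =>
        Real.exp (∑ a ∈ I, t * (sg (ε (y1 a)) * sg (ε (y2 a))))) * ‖h‖ ^ 2) :=
    ((hasSum_sum fun ε _ => hasSum_real_exp _).div_const _).mul_right _
  refine hasSum_le (fun j => ?_) (hasSum_inner_exp B h h) h1
  rw [av_mul_left, mul_assoc]
  refine mul_le_mul_of_nonneg_left ?_ (by positivity)
  have h2 := dom I U hU t ht y1 y2 h ‖h‖ j 0 h le_rfl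
  simp only [mono, Pi.zero_apply, pow_zero, Finset.prod_const_one, one_mul, ← hB, av_const] at h2
  rwa [sq]

end dom

end Vale.Agent.P162
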