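import Vale.Agent.P162.PartC1

/-! The left regular representation, block averaging operators and their algebra. -/

namespace Vale.Agent.P162

open Finset NormedSpace
open scoped InnerProductSpace

variable {d : ℕ}

/-- functions on the symmetric group with the Euclidean norm -/
abbrev EE (d : ℕ) : Type := EuclideanSpace ℝ (Equiv.Perm (X d))

/-- left regular representation -/
noncomputable def lrep (d : ℕ) : Equiv.Perm (X d) →* (EE d →L[ℝ] EE d) where
  toFun g := LinearMap.toContinuousLinearMap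
    { toFun := fun f => WithLp.toLp 2 (fun x => f.ofLp (g⁻¹ * x))
      map_add' := fun _ _ => rfl
      map_smul' := fun _ _ => rfl }
  map_one' := by ext f x; simp
  map_mul' g h := by
    ext f x
    change f.ofLp ((g * h)⁻¹ * x) = f.ofLp (h⁻¹ * (g⁻¹ * x))
    rw [mul_inv_rev, mul_assoc]

lemma rho_apply (g : Equiv.Perm (X d)) (f : EE d) (x : Equiv.Perm (X d)) :
    (lrep d g f).ofLp x = f.ofLp (g⁻¹ * x) := rfl

lemma inner_rho (g : Equiv.Perm (X d)) (f h : EE d) : ⟪lrep d g f, h⟫_ℝ = ⟪f, lrep d g⁻¹ h⟫_ℝ := by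
  rw [inner_eq, inner_eq, ← Equiv.sum_comp (Equiv.mulLeft g)]
  simp [rho_apply]

lemma rho_rho (g h : Equiv.Perm (X d)) (f : EE d) : lrep d g (lrep d h f) = lrep d (g * h) f := by
  rw [map_mul]; rfl

lemma norm_rho (g : Equiv.Perm (X d)) (f : EE d) : ‖lrep d g f‖ = ‖f‖ := by
  rw [← sq_eq_sq₀ (norm_nonneg _) (norm_nonneg _), ← real_inner_self_eq_norm_sq,
    ← real_inner_self_eq_norm_sq, inner_rho, rho_rho, inv_mul_cancel, map_one]
  rfl

lemma sa_rho {g : Equiv.Perm (X d)} (h : g⁻¹ = g) : IsSelfAdjoint (lrep d g) :=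
  ContinuousLinearMap.isSelfAdjoint_iff_isSymmetric.2 fun x y => by
    have := inner_rho g x y
    rwa [h] at this

/-- `A` lies in the double commutant of the permutations supported in `Z` -/
def Cm (Z : Finset (X d)) (A : EE d →L[ℝ] EE d) : Prop :=
  ∀ B : EE d →L[ℝ] EE d, (∀ σ ∈ Stab Zᶜ, Commute B (lrep d σ)) → Commute B A

lemma Cm.rho {Z : Finset (X d)} {σ : Equiv.Perm (X d)} (h : σ ∈ Stab Zᶜ) : Cm Z (lrep d σ) :=
  fun _ hB => hB σ h

lemma Cm.one (Z : Finset (X d)) : Cm Z 1 := fun B _ => Commute.one_right B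

lemma Cm.mul {Z : Finset (X d)} {A A' : EE d →L[ℝ] EE d} (h : Cm Z A) (h' : Cm Z A') :
    Cm Z (A * A') := fun B hB => (h B hB).mul_right (h' B hB)

lemma Cm.smul {Z : Finset (X d)} {A : EE d →L[ℝ] EE d} (h : Cm Z A) (c : ℝ) :
    Cm Z (c • A) := fun B hB => comm_smul (h B hB) c

lemma Cm.sum {Z : Finset (X d)} {ι : Type*} (I : Finset ι) {A : ι → EE d →L[ℝ] EE d}
    (h : ∀ i ∈ I, Cm Z (A i)) : Cm Z (∑ i ∈ I, A i) :=
  fun B hB => Commute.sum_right _ _ _ fun i hi => h i hi B hB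

lemma Cm.exp {Z : Finset (X d)} {A : EE d →L[ℝ] EE d} (h : Cm Z A) : Cm Z (exp A) :=
  fun B hB => (h B hB).exp_right

lemma Cm.comm {Z Z' : Finset (X d)} (hd : Disjoint Z Z') {A A' : EE d →L[ℝ] EE d} (h : Cm Z A)
    (h' : Cm Z' A') : Commute A A' :=
  h' A fun τ hτ => (h _ fun σ hσ => by
    change _ * _ = _ * _
    rw [← map_mul, ← map_mul, Stab_comm hd hσ hτ]).symm

/-- sum of all transpositions inside `Z` -/
noncomputable def TT (Z : Finset (X d)) : EE d →L[ℝ] EE d :=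
  ∑ p ∈ Z, ∑ q ∈ Z, lrep d (Equiv.swap p q)

lemma Cm_TT (Z : Finset (X d)) : Cm Z (TT Z) :=
  Cm.sum _ fun _ hp => Cm.sum _ fun _ hq => Cm.rho (swap_mem_Stab hp hq)

lemma sa_TT (Z : Finset (X d)) : IsSelfAdjoint (TT Z) :=
  sa_sum _ fun _ _ => sa_sum _ fun _ _ => sa_rho (Equiv.swap_inv _ _)

lemma TT_comm {Z : Finset (X d)} {A : EE d →L[ℝ] EE d} (h : Cm Z A) : Commute (TT Z) A :=
  h _ fun σ hσ => by
    change _ * _ = _ * _
    simp only [TT, Finset.sum_mul, Finset.mul_sum, ← map_mul]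
    exact sum_swap_conj hσ _

/-- a layer of switches restricted to `Z` -/
def HZ (l : Fin d) (Z : Finset (X d)) (ε : X d → Bool) : Equiv.Perm (X d) :=
  H l (fun p => ε p && decide (p ∈ Z))

lemma HZ_inv (l : Fin d) (Z : Finset (X d)) (ε : X d → Bool) : (HZ l Z ε)⁻¹ = HZ l Z ε :=
  H_inv _ _

lemma HZ_mul (l : Fin d) (Z : Finset (X d)) (ε δ : X d → Bool) :
    HZ l Z ε * HZ l Z δ = HZ l Z (fun p => xor (ε p) (δ p)) := by
  unfold HZ
  rw [H_mul_H]
  congr 1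
  funext p
  beta_reduce
  generalize ε p = a, δ p = b, decide (p ∈ Z) = c
  cases a <;> cases b <;> cases c <;> rfl

lemma bar_mem {l : Fin d} {Z : Finset (X d)} (hZ : ∀ p ∈ Z, flip l p ∈ Z) {p : X d} :
    bar l p ∈ Z ↔ p ∈ Z := by
  rcases eq_or_flip_of_bar_eq (bar_bar l p).symm with h | h
  · rw [h]
  · rw [h]
    exact ⟨fun h' => by simpa using hZ _ h', hZ p⟩

lemma HZ_mem {l : Fin d} {Z : Finset (X d)} (hZ : ∀ p ∈ Z, flip l p ∈ Z) (ε : X d → Bool) :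
    HZ l Z ε ∈ Stab Zᶜ := by
  rw [mem_Stab]
  intro p hp
  rw [Finset.mem_compl, ← bar_mem hZ] at hp
  simp [HZ, H_apply, hp]

/-- average over one layer of switches inside `Z` -/
noncomputable def PP (l : Fin d) (Z : Finset (X d)) : EE d →L[ℝ] EE d :=
  (Fintype.card (X d → Bool) : ℝ)⁻¹ • ∑ ε, lrep d (HZ l Z ε)

lemma inner_PP (l : Fin d) (Z : Finset (X d)) (x y : EE d) :
    ⟪x, PP l Z y⟫_ℝ = av (fun ε => ⟪x, lrep d (HZ l Z ε) y⟫_ℝ) := by
  rw [PP, _root_.smul_apply, inner_smul_right, _root_.sum_apply, inner_sum, av, div_eq_inv_mul]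

lemma Cm_PP {l : Fin d} {Z : Finset (X d)} (hZ : ∀ p ∈ Z, flip l p ∈ Z) : Cm Z (PP l Z) :=
  (Cm.sum _ fun ε _ => Cm.rho (HZ_mem hZ ε)).smul _

lemma sa_PP (l : Fin d) (Z : Finset (X d)) : IsSelfAdjoint (PP l Z) :=
  sa_smul _ (sa_sum _ fun ε _ => sa_rho (HZ_inv l Z ε))

lemma rho_PP (l : Fin d) (Z : Finset (X d)) (δ : X d → Bool) (y : EE d) :
    lrep d (HZ l Z δ) (PP l Z y) = PP l Z y := by
  refine ext_inner_left ℝ fun x => ?_
  rw [← sa_inner (sa_rho (HZ_inv l Z δ)), inner_PP, inner_PP]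
  simp only [sa_inner (sa_rho (HZ_inv l Z δ)), rho_rho, HZ_mul]
  refine av_bij (e := fun ε : X d → Bool => fun p => xor (δ p) (ε p)) ?_
    (fun ε => ⟪x, lrep d (HZ l Z ε) y⟫_ℝ)
  exact Function.Involutive.bijective fun ε => by funext p; simp

lemma PP_PP (l : Fin d) (Z : Finset (X d)) (y : EE d) : PP l Z (PP l Z y) = PP l Z y := by
  refine ext_inner_left ℝ fun x => ?_
  rw [inner_PP]
  simp only [rho_PP, av_const]

lemma PP_pyth (l : Fin d) (Z : Finset (X d)) (y : EE d) :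
    ‖y - PP l Z y‖ ^ 2 = ‖y‖ ^ 2 - ‖PP l Z y‖ ^ 2 := by
  have h : ⟪y, PP l Z y⟫_ℝ = ‖PP l Z y‖ ^ 2 := by
    rw [← real_inner_self_eq_norm_sq, sa_inner (sa_PP l Z), PP_PP]
  rw [norm_sub_sq_real, h]
  ring

lemma norm_PP_sq (l : Fin d) (Z : Finset (X d)) (y : EE d) : ‖PP l Z y‖ ^ 2 ≤ ‖y‖ ^ 2 := by
  have := PP_pyth l Z y
  nlinarith [sq_nonneg ‖y - PP l Z y‖]

lemma PP_union (l : Fin d) {Z Z' : Finset (X d)} (hd : Disjoint Z Z') :
    PP l (Z ∪ Z') = PP l Z * PP l Z' := by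
  ext1 y
  refine ext_inner_left ℝ fun x => ?_
  rw [mul_apply_eq_comp, inner_PP, inner_PP, av_pw Z]
  refine av_congr fun ε => ?_
  rw [← sa_inner (sa_rho (HZ_inv l Z ε)), inner_PP]
  refine av_congr fun δ => ?_
  rw [sa_inner (sa_rho (HZ_inv l Z ε)), rho_rho]
  congr 3
  unfold HZ
  rw [H_mul_H]
  congr 1
  funext p
  by_cases h : p ∈ Z
  · simp [h, Finset.disjoint_left.1 hd h]
  · simp [h]

/-- average over the first `s` layers inside `Z` -/
noncomputable def QQ (Z : Finset (X d)) : ℕ → (EE d →L[ℝ] EE d)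
  | 0 => 1
  | s + 1 => if h : s < d then QQ Z s * PP ⟨s, h⟩ Z else QQ Z s

lemma QQ_succ (Z : Finset (X d)) {s : ℕ} (h : s < d) : QQ Z (s + 1) = QQ Z s * PP ⟨s, h⟩ Z := by
  simp [QQ, h]

lemma norm_QQ_sq (Z : Finset (X d)) (s : ℕ) : ∀ y : EE d, ‖QQ Z s y‖ ^ 2 ≤ ‖y‖ ^ 2 := by
  induction s with
  | zero => intro y; exact le_rfl
  | succ s ih =>
    intro y
    by_cases h : s < d
    · rw [QQ_succ Z h, mul_apply_eq_comp]
      exact (ih _).trans (norm_PP_sq _ _ _)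
    · simpa [QQ, h] using ih y

lemma Cm_QQ {Z : Finset (X d)} {s : ℕ} (hs : s ≤ d)
    (hZ : ∀ l : Fin d, l.val < s → ∀ p ∈ Z, flip l p ∈ Z) : Cm Z (QQ Z s) := by
  induction s with
  | zero => exact Cm.one Z
  | succ s ih =>
    rw [QQ_succ Z (by omega : s < d)]
    exact (ih (by omega) fun l hl => hZ l (by omega)).mul (Cm_PP (hZ _ (by simp)))

lemma QQ_union {Z Z' : Finset (X d)} (hd : Disjoint Z Z') {s : ℕ} (hs : s ≤ d)
    (hZ : ∀ l : Fin d, l.val < s → ∀ p ∈ Z, flip l p ∈ Z)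
    (hZ' : ∀ l : Fin d, l.val < s → ∀ p ∈ Z', flip l p ∈ Z') :
    QQ (Z ∪ Z') s = QQ Z s * QQ Z' s := by
  induction s with
  | zero => simp [QQ]
  | succ s ih =>
    have h : s < d := by omega
    rw [QQ_succ _ h, QQ_succ _ h, QQ_succ _ h, ih h.le (fun l hl => hZ l (by omega))
      (fun l hl => hZ' l (by omega)), PP_union _ hd]
    have := Cm.comm hd (Cm_PP (hZ ⟨s, h⟩ (by simp))) (Cm_QQ h.le (fun l hl => hZ' l (by omega)))
    rw [mul_assoc, mul_assoc, ← mul_assoc (QQ Z' s), ← this.eq, mul_assoc]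

lemma QQ_univ {s : ℕ} (hs : s ≤ d) :
    ∀ f : EE d, (QQ Finset.univ s f).ofLp = Qs d s f.ofLp := by
  induction s with
  | zero => intro f; rw [Qs_zero]; rfl
  | succ s ih =>
    intro f
    have h : s < d := by omega
    rw [QQ_succ _ h, mul_apply_eq_comp, ih h.le, Qs_succ h]
    congr 1
    funext g
    simp [PP, Pop, av, rho_apply, HZ, H_inv, div_eq_inv_mul]

end Vale.Agent.P162
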