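import Vale.Agent.P162.PartC2

/-! The base estimate and the merging estimate. -/

namespace Vale.Agent.P162

open Finset NormedSpace
open scoped InnerProductSpace

variable {d : ℕ}

lemma swap_flip_eq {l : Fin d} {Z : Finset (X d)} (hZ : ∀ p ∈ Z, flip l p ∈ Z) {p : X d}
    (hp : p ∈ Z) : Equiv.swap p (flip l p) = HZ l Z (fun y => decide (y = bar l p)) := by
  ext1 x
  have hb : bar l p ∈ Z := (bar_mem hZ).2 hp
  rw [HZ, H_apply]
  by_cases h1 : x = p
  · simp [h1, hb]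
  · by_cases h2 : x = flip l p
    · simp [h2, hb]
    · rw [Equiv.swap_apply_of_ne_of_ne h1 h2, if_neg]
      intro h
      simp only [Bool.and_eq_true, decide_eq_true_eq] at h
      rcases eq_or_flip_of_bar_eq h.1.symm with h | h
      · exact h1 h
      · exact h2 h

lemma base_swap {Z : Finset (X d)} {s : ℕ} (hs : s ≤ d)
    (hZ : ∀ l : Fin d, l.val < s → ∀ p ∈ Z, flip l p ∈ Z) (D : ℝ) (hD : 0 ≤ D) :
    ∀ (g : EE d) (p q : X d), p ∈ Z → q ∈ Z → (∀ l : Fin d, s ≤ l.val → p l = q l) →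
      ‖g‖ ^ 2 - ‖QQ Z s g‖ ^ 2 ≤ D ^ 2 →
      ‖g - lrep d (Equiv.swap p q) g‖ ≤ (2 * 2 ^ s - 2) * D := by
  induction s with
  | zero =>
    intro g p q _ _ h _
    have : p = q := funext fun l => h l (Nat.zero_le _)
    rw [this, Equiv.swap_self]
    change ‖g - lrep d 1 g‖ ≤ _
    simp
  | succ s ih =>
    intro g p q hp hq h hg
    have hsd : s < d := by omega
    have hl := hZ ⟨s, hsd⟩ (by simp)
    rw [QQ_succ Z hsd, mul_apply_eq_comp] at hg
    set g' := PP ⟨s, hsd⟩ Z g with hg'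
    have a1 : ‖g - g'‖ ≤ D := by
      refine (pow_le_pow_iff_left₀ (norm_nonneg _) hD two_ne_zero).1 ?_
      rw [hg', PP_pyth]
      linarith [norm_QQ_sq Z s g']
    have a2 : ‖g'‖ ^ 2 - ‖QQ Z s g'‖ ^ 2 ≤ D ^ 2 := by
      linarith [norm_PP_sq ⟨s, hsd⟩ Z g]
    have ih' := ih hsd.le (fun l hl => hZ l (by omega)) g'
    have h2s : (1 : ℝ) ≤ 2 ^ s := one_le_pow₀ (by norm_num)
    have a3 : ‖g' - lrep d (Equiv.swap p q) g'‖ ≤ 2 * ((2 * 2 ^ s - 2) * D) := by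
      by_cases hpq : p ⟨s, hsd⟩ = q ⟨s, hsd⟩
      · have := ih' p q hp hq (fun l hl => by
          rcases Nat.eq_or_lt_of_le hl with e | e
          · have : l = ⟨s, hsd⟩ := Fin.ext e.symm
            rw [this]; exact hpq
          · exact h l e) a2
        nlinarith [mul_nonneg (by linarith : (0 : ℝ) ≤ 2 * 2 ^ s - 2) hD]
      · have b1 := ih' (flip ⟨s, hsd⟩ p) q (hl p hp) hq (fun l hl => by
          rcases Nat.eq_or_lt_of_le hl with e | e
          · have : l = ⟨s, hsd⟩ := Fin.ext e.symm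
            rw [this, flip_self]
            revert hpq
            cases p ⟨s, hsd⟩ <;> cases q ⟨s, hsd⟩ <;> simp
          · rw [flip_ne (fun e' => by rw [e'] at e; simp at e)]
            exact h l e) a2
        have hne : p ≠ q := fun e => hpq (by rw [e])
        have b2 : Equiv.swap p q = Equiv.swap (flip ⟨s, hsd⟩ p) q *
            (Equiv.swap p (flip ⟨s, hsd⟩ p) * Equiv.swap (flip ⟨s, hsd⟩ p) q) := by
          rw [← mul_assoc, Equiv.mul_swap_eq_swap_mul (Equiv.swap (flip ⟨s, hsd⟩ p) q),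
            Equiv.swap_apply_left,
            Equiv.swap_apply_of_ne_of_ne (flip_ne_self _ _).symm hne, mul_assoc,
            Equiv.swap_mul_self, mul_one]
        have b3 : lrep d (Equiv.swap p (flip ⟨s, hsd⟩ p)) g' = g' := by
          rw [swap_flip_eq hl hp, hg', rho_PP]
        have b4 : g' - lrep d (Equiv.swap p q) g' =
            (g' - lrep d (Equiv.swap (flip ⟨s, hsd⟩ p) q) g') +
              lrep d (Equiv.swap (flip ⟨s, hsd⟩ p) q) (lrep d (Equiv.swap p (flip ⟨s, hsd⟩ p))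
                (g' - lrep d (Equiv.swap (flip ⟨s, hsd⟩ p) q) g')) := by
          rw [map_sub, map_sub, b3, rho_rho, rho_rho, mul_assoc, ← b2]
          abel
        rw [b4]
        refine (norm_add_le _ _).trans ?_
        rw [norm_rho, norm_rho]
        linarith
    have a4 : g - lrep d (Equiv.swap p q) g = (g - g') + (g' - lrep d (Equiv.swap p q) g') -
        lrep d (Equiv.swap p q) (g - g') := by
      rw [map_sub]; abel
    rw [a4]
    refine (norm_sub_le _ _).trans ?_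
    rw [norm_rho]
    refine (add_le_add_left (norm_add_le _ _) _).trans ?_
    rw [pow_succ]
    linarith

lemma base_est {Z : Finset (X d)} {s : ℕ} (hs : s ≤ d)
    (hZ : ∀ l : Fin d, l.val < s → ∀ p ∈ Z, flip l p ∈ Z) (hc : Z.card = 2 ^ s)
    (hZ' : ∀ p ∈ Z, ∀ q ∈ Z, ∀ l : Fin d, s ≤ l.val → p l = q l) {η : ℝ}
    (hη : η = (((2 : ℝ) ^ s) ^ 3)⁻¹) (g : EE d) :
    ‖QQ Z s g‖ ^ 2 ≤ Real.exp (-(η * 2 ^ s / 2)) * ‖exp ((η / (4 * 2 ^ s)) • TT Z) g‖ ^ 2 := by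
  refine le_trans ?_ (exp_ge (sa_smul _ (sa_TT Z)) _ g)
  have h0 : 0 ≤ ‖g‖ ^ 2 - ‖QQ Z s g‖ ^ 2 := sub_nonneg.2 (norm_QQ_sq Z s g)
  set D := Real.sqrt (‖g‖ ^ 2 - ‖QQ Z s g‖ ^ 2) with hD
  have hD2 : D ^ 2 = ‖g‖ ^ 2 - ‖QQ Z s g‖ ^ 2 := Real.sq_sqrt h0
  have hD0 : 0 ≤ D := Real.sqrt_nonneg _
  have h1 : ∀ p ∈ Z, ∀ q ∈ Z,
      ‖g‖ ^ 2 - 2 * (2 ^ s) ^ 2 * D ^ 2 ≤ ⟪g, lrep d (Equiv.swap p q) g⟫_ℝ := by
    intro p hp q hq
    have b1 := base_swap hs hZ D hD0 g p q hp hq (hZ' p hp q hq) hD2.ge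
    have b2 : ‖g - lrep d (Equiv.swap p q) g‖ ^ 2 ≤ (2 * 2 ^ s * D) ^ 2 :=
      pow_le_pow_left₀ (norm_nonneg _) (b1.trans (by nlinarith)) 2
    rw [norm_sub_sq_real, norm_rho] at b2
    nlinarith
  have h2 : (2 ^ s) ^ 2 * (‖g‖ ^ 2 - 2 * (2 ^ s) ^ 2 * D ^ 2) ≤ ⟪g, TT Z g⟫_ℝ := by
    simp only [TT, _root_.sum_apply, inner_sum]
    refine le_trans (le_of_eq ?_) (Finset.sum_le_sum fun p hp => Finset.sum_le_sum (h1 p hp))
    simp only [Finset.sum_const, hc, nsmul_eq_mul]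
    push_cast; ring
  rw [_root_.smul_apply, inner_smul_right]
  have hM : (0 : ℝ) < 2 ^ s := by positivity
  have h3 := mul_le_mul_of_nonneg_left h2 (show 0 ≤ η / (4 * 2 ^ s) by rw [hη]; positivity)
  have h4 : η / (4 * 2 ^ s) * ((2 ^ s) ^ 2 * (‖g‖ ^ 2 - 2 * (2 ^ s) ^ 2 * D ^ 2)) =
      η * 2 ^ s / 4 * ‖g‖ ^ 2 - D ^ 2 / 2 := by
    rw [hη]; field_simp; ring
  rw [h4] at h3
  linarith

/-- the signed sum of transpositions -/
noncomputable def TC (l : Fin d) (Z : Finset (X d)) : EE d →L[ℝ] EE d :=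
  ∑ p ∈ Z, ∑ q ∈ Z, (sg (p l) * sg (q l)) • lrep d (Equiv.swap p q)

lemma Cm_TC (l : Fin d) (Z : Finset (X d)) : Cm Z (TC l Z) :=
  Cm.sum _ fun _ hp => Cm.sum _ fun _ hq => (Cm.rho (swap_mem_Stab hp hq)).smul _

lemma sa_TC (l : Fin d) (Z : Finset (X d)) : IsSelfAdjoint (TC l Z) :=
  sa_sum _ fun _ _ => sa_sum _ fun _ _ => sa_smul _ (sa_rho (Equiv.swap_inv _ _))

lemma TC_conj {l : Fin d} {Z : Finset (X d)} (hZ : ∀ p ∈ Z, flip l p ∈ Z) (t : ℝ)
    (ε : X d → Bool) (x : EE d) :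
    (∑ a ∈ Z ×ˢ Z, (t * (sg (ε (bar l a.1)) * sg (ε (bar l a.2)))) •
      ((sg (a.1 l) * sg (a.2 l)) • lrep d (Equiv.swap a.1 a.2))) (lrep d (HZ l Z ε) x) =
      lrep d (HZ l Z ε) ((t • TC l Z) x) := by
  have hm := HZ_mem hZ ε
  have hi : ∀ p, HZ l Z ε (HZ l Z ε p) = p := fun p => H_H _ _ p
  have hs : ∀ p ∈ Z, sg (ε (bar l (HZ l Z ε p))) * sg (HZ l Z ε p l) = sg (p l) := by
    intro p hp
    rw [HZ, bar_H, H_self, sg_xor]
    simp only [(bar_mem hZ).2 hp, decide_true, Bool.and_true]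
    linear_combination sg (p l) * sg_sq (ε (bar l p))
  simp only [TC, Finset.sum_product, _root_.sum_apply, _root_.smul_apply, Finset.smul_sum, map_sum,
    map_smul, rho_rho, smul_smul]
  symm
  refine Finset.sum_nbij' (HZ l Z ε) (HZ l Z ε) (fun p hp => (Stab_maps hm).2 hp)
    (fun p hp => (Stab_maps hm).2 hp) (fun p _ => hi p) (fun p _ => hi p) (fun p hp => ?_)
  refine Finset.sum_nbij' (HZ l Z ε) (HZ l Z ε) (fun p hp => (Stab_maps hm).2 hp)
    (fun p hp => (Stab_maps hm).2 hp) (fun p _ => hi p) (fun p _ => hi p) (fun q hq => ?_)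
  rw [Equiv.mul_swap_eq_swap_mul, ← hs p hp, ← hs q hq]
  congr 1
  ring

lemma sum_bar_sq {l : Fin d} (Z : Finset (X d)) :
    ∑ y, ((Z.filter (fun p => bar l p = y)).card : ℝ) ^ 2 ≤ 2 * Z.card := by
  have h1 : ∑ y, ((Z.filter (fun p => bar l p = y)).card : ℝ) = Z.card := by
    exact_mod_cast (Finset.card_eq_sum_card_fiberwise (fun p _ => Finset.mem_univ (bar l p))).symm
  rw [← h1, Finset.mul_sum]
  refine Finset.sum_le_sum fun y _ => ?_
  have h2 : (Z.filter (fun p => bar l p = y)).card ≤ 2 := by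
    refine le_trans (Finset.card_le_card (t := {y, flip l y}) fun p hp => ?_) Finset.card_le_two
    have := (Finset.mem_filter.1 hp).2
    simpa using eq_or_flip_of_bar_eq (l := l) (p := y) (q := p) (by rw [← this, bar_bar])
  have h3 : ((Z.filter (fun p => bar l p = y)).card : ℝ) ≤ 2 := by exact_mod_cast h2
  rw [sq]
  exact mul_le_mul_of_nonneg_right h3 (Nat.cast_nonneg _)

lemma merge_est {l : Fin d} {Z : Finset (X d)} (hZ : ∀ p ∈ Z, flip l p ∈ Z) {t : ℝ} (ht : 0 ≤ t)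
    (ht' : 16 * t * Z.card ≤ 1) (h : EE d) (hh : ∀ ε, lrep d (HZ l Z ε) h = h) :
    ‖exp (t • TC l Z) h‖ ^ 2 ≤ Real.exp (8 * t * Z.card) * ‖h‖ ^ 2 := by
  rw [norm_exp_sq (sa_smul _ (sa_TC l Z)), ← add_smul]
  refine (dom_exp (Z ×ˢ Z) (fun a => (sg (a.1 l) * sg (a.2 l)) • lrep d (Equiv.swap a.1 a.2))
    (fun a x => ?_) (t + t) (by linarith) (fun a => bar l a.1) (fun a => bar l a.2) h _
    (fun ε j => ?_)).trans ?_
  · rw [_root_.smul_apply, norm_smul, norm_rho, Real.norm_eq_abs, abs_mul, abs_sg, abs_sg]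
    simp
  · have key : ∀ x, ((∑ a ∈ Z ×ˢ Z, ((t + t) * (sg (ε (bar l a.1)) * sg (ε (bar l a.2)))) •
        ((sg (a.1 l) * sg (a.2 l)) • lrep d (Equiv.swap a.1 a.2))) ^ j) (lrep d (HZ l Z ε) x) =
        lrep d (HZ l Z ε) ((((t + t) • TC l Z) ^ j) x) := by
      induction j with
      | zero => intro x; rfl
      | succ j ih =>
        intro x
        rw [pow_succ, pow_succ, mul_apply_eq_comp, mul_apply_eq_comp, TC_conj hZ, ih]
    have := key h
    rw [hh] at this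
    rw [this, ← sa_inner (sa_rho (HZ_inv l Z ε)), hh]
  · refine mul_le_mul_of_nonneg_right ?_ (sq_nonneg _)
    have e : ∀ ε : X d → Bool, ∑ a ∈ Z ×ˢ Z, (t + t) * (sg (ε (bar l a.1)) * sg (ε (bar l a.2))) =
        (t + t) * (∑ y, ((Z.filter (fun p => bar l p = y)).card : ℝ) * sg (ε y)) ^ 2 := by
      intro ε
      have : ∑ y, ((Z.filter (fun p => bar l p = y)).card : ℝ) * sg (ε y) =
          ∑ p ∈ Z, sg (ε (bar l p)) := by
        rw [← Finset.sum_fiberwise (g := bar l) Z]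
        refine Finset.sum_congr rfl fun y _ => ?_
        rw [Finset.sum_congr rfl (fun p hp => by rw [(Finset.mem_filter.1 hp).2]),
          Finset.sum_const, nsmul_eq_mul]
      rw [this, ← Finset.mul_sum, sq, Finset.sum_mul_sum, Finset.sum_product]
    simp only [e]
    refine (av_exp_quad _ (t + t) (2 * Z.card) (by linarith) (sum_bar_sq Z) (by linarith)).trans
      (le_of_eq ?_)
    congr 1
    ring

end Vale.Agent.P162
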