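import Vale.Agent.P162.Basic

/-! Helper lemmas for task D: the degree filtration, push-forwards. -/

namespace Vale.Agent.P162.PD

open Finset Vale.Agent.P162

variable {d : ℕ}

abbrev G (d : ℕ) : Type := Equiv.Perm (X d)

/-- pointwise stabiliser -/
def stab (T : Finset (X d)) : Finset (G d) := univ.filter (fun σ : G d => ∀ i ∈ T, σ i = i)

lemma mem_stab {T : Finset (X d)} {σ : G d} : σ ∈ stab T ↔ ∀ i ∈ T, σ i = i := by simp [stab]

lemma ET_def (T : Finset (X d)) (f : G d → ℝ) (g : G d) :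
    ET T f g = ∑ σ ∈ stab T, f (g * σ) := rfl

lemma card_stab (T : Finset (X d)) : (stab T).card = (2 ^ d - T.card).factorial := by
  have e := Equiv.Perm.subtypeEquivSubtypePerm (fun p : X d => p ∉ T)
  have h1 := Fintype.card_congr e
  rw [Fintype.card_perm, Fintype.card_subtype_compl, Fintype.card_coe, Fintype.card_subtype] at h1
  have h2 : Fintype.card (X d) = 2 ^ d := by simp
  rw [h2] at h1
  rw [h1, stab]
  congr 1
  ext σ
  simp

def InK (k : ℕ) (f : G d → ℝ) : Prop := ∀ T : Finset (X d), T.card = k → ET T f = 0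

def Perp (k : ℕ) (f : G d → ℝ) : Prop := ∀ h : G d → ℝ, InK k h → ∑ g, f g * h g = 0

lemma ET_left (T : Finset (X d)) (f : G d → ℝ) (h g : G d) :
    ET T (fun x => f (h * x)) g = ET T f (h * g) := by
  simp only [ET_def, mul_assoc]

lemma ET_right (T : Finset (X d)) (f : G d → ℝ) (σ g : G d) :
    ET T (fun x => f (x * σ)) g = ET (T.map (σ⁻¹ : G d).toEmbedding) f (g * σ) := by
  simp only [ET_def]
  refine Finset.sum_nbij' (fun τ => σ⁻¹ * τ * σ) (fun τ => σ * τ * σ⁻¹) ?_ ?_ ?_ ?_ ?_
  · intro τ hτ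
    rw [mem_stab] at hτ ⊢
    intro i hi
    obtain ⟨j, hj, rfl⟩ := Finset.mem_map.1 hi
    simp [hτ j hj]
  · intro τ hτ
    rw [mem_stab] at hτ ⊢
    intro i hi
    have := hτ (σ⁻¹ i) (Finset.mem_map.2 ⟨i, hi, rfl⟩)
    rw [Equiv.Perm.mul_apply, Equiv.Perm.mul_apply, this]
    simp
  · intro τ _; group
  · intro τ _; group
  · intro τ _; congr 1; group

lemma InK.left {k : ℕ} {f : G d → ℝ} (hf : InK k f) (h : G d) : InK k (fun x => f (h * x)) := by
  intro T hT
  funext g
  rw [ET_left, hf T hT]; rfl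

lemma InK.right {k : ℕ} {f : G d → ℝ} (hf : InK k f) (σ : G d) : InK k (fun x => f (x * σ)) := by
  intro T hT
  funext g
  rw [ET_right, hf _ (by rw [Finset.card_map, hT])]; rfl

lemma Perp.left {k : ℕ} {f : G d → ℝ} (hf : Perp k f) (h : G d) :
    Perp k (fun x => f (h * x)) := by
  intro u hu
  rw [← hf _ (hu.left h⁻¹), ← Equiv.sum_comp (Equiv.mulLeft h) (fun g => f g * u (h⁻¹ * g))]
  simp

lemma Perp.right {k : ℕ} {f : G d → ℝ} (hf : Perp k f) (σ : G d) :
    Perp k (fun x => f (x * σ)) := by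
  intro u hu
  rw [← hf _ (hu.right σ⁻¹), ← Equiv.sum_comp (Equiv.mulRight σ) (fun g => f g * u (g * σ⁻¹))]
  simp

lemma InK.sum {k : ℕ} {α : Type*} (s : Finset α) (F : α → G d → ℝ) (hF : ∀ a ∈ s, InK k (F a)) :
    InK k (fun g => ∑ a ∈ s, F a g) := by
  intro T hT
  funext g
  rw [ET_def, Finset.sum_comm]
  exact Finset.sum_eq_zero fun a ha => congrFun (hF a ha T hT) g

lemma Perp.sum {k : ℕ} {α : Type*} (s : Finset α) (F : α → G d → ℝ)
    (hF : ∀ a ∈ s, Perp k (F a)) : Perp k (fun g => ∑ a ∈ s, F a g) := by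
  intro u hu
  simp only [Finset.sum_mul]
  rw [Finset.sum_comm]
  exact Finset.sum_eq_zero fun a ha => hF a ha u hu

lemma InK.div {k : ℕ} {f : G d → ℝ} (hf : InK k f) (c : ℝ) : InK k (fun g => f g / c) := by
  intro T hT
  funext g
  have := congrFun (hf T hT) g
  rw [ET_def] at this ⊢
  rw [← Finset.sum_div, this]; simp

lemma Perp.div {k : ℕ} {f : G d → ℝ} (hf : Perp k f) (c : ℝ) : Perp k (fun g => f g / c) := by
  intro u hu
  simp only [div_mul_eq_mul_div]
  rw [← Finset.sum_div, hf u hu, zero_div]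

lemma Perp.sub {k : ℕ} {f f' : G d → ℝ} (hf : Perp k f) (hf' : Perp k f') : Perp k (f - f') := by
  intro u hu
  simp only [Pi.sub_apply, sub_mul]
  rw [Finset.sum_sub_distrib, hf u hu, hf' u hu, sub_zero]

lemma InK.qop {k : ℕ} {f : G d → ℝ} (hf : InK k f) : InK k (Qop d f) :=
  (InK.sum univ (fun ω : Coins d => fun g => f (Bf ω d * g)) fun _ _ => hf.left _).div _

lemma Perp.qop {k : ℕ} {f : G d → ℝ} (hf : Perp k f) : Perp k (Qop d f) :=
  (Perp.sum univ (fun ω : Coins d => fun g => f (Bf ω d * g)) fun _ _ => hf.left _).div _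

lemma InK.iter {k : ℕ} {f : G d → ℝ} (hf : InK k f) (t : ℕ) : InK k ((Qop d)^[t] f) := by
  induction t with
  | zero => exact hf
  | succ t ih => rw [Function.iterate_succ_apply']; exact ih.qop

lemma Perp.iter {k : ℕ} {f : G d → ℝ} (hf : Perp k f) (t : ℕ) : Perp k ((Qop d)^[t] f) := by
  induction t with
  | zero => exact hf
  | succ t ih => rw [Function.iterate_succ_apply']; exact ih.qop

lemma InK.et {k : ℕ} {f : G d → ℝ} (hf : InK k f) (T : Finset (X d)) : InK k (ET T f) :=
  InK.sum (stab T) (fun σ => fun g => f (g * σ)) fun _ _ => hf.right _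

lemma Perp.et {k : ℕ} {f : G d → ℝ} (hf : Perp k f) (T : Finset (X d)) : Perp k (ET T f) :=
  Perp.sum (stab T) (fun σ => fun g => f (g * σ)) fun _ _ => hf.right _

lemma ET_eq_zero_of_subset {T T' : Finset (X d)} (h : T' ⊆ T) {f : G d → ℝ} (hf : ET T f = 0) :
    ET T' f = 0 := by
  funext g
  have h1 : ∑ σ ∈ stab T', ET T f (g * σ) = 0 := by simp [hf]
  simp only [ET_def] at h1
  rw [Finset.sum_comm] at h1
  have h2 : ∀ τ ∈ stab T, ∑ σ ∈ stab T', f (g * σ * τ) = ET T' f g := by
    intro τ hτ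
    rw [mem_stab] at hτ
    rw [ET_def]
    refine Finset.sum_nbij' (fun σ => σ * τ) (fun σ => σ * τ⁻¹) ?_ ?_ ?_ ?_ ?_
    · intro σ hσ
      rw [mem_stab] at hσ ⊢
      intro i hi
      rw [Equiv.Perm.mul_apply, hτ i (h hi), hσ i hi]
    · intro σ hσ
      rw [mem_stab] at hσ ⊢
      intro i hi
      have : τ⁻¹ i = i := by rw [Equiv.Perm.inv_eq_iff_eq, hτ i (h hi)]
      rw [Equiv.Perm.mul_apply, this, hσ i hi]
    · intro σ _; group
    · intro σ _; group
    · intro σ _; rw [mul_assoc]
  rw [Finset.sum_congr rfl h2, Finset.sum_const, card_stab, nsmul_eq_mul] at h1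
  have : (((2 ^ d - T.card).factorial : ℕ) : ℝ) ≠ 0 := by exact_mod_cast Nat.factorial_ne_zero _
  exact (mul_eq_zero.1 h1).resolve_left this

lemma InK.pred {k : ℕ} (hk : k + 1 ≤ 2 ^ d) {f : G d → ℝ} (hf : InK (k + 1) f) : InK k f := by
  intro T hT
  have : ∃ i, i ∉ T := by
    by_contra hc
    push Not at hc
    have : T = univ := Finset.eq_univ_of_forall hc
    rw [this, Finset.card_univ] at hT
    simp at hT
    omega
  obtain ⟨i, hi⟩ := this
  exact ET_eq_zero_of_subset (Finset.subset_insert i T)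
    (hf _ (by rw [Finset.card_insert_of_notMem hi, hT]))

lemma Perp.succ {k : ℕ} (hk : k + 1 ≤ 2 ^ d) {f : G d → ℝ} (hf : Perp k f) : Perp (k + 1) f :=
  fun u hu => hf u (hu.pred hk)

lemma pyth {k : ℕ} {f h : G d → ℝ} (hf : InK k f) (hh : Perp k h) :
    ∑ g, (f g + h g) ^ 2 = ∑ g, f g ^ 2 + ∑ g, h g ^ 2 := by
  have h1 : ∀ g, (f g + h g) ^ 2 = f g ^ 2 + h g ^ 2 + 2 * (h g * f g) := fun g => by ring
  simp only [h1]
  rw [Finset.sum_add_distrib, Finset.sum_add_distrib, ← Finset.mul_sum, hh f hf]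
  ring

lemma ET_add (T : Finset (X d)) (f h : G d → ℝ) : ET T (f + h) = ET T f + ET T h := by
  funext g; simp [ET_def, Finset.sum_add_distrib]

lemma exists_decomp (k : ℕ) (u : G d → ℝ) : ∃ f : G d → ℝ, InK k f ∧ Perp k (u - f) := by
  let K : Submodule ℝ (EuclideanSpace ℝ (G d)) :=
    { carrier := {f | InK k f.ofLp}
      add_mem' := fun {a b} ha hb T hT => by
        rw [WithLp.ofLp_add, ET_add, ha T hT, hb T hT, add_zero]
      zero_mem' := fun T _ => by funext g; simp [ET_def]
      smul_mem' := fun c a ha T hT => by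
        funext g
        have := congrFun (ha T hT) g
        rw [ET_def] at this ⊢
        simp only [WithLp.ofLp_smul, Pi.smul_apply, smul_eq_mul]
        rw [← Finset.mul_sum, this]; simp }
  obtain ⟨y, hy, z, hz, hyz⟩ := K.exists_add_mem_mem_orthogonal (WithLp.toLp 2 u)
  refine ⟨y.ofLp, hy, fun h hh => ?_⟩
  have h1 : u - y.ofLp = z.ofLp := by
    have := congrArg WithLp.ofLp hyz
    rw [WithLp.ofLp_add] at this
    change u = _ at this
    rw [this]; simp
  have h2 := (Submodule.mem_orthogonal K z).1 hz (WithLp.toLp 2 h) hh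
  rw [h1, ← h2, PiLp.inner_apply]
  simp

lemma qop_add {𝒳 : Type*} [MulAction (G d) 𝒳] (f h : 𝒳 → ℝ) :
    Qop d (f + h) = Qop d f + Qop d h := by
  funext x
  exact av_add (fun ω : Coins d => f (Bf ω d • x)) (fun ω => h (Bf ω d • x))

lemma iter_add {𝒳 : Type*} [MulAction (G d) 𝒳] (t : ℕ) (f h : 𝒳 → ℝ) :
    (Qop d)^[t] (f + h) = (Qop d)^[t] f + (Qop d)^[t] h := by
  induction t with
  | zero => rfl
  | succ t ih => simp only [Function.iterate_succ_apply', ih, qop_add]

lemma iter_const {𝒳 : Type*} [MulAction (G d) 𝒳] (t : ℕ) (c : ℝ) :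
    (Qop d)^[t] (fun _ : 𝒳 => c) = fun _ => c := by
  induction t with
  | zero => rfl
  | succ t ih =>
    rw [Function.iterate_succ_apply', ih]
    funext x
    exact av_const c

section push
variable {k : ℕ}

/-- push-forward to tuples -/
noncomputable def push (x₀ : Fin k → X d) (h : G d → ℝ) (y : Fin k → X d) : ℝ :=
  ∑ g ∈ univ.filter (fun g : G d => g • x₀ = y), h g

lemma smul_eq_iff (x₀ : Fin k → X d) (g σ : G d) :
    (g * σ) • x₀ = g • x₀ ↔ σ ∈ stab (univ.image x₀) := by
  rw [mul_smul, smul_left_cancel_iff, mem_stab]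
  constructor
  · intro h i hi
    obtain ⟨j, _, rfl⟩ := Finset.mem_image.1 hi
    exact congrFun h j
  · intro h
    funext j
    exact h _ (Finset.mem_image_of_mem _ (Finset.mem_univ j))

lemma ET_push (x₀ : Fin k → X d) (h : G d → ℝ) (g : G d) :
    ET (univ.image x₀) h g = push x₀ h (g • x₀) := by
  rw [ET_def, push]
  refine Finset.sum_nbij' (fun σ => g * σ) (fun σ => g⁻¹ * σ) ?_ ?_ ?_ ?_ ?_
  · intro σ hσ
    simpa using (smul_eq_iff x₀ g σ).2 hσ
  · intro σ hσ
    rw [← smul_eq_iff x₀ g]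
    simpa using hσ
  · intro σ _; group
  · intro σ _; group
  · intro σ _; rfl

lemma sum_ET_sq (x₀ : Fin k → X d) (h : G d → ℝ) :
    ∑ g, ET (univ.image x₀) h g ^ 2
      = ((2 ^ d - (univ.image x₀).card).factorial : ℝ) * ∑ y, push x₀ h y ^ 2 := by
  simp only [ET_push]
  rw [← Finset.sum_fiberwise univ (fun g : G d => g • x₀), Finset.mul_sum]
  refine Finset.sum_congr rfl fun y _ => ?_
  rw [Finset.sum_congr rfl (g := fun _ => push x₀ h y ^ 2)
    (fun g hg => by rw [(Finset.mem_filter.1 hg).2]), Finset.sum_const, nsmul_eq_mul]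
  by_cases hy : ∃ g : G d, g • x₀ = y
  · obtain ⟨g, rfl⟩ := hy
    have h1 := ET_push x₀ (fun _ => (1 : ℝ)) g
    rw [ET_def, push, Finset.sum_const, Finset.sum_const, card_stab] at h1
    simp only [nsmul_eq_mul, mul_one] at h1
    rw [h1]
  · have : univ.filter (fun g : G d => g • x₀ = y) = ∅ := by
      rw [Finset.filter_eq_empty_iff]
      exact fun g _ hg => hy ⟨g, hg⟩
    simp [push, this]

lemma push_qop (x₀ : Fin k → X d) (h : G d → ℝ) : push x₀ (Qop d h) = Qop d (push x₀ h) := by
  funext y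
  change ∑ g ∈ _, av (fun ω : Coins d => h (Bf ω d * g))
    = av (fun ω : Coins d => push x₀ h (Bf ω d • y))
  rw [← av_sum]
  refine av_congr fun ω => ?_
  rw [push]
  refine Finset.sum_nbij' (fun σ => Bf ω d * σ) (fun σ => (Bf ω d)⁻¹ * σ) ?_ ?_ ?_ ?_ ?_
  · intro σ hσ
    simp only [Finset.mem_filter, Finset.mem_univ, true_and] at hσ ⊢
    rw [mul_smul, hσ]
  · intro σ hσ
    simp only [Finset.mem_filter, Finset.mem_univ, true_and] at hσ ⊢
    rw [mul_smul, hσ, inv_smul_smul]
  · intro σ _; group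
  · intro σ _; group
  · intro σ _; rfl

lemma push_iter (x₀ : Fin k → X d) (h : G d → ℝ) (t : ℕ) :
    push x₀ ((Qop d)^[t] h) = (Qop d)^[t] (push x₀ h) := by
  induction t with
  | zero => rfl
  | succ t ih => simp only [Function.iterate_succ_apply', push_qop, ih]

lemma push_single (x₀ : Fin k → X d) :
    push x₀ (Pi.single (1 : G d) (1 : ℝ)) = Pi.single x₀ (1 : ℝ) := by
  funext y
  simp only [push, Pi.single_apply, Finset.sum_ite_eq', Finset.mem_filter, Finset.mem_univ,
    true_and, one_smul, eq_comm]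

lemma push_noninj {x₀ : Fin k → X d} (hx : Function.Injective x₀) (h : G d → ℝ)
    (y : Fin k → X d) (hy : ¬ Function.Injective y) : push x₀ h y = 0 := by
  refine Finset.sum_eq_zero fun g hg => absurd ?_ hy
  rw [← (Finset.mem_filter.1 hg).2]
  exact g.injective.comp hx

lemma push_marginal {x₀ : Fin (k + 1) → X d} (hx : Function.Injective x₀) {h : G d → ℝ}
    (hh : InK k h) (i : Fin (k + 1)) (y : Fin (k + 1) → X d) :
    ∑ p, push x₀ h (Function.update y i p) = 0 := by
  have h1 : ∑ p, push x₀ h (Function.update y i p)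
      = push (fun j => x₀ (i.succAbove j)) h (fun j => y (i.succAbove j)) := by
    simp only [push]
    rw [← Finset.sum_fiberwise _ (fun g : G d => g (x₀ i))]
    refine Finset.sum_congr rfl fun p _ => Finset.sum_congr ?_ fun _ _ => rfl
    ext g
    simp only [Finset.mem_filter, Finset.mem_univ, true_and]
    constructor
    · intro hg
      refine ⟨funext fun j => ?_, ?_⟩
      · have := congrFun hg (i.succAbove j)
        rwa [Function.update_of_ne (Fin.succAbove_ne i j)] at this
      · have := congrFun hg i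
        rwa [Function.update_self] at this
    · rintro ⟨h1, h2⟩
      funext j
      rcases eq_or_ne j i with rfl | hj
      · rw [Function.update_self]; exact h2
      · obtain ⟨j', rfl⟩ := Fin.exists_succAbove_eq hj
        rw [Function.update_of_ne hj]
        exact congrFun h1 j'
  rw [h1]
  by_cases hy : ∃ g : G d, g • (fun j => x₀ (i.succAbove j)) = fun j => y (i.succAbove j)
  · obtain ⟨g, hg⟩ := hy
    rw [← hg, ← ET_push, hh]
    · rfl
    · have hi : Function.Injective (fun j => x₀ (i.succAbove j)) :=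
        hx.comp Fin.succAbove_right_injective
      rw [Finset.card_image_of_injective _ hi]
      simp
  · exact Finset.sum_eq_zero fun g hg => absurd ⟨g, (Finset.mem_filter.1 hg).2⟩ hy

/-- every `k`-set has `k!` labellings -/
lemma sum_labellings (F : Finset (X d) → ℝ) (hF : ∀ T, 0 ≤ F T) :
    (k.factorial : ℝ) * ∑ T ∈ univ.powersetCard k, F T
      ≤ ∑ x ∈ univ.filter (fun x : Fin k → X d => Function.Injective x), F (univ.image x) := by
  rw [← Finset.sum_fiberwise_of_maps_to (s := univ.filter (fun x : Fin k → X d =>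
    Function.Injective x)) (t := univ.powersetCard k) (g := fun x => univ.image x), Finset.mul_sum]
  · refine Finset.sum_le_sum fun T hT => ?_
    rw [Finset.sum_congr rfl (g := fun _ => F T)
      (fun g hg => by rw [(Finset.mem_filter.1 hg).2]), Finset.sum_const, nsmul_eq_mul]
    refine mul_le_mul_of_nonneg_right ?_ (hF T)
    have hTc : T.card = k := (Finset.mem_powersetCard.1 hT).2
    let e : Fin k ≃ T := (T.equivFinOfCardEq hTc).symm
    have hc : (univ : Finset (Equiv.Perm (Fin k))).card = k.factorial := by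
      simp [Fintype.card_perm]
    rw [← hc, Nat.cast_le]
    refine Finset.card_le_card_of_injOn (fun σ j => (e (σ j) : X d)) ?_ ?_
    · intro σ _
      simp only [Finset.coe_filter, Finset.mem_filter, Finset.mem_univ, true_and, Set.mem_ofPred_eq]
      refine ⟨Subtype.val_injective.comp (e.injective.comp σ.injective), ?_⟩
      ext p
      simp only [Finset.mem_image, Finset.mem_univ, true_and]
      constructor
      · rintro ⟨j, rfl⟩; exact (e (σ j)).2
      · intro hp; exact ⟨σ.symm (e.symm ⟨p, hp⟩), by simp⟩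
    · intro σ _ τ _ hστ
      ext j
      have := congrFun hστ j
      rw [e.injective (Subtype.val_injective this)]
  · intro x hx
    rw [Finset.mem_powersetCard]
    refine ⟨Finset.subset_univ _, ?_⟩
    rw [Finset.card_image_of_injective _ (Finset.mem_filter.1 hx).2]; simp

end push

end Vale.Agent.P162.PD
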