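import Vale.Agent.P162.PartA
import Vale.Agent.P162.PartB
import Vale.Agent.P162.PartC
import Vale.Agent.P162.PartD1

/-! Task D: the chi-square bound. See notes/P162_proof.md, section D. -/

namespace Vale.Agent.P162

open Finset

namespace PD

variable {d : ℕ}

/-- the point mass at the identity -/
noncomputable def dl (d : ℕ) : G d → ℝ := Pi.single (1 : G d) (1 : ℝ)

lemma sum_sq_nonneg {α : Type*} [Fintype α] (f : α → ℝ) : 0 ≤ ∑ a, f a ^ 2 :=
  Finset.sum_nonneg fun _ _ => sq_nonneg _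

lemma level_A (k v : ℕ) (hv : 1 ≤ v) (hk : 2 ^ d ≤ k * 2 ^ v) :
    (k.factorial : ℝ) * ∑ T ∈ univ.powersetCard k, ∑ g, ET T ((Qop d)^[64] (dl d)) g ^ 2
      ≤ ((2 ^ d - k).factorial : ℝ) * (2 ^ (40 * k * v) * Real.exp (378 * k)) := by
  refine (sum_labellings (fun T => ∑ g, ET T ((Qop d)^[64] (dl d)) g ^ 2)
    fun _ => sum_sq_nonneg _).trans ?_
  refine le_trans (le_of_eq ?_) (mul_le_mul_of_nonneg_left (partA d k v hv hk) (Nat.cast_nonneg _))
  rw [Finset.mul_sum]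
  refine Finset.sum_congr rfl fun x hx => ?_
  rw [sum_ET_sq, Finset.card_image_of_injective _ (Finset.mem_filter.1 hx).2, push_iter, dl,
    push_single]
  simp

lemma contract {k : ℕ} {f u : G d → ℝ} (hf : InK k f) (hu : Perp k (u - f)) (T : Finset (X d))
    (t : ℕ) : ∑ g, ET T ((Qop d)^[t] f) g ^ 2 ≤ ∑ g, ET T ((Qop d)^[t] u) g ^ 2 := by
  have h1 : u = f + (u - f) := by abel
  have h2 := pyth ((hf.iter t).et T) ((hu.iter t).et T)
  have h3 : ET T ((Qop d)^[t] u) = ET T ((Qop d)^[t] f) + ET T ((Qop d)^[t] (u - f)) := by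
    rw [← ET_add, ← iter_add, ← h1]
  rw [h3]
  simp only [Pi.add_apply]
  rw [h2]
  linarith [sum_sq_nonneg (ET T ((Qop d)^[t] (u - f)))]

lemma level_B {k : ℕ} {h : G d → ℝ} (hh : InK k h) (T : Finset (X d)) (hT : T.card = k + 1)
    (a : ℕ) : ∑ g, ET T ((Qop d)^[a] h) g ^ 2
      ≤ ((2 ^ 256 * ((k + 1 : ℕ) : ℝ) / 2 ^ d) ^ (((k + 1 : ℕ) : ℝ) / 16)) ^ a
        * ∑ g, ET T h g ^ 2 := by
  let e : Fin (k + 1) ≃ T := (T.equivFinOfCardEq hT).symm
  let x₀ : Fin (k + 1) → X d := fun j => e j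
  have hx : Function.Injective x₀ := Subtype.val_injective.comp e.injective
  have hTx : univ.image x₀ = T := by
    ext p
    simp only [Finset.mem_image, Finset.mem_univ, true_and]
    constructor
    · rintro ⟨j, rfl⟩; exact (e j).2
    · intro hp; exact ⟨e.symm ⟨p, hp⟩, by simp [x₀]⟩
  set Φ : ℝ := (2 ^ 256 * ((k + 1 : ℕ) : ℝ) / 2 ^ d) ^ (((k + 1 : ℕ) : ℝ) / 16) with hΦ
  have hΦ0 : 0 ≤ Φ := by positivity
  induction a with
  | zero => simp
  | succ a ih =>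
    have hB := partB (d := d) (Λ := Fin (k + 1)) (by simp) (push x₀ ((Qop d)^[a] h))
      (push_noninj hx _) (push_marginal hx (hh.iter a))
    rw [Fintype.card_fin, ← hΦ, ← push_qop] at hB
    rw [Function.iterate_succ_apply', pow_succ', mul_assoc]
    refine le_trans ?_ (mul_le_mul_of_nonneg_left ih hΦ0)
    rw [← hTx, sum_ET_sq, sum_ET_sq, mul_left_comm]
    exact mul_le_mul_of_nonneg_left hB (Nat.cast_nonneg _)

lemma level_C {γ : ℝ} {k : ℕ} (hC : ∀ f : G d → ℝ, InK k f →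
      ∑ g, (Qop d f g) ^ 2 ≤ Real.exp (-(γ * 2 ^ d)) * ∑ g, f g ^ 2)
    {h : G d → ℝ} (hh : InK k h) (a : ℕ) :
    ∑ g, ((Qop d)^[a] h g) ^ 2 ≤ Real.exp (-(γ * 2 ^ d)) ^ a * ∑ g, h g ^ 2 := by
  induction a with
  | zero => simp
  | succ a ih =>
    rw [Function.iterate_succ_apply', pow_succ', mul_assoc]
    exact (hC _ (hh.iter a)).trans (mul_le_mul_of_nonneg_left ih (Real.exp_pos _).le)

lemma ET_univ (f : G d → ℝ) : ET univ f = f := by
  funext g
  have : stab (univ : Finset (X d)) = {1} := by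
    ext σ
    rw [mem_stab, Finset.mem_singleton]
    exact ⟨fun h => Equiv.ext fun i => h i (Finset.mem_univ i), fun h i _ => by rw [h]; rfl⟩
  rw [ET_def, this]; simp

/-- the contribution of one level -/
lemma level_step {k : ℕ} (hk : k + 1 ≤ 2 ^ d) {f f' : G d → ℝ} (hf : InK k f)
    (hf1 : Perp k (dl d - f)) (hf' : InK (k + 1) f') (hf1' : Perp (k + 1) (dl d - f'))
    (a v : ℕ) (hv : 1 ≤ v) (hkv : 2 ^ d ≤ (k + 1) * 2 ^ v) :
    ((2 ^ d).factorial : ℝ) * ∑ g, ((Qop d)^[a + 64] f g) ^ 2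
      ≤ ((2 ^ d).factorial : ℝ) * ∑ g, ((Qop d)^[a + 64] f' g) ^ 2
        + ((2 ^ d).choose (k + 1) : ℝ)
          * ((2 ^ 256 * ((k + 1 : ℕ) : ℝ) / 2 ^ d) ^ (((k + 1 : ℕ) : ℝ) / 16)) ^ a
          * (2 ^ (40 * (k + 1) * v) * Real.exp (378 * (k + 1 : ℕ))) := by
  set Φ : ℝ := ((2 ^ 256 * ((k + 1 : ℕ) : ℝ) / 2 ^ d) ^ (((k + 1 : ℕ) : ℝ) / 16)) ^ a with hΦ
  set B : ℝ := 2 ^ (40 * (k + 1) * v) * Real.exp (378 * (k + 1 : ℕ)) with hB
  have hΦ0 : 0 ≤ Φ := by positivity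
  have hu : Perp (k + 1) (f - f') := by
    have := hf1'.sub (hf1.succ hk)
    rwa [show dl d - f' - (dl d - f) = f - f' by abel] at this
  have h1 : (Qop d)^[a + 64] f = (Qop d)^[a + 64] f' + (Qop d)^[a + 64] (f - f') := by
    rw [← iter_add]; congr 1; abel
  have h2 := pyth (hf'.iter (a + 64)) (hu.iter (a + 64))
  have h3 := frame (k + 1) _ (hu.iter (a + 64))
  have h4 : ∑ T ∈ univ.powersetCard (k + 1), ∑ g, ET T ((Qop d)^[a + 64] (f - f')) g ^ 2
      ≤ Φ * ∑ T ∈ univ.powersetCard (k + 1), ∑ g, ET T ((Qop d)^[64] (dl d)) g ^ 2 := by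
    rw [Finset.mul_sum]
    refine Finset.sum_le_sum fun T hT => ?_
    have hTc := (Finset.mem_powersetCard.1 hT).2
    have h5 : ET T ((Qop d)^[a + 64] (f - f')) = ET T ((Qop d)^[a + 64] f) := by
      rw [h1, ET_add, hf'.iter (a + 64) T hTc, zero_add]
    rw [h5, Function.iterate_add_apply]
    exact (level_B (hf.iter 64) T hTc a).trans
      (mul_le_mul_of_nonneg_left (contract hf hf1 T 64) hΦ0)
  have h6 := level_A (d := d) (k + 1) v hv hkv
  rw [← hB] at h6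
  have h7 : (((2 ^ d).choose (k + 1) : ℕ) : ℝ) * ((k + 1).factorial : ℝ)
      * ((2 ^ d - (k + 1)).factorial : ℝ) = ((2 ^ d).factorial : ℝ) := by
    exact_mod_cast Nat.choose_mul_factorial_mul_factorial hk
  set N := ∑ g, ((Qop d)^[a + 64] (f - f') g) ^ 2 with hN
  set S := ∑ T ∈ univ.powersetCard (k + 1), ∑ g, ET T ((Qop d)^[64] (dl d)) g ^ 2 with hS
  set m : ℝ := ((2 ^ d - (k + 1)).factorial : ℝ) with hm
  set c : ℝ := ((k + 1).factorial : ℝ) with hc
  have hm0 : 0 < m := by rw [hm]; exact_mod_cast Nat.factorial_pos _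
  have hc0 : 0 < c := by rw [hc]; exact_mod_cast Nat.factorial_pos _
  have h8 : c * m * N ≤ Φ * B := by
    have h9 : m * (c * m * N) ≤ m * (Φ * B) := by
      calc m * (c * m * N) = c * (m ^ 2 * N) := by ring
        _ ≤ c * (Φ * S) := mul_le_mul_of_nonneg_left (h3.trans h4) hc0.le
        _ = Φ * (c * S) := by ring
        _ ≤ Φ * (m * B) := mul_le_mul_of_nonneg_left h6 hΦ0
        _ = m * (Φ * B) := by ring
    exact le_of_mul_le_mul_left h9 hm0
  rw [h1]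
  simp only [Pi.add_apply]
  rw [h2, mul_add, ← h7]
  have h10 := mul_le_mul_of_nonneg_left h8 (Nat.cast_nonneg (α := ℝ) ((2 ^ d).choose (k + 1)))
  linarith

lemma numer (d k a : ℕ) (hk : 1 ≤ k) (hkd : k ≤ 2 ^ (d - 514)) (hd : 514 ≤ d) (ha : 1408 ≤ a) :
    ∃ v : ℕ, 1 ≤ v ∧ 2 ^ d ≤ k * 2 ^ v ∧ ((2 ^ d).choose k : ℝ)
      * ((2 ^ 256 * (k : ℝ) / 2 ^ d) ^ ((k : ℝ) / 16)) ^ a
      * (2 ^ (40 * k * v) * Real.exp (378 * k)) ≤ (1 / 8) * (1 / 2) ^ k := by
  obtain ⟨j, hj1, hj2⟩ : ∃ j, 2 ^ j ≤ k ∧ k < 2 ^ (j + 1) :=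
    ⟨Nat.log 2 k, Nat.pow_log_le_self 2 (by omega), Nat.lt_pow_succ_log_self (by norm_num) k⟩
  have hj3 : j ≤ d - 514 := (Nat.pow_le_pow_iff_right (by norm_num)).1 (hj1.trans hkd)
  obtain ⟨v, rfl⟩ : ∃ v, d = j + v := ⟨d - j, by omega⟩
  have hv : 514 ≤ v := by omega
  have hkv : 2 ^ (j + v) ≤ k * 2 ^ v := by rw [pow_add]; exact Nat.mul_le_mul_right _ hj1
  refine ⟨v, by omega, hkv, ?_⟩
  have hk0 : (0 : ℝ) < k := by exact_mod_cast hk
  have e4 : Real.exp 1 ≤ 2 ^ 2 := by linarith [Real.exp_one_lt_d9]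
  have eN : ∀ m : ℕ, Real.exp m ≤ 2 ^ (2 * m) := fun m => by
    rw [← Real.exp_one_pow, pow_mul]
    exact pow_le_pow_left₀ (Real.exp_pos _).le e4 m
  have h1 : ((2 ^ (j + v)).choose k : ℝ) ≤ 2 ^ (2 * k + v * k) := by
    refine (Nat.choose_le_pow_div k (2 ^ (j + v))).trans ?_
    have : (((2 ^ (j + v) : ℕ) : ℝ)) ^ k ≤ (k * 2 ^ v) ^ k :=
      pow_le_pow_left₀ (by positivity) (by exact_mod_cast hkv) k
    calc (((2 ^ (j + v) : ℕ) : ℝ)) ^ k / k.factorial ≤ (k * 2 ^ v) ^ k / k.factorial := by gcongr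
      _ = (k : ℝ) ^ k / k.factorial * 2 ^ (v * k) := by rw [mul_pow, ← pow_mul]; ring
      _ ≤ 2 ^ (2 * k) * 2 ^ (v * k) := by
        gcongr
        exact (Real.pow_div_factorial_le_exp _ hk0.le k).trans (eN k)
      _ = _ := by rw [← pow_add]
  have h2 : Real.exp (378 * k) ≤ 2 ^ (2 * (378 * k)) := by
    have := eN (378 * k)
    push_cast at this
    exact this
  have hb : (2 ^ 256 * (k : ℝ) / 2 ^ (j + v)) ≤ (1 / 2) ^ (v - 257) := by
    obtain ⟨w, rfl⟩ : ∃ w, v = 257 + w := ⟨v - 257, by omega⟩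
    have : (k : ℝ) ≤ 2 ^ (j + 1) := by exact_mod_cast hj2.le
    rw [Nat.add_sub_cancel_left, div_le_iff₀ (by positivity), one_div, inv_pow,
      ← div_eq_inv_mul, le_div_iff₀ (by positivity)]
    calc 2 ^ 256 * (k : ℝ) * 2 ^ w ≤ 2 ^ 256 * 2 ^ (j + 1) * 2 ^ w := by gcongr
      _ = _ := by rw [← pow_add, ← pow_add]; congr 1; ring
  have hb0 : 0 ≤ (2 ^ 256 * (k : ℝ) / 2 ^ (j + v)) := by positivity
  have hb1 : (2 ^ 256 * (k : ℝ) / 2 ^ (j + v)) ≤ 1 :=
    hb.trans (pow_le_one₀ (by norm_num) (by norm_num))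
  have h3 : ((2 ^ 256 * (k : ℝ) / 2 ^ (j + v)) ^ ((k : ℝ) / 16)) ^ a
      ≤ (1 / 2) ^ (44 * (v * k)) := by
    calc ((2 ^ 256 * (k : ℝ) / 2 ^ (j + v)) ^ ((k : ℝ) / 16)) ^ a
        ≤ ((2 ^ 256 * (k : ℝ) / 2 ^ (j + v)) ^ ((k : ℝ) / 16)) ^ 1408 :=
          pow_le_pow_of_le_one (by positivity) (Real.rpow_le_one hb0 hb1 (by positivity)) ha
      _ = (2 ^ 256 * (k : ℝ) / 2 ^ (j + v)) ^ (88 * k) := by
          rw [← Real.rpow_natCast _ 1408, ← Real.rpow_mul hb0, ← Real.rpow_natCast _ (88 * k)]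
          congr 1; push_cast; ring
      _ ≤ ((1 / 2) ^ (v - 257)) ^ (88 * k) := pow_le_pow_left₀ hb0 hb _
      _ = (1 / 2) ^ ((v - 257) * (88 * k)) := by rw [← pow_mul]
      _ ≤ _ := by
          refine pow_le_pow_of_le_one (by norm_num) (by norm_num) ?_
          have : v ≤ 2 * (v - 257) := by omega
          calc 44 * (v * k) ≤ 44 * (2 * (v - 257) * k) := by gcongr
            _ = _ := by ring
  calc _ ≤ (2 : ℝ) ^ (2 * k + v * k) * (1 / 2) ^ (44 * (v * k))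
        * (2 ^ (40 * k * v) * 2 ^ (2 * (378 * k))) := by gcongr
    _ = 2 ^ (758 * k + 41 * (v * k)) / 2 ^ (44 * (v * k)) := by
        rw [one_div, inv_pow, show 758 * k + 41 * (v * k)
          = (2 * k + v * k) + (40 * k * v + 2 * (378 * k)) by ring, pow_add _ (2 * k + v * k),
          pow_add _ (40 * k * v)]
        field_simp
    _ ≤ _ := by
        rw [show (1 / 8 : ℝ) * (1 / 2) ^ k = 1 / 2 ^ (k + 3) by
          rw [pow_add, one_div, one_div, inv_pow]; field_simp; norm_num,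
          div_le_div_iff₀ (by positivity) (by positivity), one_mul, ← pow_add]
        refine pow_le_pow_right₀ (by norm_num) ?_
        have := Nat.mul_le_mul_right k hv
        generalize v * k = w at this ⊢
        omega

end PD

open PD in
theorem partD : ∃ a d₀ : ℕ, ∀ d : ℕ, d₀ ≤ d →
    ((2 ^ d).factorial : ℝ) * ∑ g : Equiv.Perm (X d),
      ((Qop d)^[a] (Pi.single (1 : Equiv.Perm (X d)) (1 : ℝ)) g - 1 / ((2 ^ d).factorial : ℝ)) ^ 2
      ≤ 1 / 4 := by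
  obtain ⟨γ, hγ, hC⟩ := partC 514 (by norm_num)
  obtain ⟨a, ha1, ha2⟩ : ∃ a : ℕ, 1408 ≤ a ∧ 421 ≤ a * γ := by
    obtain ⟨a, ha⟩ := exists_nat_ge (421 / γ)
    refine ⟨max a 1408, le_max_right _ _, ?_⟩
    rw [div_le_iff₀ hγ] at ha
    have : (a : ℝ) ≤ (max a 1408 : ℕ) := by exact_mod_cast le_max_left _ _
    nlinarith
  refine ⟨a + 64, 517, fun d hd => ?_⟩
  choose f hf hf1 using fun k => exists_decomp (d := d) k (dl d)
  have hn0 : (0 : ℝ) < ((2 ^ d).factorial : ℝ) := by exact_mod_cast Nat.factorial_pos _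
  have hcard : (Fintype.card (G d) : ℝ) = ((2 ^ d).factorial : ℝ) := by
    simp [Fintype.card_perm]
  -- level zero
  set f0 : G d → ℝ := dl d + fun _ => -(1 / ((2 ^ d).factorial : ℝ)) with hf0
  have hst : stab (∅ : Finset (X d)) = univ := by ext σ; simp [mem_stab]
  have hsum : ∀ (u : G d → ℝ) (g : G d), ET ∅ u g = ∑ x, u x := fun u g => by
    rw [ET_def, hst]; exact Equiv.sum_comp (Equiv.mulLeft g) u
  have k0 : InK 0 f0 := by
    intro T hT
    rw [Finset.card_eq_zero] at hT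
    subst hT
    funext g
    rw [hsum, hf0]
    simp only [Pi.add_apply, Finset.sum_add_distrib, dl, Finset.sum_const, Finset.card_univ,
      nsmul_eq_mul, hcard, Pi.zero_apply]
    rw [Finset.sum_pi_single']
    simp only [Finset.mem_univ, if_true]
    field_simp
    ring
  have p0 : Perp 0 (dl d - f0) := by
    intro u hu
    have := congrFun (hu ∅ rfl) 1
    rw [hsum] at this
    simp only [hf0, Pi.sub_apply, Pi.add_apply, sub_add_cancel_left]
    rw [← Finset.mul_sum, this]; simp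
  have e0 : ∀ g, (Qop d)^[a + 64] (Pi.single (1 : G d) (1 : ℝ)) g - 1 / ((2 ^ d).factorial : ℝ)
      = (Qop d)^[a + 64] f0 g := fun g => by
    rw [hf0, iter_add, iter_const]; rfl
  simp only [e0]
  have hle : 2 ^ (d - 514) ≤ 2 ^ d := Nat.pow_le_pow_right (by norm_num) (by omega)
  have ind : ∀ k, k ≤ 2 ^ (d - 514) → ∃ u, InK k u ∧ Perp k (dl d - u) ∧
      ((2 ^ d).factorial : ℝ) * ∑ g, ((Qop d)^[a + 64] f0 g) ^ 2
        ≤ ((2 ^ d).factorial : ℝ) * ∑ g, ((Qop d)^[a + 64] u g) ^ 2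
          + (1 / 8) * (1 - (1 / 2) ^ k) := by
    intro k
    induction k with
    | zero => intro _; exact ⟨f0, k0, p0, by simp⟩
    | succ k ih =>
      intro hk
      obtain ⟨u, hu, hu1, hu2⟩ := ih (by omega)
      obtain ⟨v, hv, hkv, hnum⟩ := numer d (k + 1) a (by omega) hk (by omega) ha1
      have := level_step (hk.trans hle) hu hu1 (hf (k + 1)) (hf1 (k + 1)) a v hv hkv
      refine ⟨f (k + 1), hf _, hf1 _, ?_⟩
      have e : (1 / 2 : ℝ) ^ (k + 1) = (1 / 2) ^ k * (1 / 2) := pow_succ _ _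
      rw [e] at hnum ⊢
      linarith
  obtain ⟨u, hu, hu1, hu2⟩ := ind _ le_rfl
  have t1 := level_C (hC d (by omega)) (hu.iter 64) a
  have t2 := contract hu hu1 univ 64
  rw [ET_univ, ET_univ] at t2
  have t3 := level_A (d := d) (2 ^ d) 1 le_rfl (by omega)
  have hpc : (univ : Finset (X d)).powersetCard (2 ^ d) = {univ} := by
    have : (univ : Finset (X d)).card = 2 ^ d := by simp
    rw [← this, Finset.powersetCard_self]
  rw [hpc, Finset.sum_singleton, ET_univ, Nat.sub_self, Nat.factorial_zero, Nat.cast_one,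
    one_mul] at t3
  have hn1 : (1 : ℝ) ≤ 2 ^ d := one_le_pow₀ (by norm_num)
  have t4 : (2 : ℝ) ^ (40 * 2 ^ d * 1) ≤ Real.exp (40 * 2 ^ d) := by
    have : (2 : ℝ) ≤ Real.exp 1 := by linarith [Real.add_one_le_exp 1]
    refine (pow_le_pow_left₀ (by norm_num) this _).trans (le_of_eq ?_)
    rw [Real.exp_one_pow]; push_cast; ring_nf
  have t5 : ((2 ^ d).factorial : ℝ) * ∑ g, ((Qop d)^[a + 64] u g) ^ 2 ≤ Real.exp (-3) := by
    rw [Function.iterate_add_apply]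
    calc _ ≤ ((2 ^ d).factorial : ℝ) * (Real.exp (-(γ * 2 ^ d)) ^ a
          * ∑ g, ((Qop d)^[64] (dl d) g) ^ 2) := by
          refine mul_le_mul_of_nonneg_left (t1.trans ?_) hn0.le
          exact mul_le_mul_of_nonneg_left t2 (by positivity)
      _ = Real.exp (-(γ * 2 ^ d)) ^ a * (((2 ^ d).factorial : ℝ)
          * ∑ g, ((Qop d)^[64] (dl d) g) ^ 2) := by ring
      _ ≤ Real.exp (-(γ * 2 ^ d)) ^ a * (Real.exp (40 * 2 ^ d) * Real.exp (378 * 2 ^ d)) := by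
          refine mul_le_mul_of_nonneg_left (t3.trans ?_) (by positivity)
          push_cast
          gcongr
      _ ≤ _ := by
          rw [← Real.exp_nat_mul, ← Real.exp_add, ← Real.exp_add, Real.exp_le_exp]
          nlinarith
  have t6 : Real.exp (-3) ≤ 1 / 8 := by
    rw [Real.exp_neg, one_div]
    refine inv_anti₀ (by norm_num) ?_
    have := Real.quadratic_le_exp_of_nonneg (x := 3) (by norm_num)
    linarith
  have t7 : (0 : ℝ) ≤ (1 / 2) ^ 2 ^ (d - 514) := by positivity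
  linarith

end Vale.Agent.P162
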